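import Vale.Agent.P189.Gap

namespace Vale.Agent.P189

open MeasureTheory Filter Topology ProbabilityTheory
open scoped ENNReal Pointwise symmDiff

set_option linter.unusedSectionVars false

noncomputable def coin : Measure Bool := (2 : ℝ≥0∞)⁻¹ • Measure.count

lemma coin_single (b : Bool) : coin {b} = 2⁻¹ := by simp [coin]

instance : IsProbabilityMeasure coin := ⟨by
  simp only [coin, Measure.smul_apply, Measure.count_univ, smul_eq_mul]
  simpa using ENNReal.inv_mul_cancel (a := 2) (by simp) (by simp)⟩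

lemma coin_not : coin.map (fun b => !b) = coin := by
  refine Measure.ext_of_singleton fun b => ?_
  rw [Measure.map_apply (measurable_of_countable _) (measurableSet_singleton _)]
  have : (fun b => !b) ⁻¹' {b} = {!b} := by ext c; cases b <;> cases c <;> simp
  rw [this, coin_single, coin_single]

variable {G : Type} [Group G] [Countable G] [DecidableEq G]

variable (G) in
noncomputable def bm : Measure (G → Bool) := Measure.infinitePi fun _ => coin

instance : IsProbabilityMeasure (bm G) := by unfold bm; infer_instance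

variable (G) in
noncomputable def bern : PmpAction G (bm G) where
  act x g := fun h => x (g * h)
  act_one x := by simp
  act_mul x g h := by simp [mul_assoc]
  mp g := by
    refine ⟨by fun_prop, ?_⟩
    have hi : iIndepFun (fun (i : G) (x : G → Bool) => x i) (bm G) :=
      iIndepFun_infinitePi (P := fun _ : G => coin) (X := fun _ v => v) fun _ => measurable_id
    have h := (hi.precomp (mul_right_injective g)).map_fun_eq_infinitePi_map (fun i => by fun_prop)
    have h2 : ∀ i : G, (bm G).map (fun x : G → Bool => x (g * i)) = coin := fun i =>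
      Measure.infinitePi_map_eval (fun _ : G => coin) (g * i)
    simp only [h2] at h
    exact h

lemma mp_flip (i : G) : MeasurePreserving
    (fun (x : G → Bool) j => (if j = i then fun b => !b else id) (x j)) (bm G) (bm G) := by
  refine ⟨measurable_pi_lambda _ fun j =>
    (measurable_of_countable _).comp (measurable_pi_apply j), ?_⟩
  unfold bm
  rw [Measure.infinitePi_map_pi _ fun j => measurable_of_countable _]
  congr 1
  funext j
  split_ifs
  · exact coin_not
  · exact Measure.map_id

def sg (b : Bool) : ℝ := if b then -1 else 1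

lemma sg_sq (b : Bool) : sg b * sg b = 1 := by cases b <;> simp [sg]

def chi (I : Finset G) : C(G → Bool, ℝ) :=
  ⟨fun x => ∏ i ∈ I, sg (x i), continuous_finsetProd _ fun i _ =>
    (continuous_of_discreteTopology (f := sg)).comp (continuous_apply i)⟩

lemma chi_apply (I : Finset G) (x : G → Bool) : chi I x = ∏ i ∈ I, sg (x i) := rfl

lemma chi_mul (I J : Finset G) : chi I * chi J = chi (I ∆ J) := by
  ext x
  simp only [ContinuousMap.mul_apply, chi_apply]
  rw [← Finset.prod_sdiff (Finset.inter_subset_left (s₁ := I) (s₂ := J)),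
    ← Finset.prod_sdiff (Finset.inter_subset_right (s₁ := I) (s₂ := J)), symmDiff_def,
    Finset.sup_eq_union, Finset.prod_union disjoint_sdiff_sdiff, Finset.sdiff_inter_self_left,
    Finset.sdiff_inter_self_right]
  have : (∏ i ∈ I ∩ J, sg (x i)) * ∏ i ∈ I ∩ J, sg (x i) = 1 := by
    rw [← Finset.prod_mul_distrib]; simp [sg_sq]
  linear_combination ((∏ i ∈ I \ J, sg (x i)) * ∏ i ∈ J \ I, sg (x i)) * this

lemma int_chi (I : Finset G) : ∫ x, chi I x ∂bm G = if I = ∅ then 1 else 0 := by
  split_ifs with h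
  · simp [h, chi_apply]
  · obtain ⟨i, hi⟩ := Finset.nonempty_iff_ne_empty.2 h
    have h1 := integral_map (μ := bm G) (mp_flip i).measurable.aemeasurable
      (f := fun x => chi I x) (chi I).continuous.aestronglyMeasurable
    rw [(mp_flip i).map_eq] at h1
    have h2 : ∀ x : G → Bool,
        chi I (fun j => (if j = i then fun b => !b else id) (x j)) = -chi I x := fun x => by
      simp only [chi_apply]
      rw [← Finset.mul_prod_erase I _ hi, ← Finset.mul_prod_erase I _ hi, if_pos rfl,
        Finset.prod_congr rfl fun j hj => by rw [if_neg (Finset.ne_of_mem_erase hj)]]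
      cases x i <;> simp [sg]
    simp_rw [h2, integral_neg] at h1
    linarith

lemma span_chi : (Submodule.span ℝ (Set.range (chi (G := G)))).topologicalClosure = ⊤ := by
  let M : Submonoid C(G → Bool, ℝ) :=
    { carrier := Set.range chi
      one_mem' := ⟨∅, by ext; simp [chi_apply]⟩
      mul_mem' := by rintro _ _ ⟨I, rfl⟩ ⟨J, rfl⟩; exact ⟨_, (chi_mul I J).symm⟩ }
  have h1 := Algebra.adjoin_eq_span ℝ (Set.range (chi (G := G)))
  have h2 : (Submonoid.closure (Set.range (chi (G := G))) : Set C(G → Bool, ℝ)) =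
      Set.range (chi (G := G)) :=
    congrArg SetLike.coe (Submonoid.closure_eq M)
  rw [h2] at h1
  rw [← h1]
  refine congr_arg Subalgebra.toSubmodule
    (ContinuousMap.subalgebra_topologicalClosure_eq_top_of_separatesPoints _ fun x y hxy => ?_)
  obtain ⟨i, hi⟩ := Function.ne_iff.1 hxy
  refine ⟨_, ⟨chi {i}, Algebra.subset_adjoin ⟨_, rfl⟩, rfl⟩, ?_⟩
  simp only [chi_apply, Finset.prod_singleton]
  revert hi
  cases x i <;> cases y i <;> norm_num [sg]

noncomputable def chiL (I : Finset G) : Lp ℝ 2 (bm G) := ContinuousMap.toLp 2 (bm G) ℝ (chi I)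

lemma on_chiL : Orthonormal ℝ (chiL (G := G)) := by
  rw [orthonormal_iff_ite]
  intro I J
  rw [chiL, chiL, ContinuousMap.inner_toLp]
  have : ∀ x, chi J x * (starRingEnd ℝ) (chi I x) = chi (J ∆ I) x := fun x => by
    rw [← chi_mul]; rfl
  simp_rw [this, int_chi, ← Finset.bot_eq_empty, symmDiff_eq_bot, eq_comm]

lemma span_chiL : (Submodule.span ℝ (Set.range (chiL (G := G)))).topologicalClosure = ⊤ := by
  convert! (ContinuousMap.toLp_denseRange ℝ (bm G) ℝ
    (p := 2) (by simp)).topologicalClosure_map_submodule span_chi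
  rw [Submodule.map_span]
  unfold chiL
  rw [Set.range_comp']
  simp only [ContinuousLinearMap.coe_coe]

noncomputable def coef (f : (G → Bool) → ℝ) (I : Finset G) : ℝ := ∫ x, chi I x * f x ∂bm G

lemma parseval {f : (G → Bool) → ℝ} (hf : MemLp f 2 (bm G)) :
    HasSum (fun I => coef f I ^ 2) (∫ x, f x ^ 2 ∂bm G) := by
  have h := (HilbertBasis.mk on_chiL span_chiL.ge).hasSum_inner_mul_inner (hf.toLp f) (hf.toLp f)
  have e1 : ∀ I, inner ℝ (chiL I) (hf.toLp f) = coef f I := fun I => by
    rw [L2.inner_def]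
    refine integral_congr_ae ?_
    filter_upwards [hf.coeFn_toLp, ContinuousMap.coeFn_toLp (p := 2) (𝕜 := ℝ) (bm G) (chi I)]
      with x h1 h2
    rw [h1, chiL, h2]; simp [mul_comm]
  have e2 : inner ℝ (hf.toLp f) (hf.toLp f) = ∫ x, f x ^ 2 ∂bm G := by
    rw [L2.inner_def]
    refine integral_congr_ae ?_
    filter_upwards [hf.coeFn_toLp] with x h1
    rw [h1]; simp [sq]
  simp only [HilbertBasis.coe_mk, e2] at h
  have e3 : ∀ I, inner ℝ (hf.toLp f) (chiL I) * inner ℝ (chiL I) (hf.toLp f) = coef f I ^ 2 :=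
    fun I => by rw [real_inner_comm, e1, sq]
  simpa only [e3] using h

lemma int_chi_mul {f : (G → Bool) → ℝ} (hf : MemLp f 2 (bm G)) (I : Finset G) :
    Integrable (fun x => chi I x * f x) (bm G) :=
  (hf.integrable (by norm_num)).bdd_mul (c := ‖chi I‖) (chi I).continuous.aestronglyMeasurable
    (ae_of_all _ fun x => (chi I).norm_coe_le_norm x)

lemma coef_act {f : (G → Bool) → ℝ} (hf : MemLp f 2 (bm G)) (g : G) (I : Finset G) :
    coef (fun x => f ((bern G).act x g)) I = coef f (g⁻¹ • I) := by
  have h1 := integral_map (μ := bm G) ((bern G).meas g).aemeasurable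
    (f := fun x => chi (g⁻¹ • I) x * f x)
    (by rw [((bern G).mp g).map_eq]; exact (int_chi_mul hf _).aestronglyMeasurable)
  rw [((bern G).mp g).map_eq] at h1
  unfold coef
  rw [h1]
  congr 1
  funext x
  congr 1
  simp only [chi_apply, bern]
  rw [Finset.smul_finset_def, Finset.prod_image (MulAction.injective g⁻¹).injOn]
  simp

lemma coef_sub {f g : (G → Bool) → ℝ} (hf : MemLp f 2 (bm G)) (hg : MemLp g 2 (bm G))
    (I : Finset G) : coef (fun x => f x - g x) I = coef f I - coef g I := by
  unfold coef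
  rw [← integral_sub (int_chi_mul hf I) (int_chi_mul hg I)]
  simp only [mul_sub]

lemma memLp_ind {P : Set (G → Bool)} (hP : MeasurableSet P) :
    MemLp (P.indicator (1 : (G → Bool) → ℝ)) 2 (bm G) := (memLp_const 1).indicator hP

lemma memLp_cen {P : Set (G → Bool)} (hP : MeasurableSet P) :
    MemLp (fun x => P.indicator (1 : (G → Bool) → ℝ) x - (bm G).real P) 2 (bm G) :=
  (memLp_ind hP).sub (memLp_const _)

lemma coef_cen {P : Set (G → Bool)} (hP : MeasurableSet P) :
    coef (fun x => P.indicator (1 : (G → Bool) → ℝ) x - (bm G).real P) ∅ = 0 := by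
  simp only [coef, chi_apply, Finset.prod_empty, one_mul]
  rw [integral_sub ((integrable_const 1).indicator hP) (integrable_const _),
    integral_indicator_one hP]
  simp

lemma fin_ord {g : G} {I : Finset G} (hI : I.Nonempty) (h : g • I = I) : IsOfFinOrder g := by
  obtain ⟨i, hi⟩ := hI
  have h1 : ∀ n : ℕ, g ^ n * i ∈ I := fun n => by
    induction n with
    | zero => simpa using hi
    | succ n ih => rw [pow_succ', mul_assoc, ← h]; exact Finset.smul_mem_smul_finset ih
  rw [← finite_powers]
  refine Set.Finite.subset ((I.finite_toSet).image (· * i⁻¹)) ?_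
  rintro _ ⟨n, rfl⟩
  exact ⟨_, h1 n, by simp⟩

lemma fin_level {f : (G → Bool) → ℝ} (hf : MemLp f 2 (bm G)) {r : ℝ} (hr : r ≠ 0) :
    {I | coef f I = r}.Finite := by
  have h := (parseval hf).summable.tendsto_cofinite_zero.eventually
    (gt_mem_nhds (sq_pos_of_ne_zero hr))
  exact (Filter.eventually_cofinite.1 h).subset fun I hI => by
    simp only [Set.mem_ofPred_eq] at hI ⊢; rw [hI]; exact lt_irrefl _

lemma bern_free [Infinite G] : (bern G).EssFree := by
  intro g hg
  have hP : MeasurableSet {x | (bern G).act x g = x} :=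
    measurableSet_eq_fun ((bern G).meas g) measurable_id
  by_contra h0
  have hr : (bm G).real {x | (bern G).act x g = x} ≠ 0 := by
    rwa [Ne, measureReal_eq_zero_iff]
  refine Set.infinite_univ (α := G) (((fin_level (memLp_ind hP) hr).biUnion
    fun I _ => I.finite_toSet).subset fun h _ => Set.mem_biUnion (x := {h, g * h}) ?_ (by simp))
  simp only [Set.mem_ofPred_eq, coef]
  rw [← integral_indicator_one hP]
  congr 1
  funext x
  by_cases hx : (bern G).act x g = x
  · have : x (g * h) = x h := congrFun hx h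
    rw [chi_apply, Finset.prod_pair (by simpa using hg), this, sg_sq, one_mul]
  · simp [Set.indicator, hx]

lemma bern_erg {z : G} (hz : ¬IsOfFinOrder z) {U : Set (G → Bool)} (hU : MeasurableSet U)
    (h : ∀ x, (bern G).act x z ∈ U ↔ x ∈ U) : (bm G).real U * (1 - (bm G).real U) = 0 := by
  have hf := memLp_cen hU
  set f := fun x => U.indicator (1 : (G → Bool) → ℝ) x - (bm G).real U with hfd
  have h1 : ∀ I, coef f (z⁻¹ • I) = coef f I := fun I => by
    rw [← coef_act hf]
    congr 1
    funext x
    by_cases hx : x ∈ U <;> simp [hfd, Set.indicator, h, hx]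
  have h2 : ∀ (n : ℕ) I, coef f (z⁻¹ ^ n • I) = coef f I := fun n I => by
    induction n with
    | zero => simp
    | succ n ih => rw [pow_succ', mul_smul, h1, ih]
  have h3 : ∀ I, coef f I = 0 := fun I => by
    rcases I.eq_empty_or_nonempty with rfl | hI
    · exact coef_cen hU
    by_contra hr
    refine Set.infinite_of_injective_forall_mem (f := fun n : ℕ => z⁻¹ ^ n • I) ?_
      (fun n => h2 n I) (fin_level hf hr)
    have key : ∀ n m : ℕ, n < m → z⁻¹ ^ n • I ≠ z⁻¹ ^ m • I := fun n m hnm e => by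
      obtain ⟨k, rfl⟩ := Nat.exists_eq_add_of_lt hnm
      rw [add_assoc, pow_add, mul_smul, smul_left_cancel_iff] at e
      exact hz (((fin_ord hI e.symm).of_pow (by omega)).of_inv)
    intro n m e
    rcases lt_trichotomy n m with h | h | h
    · exact absurd e (key n m h)
    · exact h
    · exact absurd e.symm (key m n h)
  have h4 := parseval hf
  simp only [h3] at h4
  rw [← int_sq_cen hU]
  exact h4.unique (by simp)

lemma bern_cyl (s : Finset G) (p : G → Bool) :
    (bm G).real {x | ∀ i ∈ s, x i = p i} = (1 / 2) ^ s.card := by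
  have h := Measure.infinitePi_pi (fun _ : G => coin) (s := s) (t := fun i => {p i})
    fun _ _ => measurableSet_singleton _
  simp only [coin_single, Finset.prod_const] at h
  have e : {x : G → Bool | ∀ i ∈ s, x i = p i} = (s : Set G).pi fun i => {p i} := rfl
  rw [measureReal_def, e, bm, h]
  simp

lemma ms_cyl (s : Finset G) (p : G → Bool) : MeasurableSet {x : G → Bool | ∀ i ∈ s, x i = p i} :=
  MeasurableSet.pi (t := fun i => {p i}) s.countable_toSet fun _ _ => measurableSet_singleton _

lemma bern_hit [Infinite G] {z : G} (hz : ¬IsOfFinOrder z) (ε : ℝ) (hε : 0 < ε) :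
    ∃ Y, MeasurableSet Y ∧ (bm G).real Y ≤ ε ∧
      ∀ᵐ x ∂bm G, ∃ k : ℤ, (bern G).act x (z ^ k) ∈ Y := by
  obtain ⟨n, hn⟩ := exists_pow_lt_of_lt_one hε (show (1 / 2 : ℝ) < 1 by norm_num)
  obtain ⟨s, hs⟩ := Infinite.exists_subset_card_eq G n
  have hY := ms_cyl s fun _ => true
  refine ⟨_, hY, by rw [bern_cyl, hs]; exact hn.le, ?_⟩
  set Y := {x : G → Bool | ∀ i ∈ s, x i = true}
  have hU : MeasurableSet {x | ∃ k : ℤ, (bern G).act x (z ^ k) ∈ Y} := by
    simp only [Set.ofPred_exists]
    exact MeasurableSet.iUnion fun k => (bern G).meas _ hY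
  have h1 := bern_erg hz hU fun x => by
    simp only [Set.mem_ofPred_eq, (bern G).act_mul]
    constructor
    · rintro ⟨k, hk⟩; exact ⟨1 + k, by rwa [zpow_add, zpow_one]⟩
    · rintro ⟨k, hk⟩; exact ⟨k - 1, by rwa [← zpow_one_add, add_sub_cancel]⟩
  have h2 : 0 < (bm G).real {x | ∃ k : ℤ, (bern G).act x (z ^ k) ∈ Y} := by
    refine lt_of_lt_of_le ?_ (measureReal_mono (s₁ := Y) fun x hx => ⟨0, by simpa using hx⟩)
    rw [bern_cyl]; positivity
  have h3 := (mul_eq_zero.1 h1).resolve_left h2.ne'
  rw [← probReal_compl_eq_one_sub hU, measureReal_eq_zero_iff] at h3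
  exact h3

lemma bern_cov [Infinite G] : Cov (bern G) := by
  obtain ⟨s, hs⟩ := Infinite.exists_subset_card_eq G 3
  have hall : ∃ 𝒜 : Set (Set (G → Bool)), 𝒜.Finite ∧
      (∀ A ∈ 𝒜, MeasurableSet A ∧ (bm G).real A ≤ 1 / 8) ∧ ∀ x, ∃ A ∈ 𝒜, x ∈ A := by
    refine ⟨Set.range fun p : s → Bool =>
      {x | ∀ i ∈ s, x i = if h : i ∈ s then p ⟨i, h⟩ else true}, Set.finite_range _, ?_,
      fun x => ⟨_, ⟨fun i => x i, rfl⟩, fun i hi => by simp [hi]⟩⟩
    rintro _ ⟨p, rfl⟩
    exact ⟨ms_cyl _ _, by rw [bern_cyl, hs]; norm_num⟩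
  refine ⟨hall, fun e => ?_⟩
  obtain ⟨𝒜, a1, a2, a3⟩ := hall
  by_cases he : e = 1
  · exact ⟨𝒜, a1, fun A hA => ⟨(a2 A hA).1, (a2 A hA).2, fun h => absurd he h⟩, fun x _ => a3 x⟩
  obtain ⟨𝒞, c1, c2, c3⟩ := indep_cover (bern G) e (J := G × Bool)
    (fun j => {x | x j.1 = j.2 ∧ x (e * j.1) ≠ j.2})
    (fun j => (measurableSet_eq_fun (measurable_pi_apply j.1) measurable_const).inter
      (measurableSet_eq_fun (measurable_pi_apply (e * j.1)) measurable_const).compl)
    fun j x hx hy => hx.2 hy.1
  refine ⟨Set.image2 (· ∩ ·) 𝒜 𝒞, a1.image2 _ c1, ?_, fun x hx => ?_⟩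
  · rintro _ ⟨A, hA, C, hC, rfl⟩
    exact ⟨(a2 A hA).1.inter (c2 C hC).1, (measureReal_mono Set.inter_subset_left).trans
      (a2 A hA).2, fun _ x hx hy => (c2 C hC).2 x hx.2 hy.2⟩
  · obtain ⟨A, hA, hxA⟩ := a3 x
    obtain ⟨i, hi⟩ := Function.ne_iff.1 fun h => he (hx e h)
    obtain ⟨C, hC, hxC⟩ := c3 (i, x i) x ⟨rfl, hi⟩
    exact ⟨_, Set.mem_image2_of_mem hA hC, hxA, hxC⟩

lemma bern_gap (gen : Bool → G) (hinj : Function.Injective (FreeGroup.lift gen))
    (T : Set (G → Bool)) (hT : MeasurableSet T)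
    (h1 : (bm G).real {x | (bern G).act x (gen true) ∈ T ∧
      ¬(x ∈ T ∧ (bern G).act x (gen false) ∈ T)} ≤ 1 / 200)
    (h2 : (bm G).real T ≤ 1 / 2) : (bm G).real T ≤ 1 / 4 := by
  letI : MulAction F (Finset G) := MulAction.compHom _ (FreeGroup.lift gen)
  have hf := memLp_cen hT
  let P : Bool → Set (G → Bool) := fun l => {x | (bern G).act x (gen l) ∈ T}
  have mP : ∀ l, MeasurableSet (P l) := fun l => (bern G).meas _ hT
  have rP : ∀ l, (bm G).real (P l) = (bm G).real T := fun l => Env.real_pre hT _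
  have key := paradox (J := Finset G) Finset.Nonempty (fun I hI f e => by
      by_contra hne
      exact (hinj.isOfFinOrder_iff.1 (fin_ord hI e)).eq_one' |> hne) _
    (fun I hI => by rw [Finset.not_nonempty_iff_eq_empty.1 hI]; exact coef_cen hT) (parseval hf)
    (A := fun l => (bm G).real (P l \ T) + (bm G).real (T \ P l)) fun l => by
      have h3 := hf.comp_measurePreserving ((bern G).mp (gen l))
      have h4 := parseval (h3.sub hf)
      rw [← int_sq_ind (mP l) hT]
      convert h4 using 3 with I x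
      · rw [show (FreeGroup.of l : F)⁻¹ • I = (gen l)⁻¹ • I by
          simp [MulAction.compHom_smul_def], ← coef_act hf]
        exact (coef_sub h3 hf I).symm
      · simp [P, Set.indicator]
  rw [int_sq_cen hT, ← real_diff_comm (mP false) hT (rP _), ← real_diff_comm (mP true) hT (rP _)]
    at key
  have a1 : (bm G).real (P true \ T) ≤ 1 / 200 :=
    le_trans (measureReal_mono fun x hx => by exact ⟨hx.1, fun h => hx.2 h.1⟩) h1
  have a2 : (bm G).real (P true \ P false) ≤ 1 / 200 :=
    le_trans (measureReal_mono fun x hx => by exact ⟨hx.1, fun h => hx.2 h.2⟩) h1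
  rw [real_diff_comm (mP _) (mP _) ((rP _).trans (rP _).symm)] at a2
  have a3 : (bm G).real (P false \ T) ≤ (bm G).real (P false \ P true) + (bm G).real (P true \ T) :=
    (measureReal_mono fun x hx => by
      by_cases h : x ∈ P true
      · exact Or.inr ⟨h, hx.2⟩
      · exact Or.inl ⟨hx.1, h⟩).trans (measureReal_union_le _ _)
  by_contra hc
  nlinarith

end Vale.Agent.P189
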