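import Vale.Agent.P189.State

namespace Vale.Agent.P189

open MeasureTheory FreeGroup Finset

set_option linter.unusedSectionVars false

variable {G : Type} [Group G] {X : Type} [MeasurableSpace X] {μ : Measure X}
  {S H : Type} [DecidableEq S] [Fintype S] [DecidableEq H] [Fintype H]

/-- the finite set cut out by a predicate -/
noncomputable def fl (P : S × S → Prop) : Finset (S × S) := by
  classical exact univ.filter P

lemma mem_fl {P : S × S → Prop} {q} : q ∈ fl P ↔ P q := by simp [fl]

lemma ig_fl [IsFiniteMeasure μ] {P : X → S × S → Prop} (h : ∀ q, MeasurableSet {x | P x q}) :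
    Ig μ fun x => (fl (P x)).card :=
  Ig.of_ms ((Ms.pi fun q => Ms.of_set (h q)).comp fun p => (fl p).card) _ fun _ => card_le_univ _

namespace Data
variable (D : Data G S H) (α : PmpAction G μ) [IsProbabilityMeasure μ]

noncomputable def dF (σ : X → Loc S H) (γ : Option Bool) (x : X) : Finset (S × S) :=
  fl fun q => q ∈ D.E α σ γ x ∧
    ∃ n, D.Reach α σ n (α.act x (D.gen3 γ)) q.2 ∧ ¬D.Reach α σ n x q.1

noncomputable def dB (σ : X → Loc S H) (γ : Option Bool) (x : X) : Finset (S × S) :=
  fl fun q => q ∈ D.E α σ γ x ∧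
    ∃ n, D.Reach α σ n x q.1 ∧ ¬D.Reach α σ n (α.act x (D.gen3 γ)) q.2

lemma ig_dF {σ : X → Loc S H} (hσ : Ms σ) (γ : Option Bool) :
    Ig μ fun x => (D.dF α σ γ x).card := by
  refine ig_fl fun q => ?_
  simp only [Set.ofPred_exists, Set.ofPred_and]
  exact ((D.ms_E α hσ γ).set fun T => q ∈ T).inter (MeasurableSet.iUnion fun n =>
    (α.meas _ (D.ms_reach α hσ n q.2)).inter (D.ms_reach α hσ n q.1).compl)

lemma ig_dB {σ : X → Loc S H} (hσ : Ms σ) (γ : Option Bool) :
    Ig μ fun x => (D.dB α σ γ x).card := by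
  refine ig_fl fun q => ?_
  simp only [Set.ofPred_exists, Set.ofPred_and]
  exact ((D.ms_E α hσ γ).set fun T => q ∈ T).inter (MeasurableSet.iUnion fun n =>
    (D.ms_reach α hσ n q.1).inter (α.meas _ (D.ms_reach α hσ n q.2)).compl)

def Rc (l : Loc S H) : ℕ := ({l.s D.p0, l.s D.p1, l.s D.p2} : Finset S).card

lemma cls_le_down {σ : X → Loc S H} (hR : ∀ x u, D.Rch α σ x u) (x : X) :
    cls (σ x).s ≤ D.Rc (σ x) + ∑ γ, ((D.dF α σ γ x).card +
      (D.dB α σ γ (α.act x (D.gen3 γ)⁻¹)).card) := by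
  classical
  have hs : univ.image (σ x).s ⊆ {(σ x).s D.p0, (σ x).s D.p1, (σ x).s D.p2} ∪
      univ.biUnion fun γ => (D.dF α σ γ x).image Prod.fst ∪
        (D.dB α σ γ (α.act x (D.gen3 γ)⁻¹)).image Prod.snd := by
    intro c hc
    obtain ⟨u, -, rfl⟩ := mem_image.1 hc
    have hex := hR x u
    unfold Rch at hex
    have h1 := Nat.find_spec hex
    have h2 := fun m => Nat.find_min hex (m := m)
    generalize Nat.find hex = n at h1 h2
    cases n with
    | zero => exact mem_union_left _ (by simpa [Reach] using h1)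
    | succ n =>
      have h3 := h2 n (Nat.lt_succ_self n)
      obtain ⟨γ, c', h4⟩ := h1.resolve_left h3
      refine mem_union_right _ (mem_biUnion.2 ⟨γ, mem_univ _, ?_⟩)
      rcases h4 with h4 | h4
      · exact mem_union_left _ (mem_image.2 ⟨(_, c'), mem_fl.2 ⟨h4.1, n, h4.2, h3⟩, rfl⟩)
      · refine mem_union_right _ (mem_image.2 ⟨(c', _), mem_fl.2 ⟨h4.1, n, h4.2, ?_⟩, rfl⟩)
        simpa using h3
  refine (card_le_card hs).trans ((card_union_le _ _).trans (Nat.add_le_add_left ?_ _))
  exact card_biUnion_le.trans (sum_le_sum fun γ _ =>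
    (card_union_le _ _).trans (Nat.add_le_add card_image_le card_image_le))

lemma down_le (σ : X → Loc S H) (γ : Option Bool) (x : X) (T : Finset (S × S))
    (hT : ∀ q ∈ T, q ∈ D.E α σ γ x ∧ D.Reach α σ 0 x q.1 ∧
      D.Reach α σ 0 (α.act x (D.gen3 γ)) q.2) :
    T.card + (D.dF α σ γ x).card + (D.dB α σ γ x).card ≤ (D.E α σ γ x).card := by
  rw [← card_union_of_disjoint, ← card_union_of_disjoint]
  · refine card_le_card fun q hq => ?_
    rcases mem_union.1 hq with hq | hq
    · rcases mem_union.1 hq with hq | hq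
      · exact (hT q hq).1
      · exact (mem_fl.1 hq).1
    · exact (mem_fl.1 hq).1
  · rw [disjoint_left]
    intro q hq hq'
    obtain ⟨-, n, h1, h2⟩ := mem_fl.1 hq'
    rcases mem_union.1 hq with hq | hq
    · exact h2 ((hT q hq).2.2.mono (Nat.zero_le _))
    · obtain ⟨-, m, h3, h4⟩ := mem_fl.1 hq
      rcases le_total n m with h | h
      · exact h4 (h1.mono h)
      · exact h2 (h3.mono h)
  · rw [disjoint_left]
    intro q hq hq'
    obtain ⟨-, n, -, h2⟩ := mem_fl.1 hq'
    exact h2 ((hT q hq).2.1.mono (Nat.zero_le _))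

def Sx (σ : X → Loc S H) (x : X) : Prop := (σ x).s D.p0 = (σ x).s D.p1

def Px (σ : X → Loc S H) (x : X) : Prop :=
  D.Sx σ (α.act x (D.gen true)) ∧ ¬(D.Sx σ x ∧ D.Sx σ (α.act x (D.gen false)))

lemma ms_Sx {σ : X → Loc S H} (hσ : Ms σ) : MeasurableSet {x | D.Sx σ x} :=
  hσ.set fun l => l.s D.p0 = l.s D.p1

lemma ms_Px {σ : X → Loc S H} (hσ : Ms σ) : MeasurableSet {x | D.Px α σ x} :=
  (α.meas _ (D.ms_Sx hσ)).inter ((D.ms_Sx hσ).inter (α.meas _ (D.ms_Sx hσ))).compl

lemma real_ineq (a0 a1 a2 b0 b1 c0 c1 : S) :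
    ({a0, a1, a2} : Finset S).card + 1 + ind (a0 = a1) + ind (c0 = c1 ∧ ¬(a0 = a1 ∧ b0 = b1)) ≤
      ({(a1, b0), (a2, b1)} : Finset (S × S)).card +
      ({(a0, c0), (a2, c1)} : Finset (S × S)).card + ind (c0 = c1) := by
  by_cases h01 : a0 = a1 <;> by_cases h12 : a1 = a2 <;> by_cases h02 : a0 = a2 <;>
    by_cases hb : b0 = b1 <;> by_cases hc : c0 = c1 <;>
    simp_all [ind, card_insert_of_notMem]

lemma alive_le (l : Loc S H) : D.K * (alive l).card ≤ D.Zc l := by
  unfold Zc alive
  rw [← sum_filter, mul_comm, ← smul_eq_mul, ← sum_const]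
  exact sum_le_sum fun _ _ => Nat.le_add_right _ _

theorem pot_ge {σ : X → Loc S H} (hσ : Ms σ) (hI : D.Inv α σ) (hR : ∀ x u, D.Rch α σ x u) :
    D.K * (1 + μ.real {x | D.Px α σ x}) ≤ D.pot α σ := by
  have iF := D.ig_dF α hσ
  have iB := D.ig_dB α hσ
  have iBs := fun γ => (iB γ).pre (α.mp (D.gen3 γ)⁻¹)
  have eBs := fun γ => Ex_pre (iB γ) (α.mp (D.gen3 γ)⁻¹)
  have iRc : Ig μ fun x => D.Rc (σ x) := Ig.of_ms (hσ.comp D.Rc) _ fun _ => card_le_univ _
  have iS := Ig.ind (μ := μ) (D.ms_Sx hσ)
  have iSt := iS.pre (α.mp (D.gen true))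
  have eSt := Ex_pre iS (α.mp (D.gen true))
  have iP := Ig.ind (μ := μ) (D.ms_Px α hσ)
  have iA := D.ig_EA α hσ
  have iZ := D.ig_Zc α hσ hI
  have i1 := Ig.const (μ := μ) 1
  have h1 := Ex_mono (ig_cls hσ) (iRc.add (((iF none).add (iBs none)).add
    (((iF (some true)).add (iBs (some true))).add ((iF (some false)).add (iBs (some false))))))
    (fun x => by simpa [Fintype.sum_option, Fintype.sum_bool] using D.cls_le_down α hR x)
  rw [Ex_add iRc (((iF none).add (iBs none)).add
    (((iF (some true)).add (iBs (some true))).add ((iF (some false)).add (iBs (some false))))),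
    Ex_add ((iF none).add (iBs none))
    (((iF (some true)).add (iBs (some true))).add ((iF (some false)).add (iBs (some false)))),
    Ex_add ((iF (some true)).add (iBs (some true))) ((iF (some false)).add (iBs (some false))),
    Ex_add (iF none) (iBs none), Ex_add (iF _) (iBs _), Ex_add (iF _) (iBs _), eBs, eBs, eBs] at h1
  have h2 := Ex_mono (((iF none).add (iB none)).mul D.K) iZ (fun x => by
    have := D.down_le α σ none x ∅ (by simp)
    refine le_trans (Nat.mul_le_mul_left _ ?_) (D.alive_le (σ x))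
    have h' : (D.E α σ none x).card ≤ (alive (σ x)).card := card_image_le.trans card_image_le
    simp only [card_empty, zero_add] at this
    omega)
  rw [Ex_mul, Ex_add (iF _) (iB _)] at h2
  have h3 := Ex_mono
    ((((iRc.add i1).add iS).add iP).add
      (((iF (some true)).add (iB (some true))).add ((iF (some false)).add (iB (some false)))))
    (((iA false).add (iA true)).add iSt) (fun x => by
      have a1 := D.down_le α σ (some false) x
        {((σ x).s D.p1, (σ (α.act x (D.gen false))).s D.p0),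
          ((σ x).s D.p2, (σ (α.act x (D.gen false))).s D.p1)} (by
          intro q hq
          simp only [mem_insert, mem_singleton] at hq
          rcases hq with rfl | rfl
          · exact ⟨mem_image_of_mem _ D.wa1, Or.inr (Or.inl rfl), Or.inl rfl⟩
          · exact ⟨mem_image_of_mem _ D.wa2, Or.inr (Or.inr rfl), Or.inr (Or.inl rfl)⟩)
      have a2 := D.down_le α σ (some true) x
        {((σ x).s D.p0, (σ (α.act x (D.gen true))).s D.p0),
          ((σ x).s D.p2, (σ (α.act x (D.gen true))).s D.p1)} (by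
          intro q hq
          simp only [mem_insert, mem_singleton] at hq
          rcases hq with rfl | rfl
          · exact ⟨mem_image_of_mem _ D.wt1, Or.inl rfl, Or.inl rfl⟩
          · exact ⟨mem_image_of_mem _ D.wt2, Or.inr (Or.inr rfl), Or.inr (Or.inl rfl)⟩)
      have a3 := real_ineq ((σ x).s D.p0) ((σ x).s D.p1) ((σ x).s D.p2)
        ((σ (α.act x (D.gen false))).s D.p0) ((σ (α.act x (D.gen false))).s D.p1)
        ((σ (α.act x (D.gen true))).s D.p0) ((σ (α.act x (D.gen true))).s D.p1)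
      simp only [E] at a1 a2
      simp only [Rc, Sx, Px, EA]
      omega)
  rw [Ex_add (((iRc.add i1).add iS).add iP)
      (((iF (some true)).add (iB (some true))).add ((iF (some false)).add (iB (some false)))),
    Ex_add ((iRc.add i1).add iS) iP, Ex_add (iRc.add i1) iS, Ex_add iRc i1, Ex_const,
    Ex_add ((iF (some true)).add (iB (some true))) ((iF (some false)).add (iB (some false))),
    Ex_add (iF _) (iB _), Ex_add (iF _) (iB _), Ex_add ((iA false).add (iA true)) iSt,
    Ex_add (iA _) (iA _), eSt, Ex_ind (D.ms_Px α hσ)] at h3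
  unfold pot
  have hK : (0 : ℝ) ≤ D.K := Nat.cast_nonneg _
  have h4 : 1 + μ.real {x | D.Px α σ x} ≤ Ex μ (D.EA α σ false) + Ex μ (D.EA α σ true) -
      Ex μ (fun x => cls (σ x).s) +
      (Ex μ (fun x => (D.dF α σ none x).card) + Ex μ fun x => (D.dB α σ none x).card) := by
    push_cast at h3
    linarith
  nlinarith [mul_le_mul_of_nonneg_left h4 hK]

end Data

end Vale.Agent.P189
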