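import Mathlib

namespace Vale.Agent.P189

open MeasureTheory
open scoped ENNReal

/-- A measure-preserving right action of the group `G` on `(X, μ)`, written `act x g`. -/
structure PmpAction (G : Type) [Group G] {X : Type} [MeasurableSpace X] (μ : Measure X) where
  act : X → G → X
  act_one : ∀ x, act x 1 = x
  act_mul : ∀ x g h, act (act x g) h = act x (g * h)
  mp : ∀ g, MeasurePreserving (fun x => act x g) μ μ

/-- A measure-preserving Borel bijection from the Borel set `dom` onto the Borel set `cod`
(only the values of `f` on `dom` matter). -/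
structure PartIso {X : Type} [MeasurableSpace X] (μ : Measure X) where
  dom : Set X
  cod : Set X
  f : X → X
  dom_meas : MeasurableSet dom
  cod_meas : MeasurableSet cod
  bij : Set.BijOn f dom cod
  mp : MeasurePreserving f (μ.restrict dom) (μ.restrict cod)

variable {G : Type} [Group G] {X : Type} [MeasurableSpace X] {μ : Measure X}

/-- The orbit equivalence relation. -/
def PmpAction.Rel (α : PmpAction G μ) (x y : X) : Prop := ∃ g : G, y = α.act x g

/-- Essential freeness: every nontrivial element fixes a null set. -/
def PmpAction.EssFree (α : PmpAction G μ) : Prop :=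
  ∀ g : G, g ≠ 1 → μ {x | α.act x g = x} = 0

/-- A graphing of the orbit equivalence relation of `α`. -/
structure Graphing (α : PmpAction G μ) where
  ι : Type
  countable : Countable ι
  φ : ι → PartIso μ
  rel : ∀ i, ∀ x ∈ (φ i).dom, α.Rel x ((φ i).f x)

/-- `y` is obtained from `x` by one of the maps of the graphing or by one of their inverses. -/
def Graphing.Step {α : PmpAction G μ} (Φ : Graphing α) (x y : X) : Prop :=
  ∃ i, (x ∈ (Φ.φ i).dom ∧ y = (Φ.φ i).f x) ∨ (y ∈ (Φ.φ i).dom ∧ x = (Φ.φ i).f y)

/-- The graphing generates the orbit equivalence relation. -/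
def Graphing.Generates {α : PmpAction G μ} (Φ : Graphing α) : Prop :=
  ∀ᵐ x ∂μ, ∀ y, α.Rel x y → Relation.ReflTransGen Φ.Step x y

/-- The cost of a graphing. -/
noncomputable def Graphing.cost {α : PmpAction G μ} (Φ : Graphing α) : ℝ≥0∞ :=
  ∑' i, μ (Φ.φ i).dom

/-- The cost of the action: the infimum of the costs of the generating graphings. -/
noncomputable def PmpAction.cost (α : PmpAction G μ) : ℝ≥0∞ :=
  ⨅ (Φ : Graphing α) (_ : Φ.Generates), Φ.cost

/-- All essentially free p.m.p. actions on standard probability spaces have the same cost. -/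
def FixedPrice (G : Type) [Group G] : Prop :=
  ∀ (X : Type) [MeasurableSpace X] [StandardBorelSpace X] (μ : Measure X)
    [IsProbabilityMeasure μ] (Y : Type) [MeasurableSpace Y] [StandardBorelSpace Y]
    (ν : Measure Y) [IsProbabilityMeasure ν] (α : PmpAction G μ) (β : PmpAction G ν),
    α.EssFree → β.EssFree → α.cost = β.cost

end Vale.Agent.P189
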