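import Vale.Agent.P189.Phase

namespace Vale.Agent.P189

open MeasureTheory Finset

set_option linter.unusedSectionVars false

variable {G : Type} [Group G] {X : Type} [MeasurableSpace X] {μ : Measure X}
  {S H : Type} [DecidableEq S] [Fintype S] [DecidableEq H] [Fintype H]

namespace Data
variable (D : Data G S H) (α : PmpAction G μ)

def zz (ε : Bool) : G := if ε then D.z else D.z⁻¹

def ZW (σ : X → Loc S H) (n : ℕ) (P : H → Prop) : X → S → F → List (H × Bool × F) → S → Prop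
  | x, u, f, [], v => D.T α σ n x u f v
  | x, u, f, a :: l, v => P a.1 ∧ D.T α σ n x u f (D.en (!a.2.1) a.1) ∧
      ZW σ n P (α.act x (D.ι f * D.zz a.2.1)) (D.en a.2.1 a.1) a.2.2 l v

def tot (f : F) (l : List (H × Bool × F)) : G :=
  D.ι f * (l.map fun a => D.zz a.2.1 * D.ι a.2.2).prod

def nrm (f : F) (l : List (H × Bool × F)) : ℕ := f.norm + (l.map fun a => a.2.2.norm).sum

def Britton : Prop := ∀ f (l : List (H × Bool × F)), D.tot f l = 1 →
  l = [] ∨ ∃ l1 h ε g h' g' l2, l = l1 ++ (h, ε, g) :: (h', !ε, g') :: l2 ∧ g ∈ D.B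

variable {D α}

lemma ZW.mono {σ σ' : X → Loc S H} (hc : ∀ x, Co (σ x).s (σ' x).s) {n m P} (hn : n ≤ m)
    {x u f l v} (h : D.ZW α σ n P x u f l v) : D.ZW α σ' m P x u f l v := by
  induction l generalizing x u f with
  | nil => exact TW.le (TW.co hc h) hn
  | cons a l ih => exact ⟨h.1, TW.le (TW.co hc h.2.1) hn, ih h.2.2⟩

lemma ZW.pre {σ : X → Loc S H} {n m P x y u g u' f l v} (t : D.T α σ n x u g u')
    (h : D.ZW α σ m P y u' f l v) (hy : y = α.act x (D.ι g)) :
    D.ZW α σ (n + m) P x u (g * f) l v := by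
  subst hy
  cases l with
  | nil => exact TW.trans t h rfl
  | cons a l =>
    refine ⟨h.1, TW.trans t h.2.1 rfl, ?_⟩
    have := h.2.2.mono (fun _ => Co.refl _) (Nat.le_add_left m n)
    simpa [mul_assoc] using this

lemma sd_zz (ε : Bool) : (D.sd (!ε))⁻¹ * D.sd ε = D.zz ε := by cases ε <;> simp [sd, zz]

lemma zz_not (ε : Bool) : D.zz (!ε) = (D.zz ε)⁻¹ := by cases ε <;> simp [zz]

lemma zz_comm (ε : Bool) {g : F} (hg : g ∈ D.B) : D.zz ε * D.ι g * D.zz (!ε) = D.ι g := by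
  have := D.comm g hg
  rw [zz_not, mul_inv_eq_iff_eq_mul]
  cases ε
  · simp only [zz, Bool.false_eq_true, if_false]
    rw [inv_mul_eq_iff_eq_mul, ← mul_assoc]
    exact eq_mul_inv_of_mul_eq this.symm
  · exact this

lemma ZW.pinch {σ σ' : X → Loc S H} (hc : ∀ x, Co (σ x).s (σ' x).s) {n Λ L P}
    (Hp : ∀ y d h h' f, α.Free y → P h → f ∈ D.B → f.norm ≤ L →
      D.T α σ n (α.act y (D.sd d)) (D.en d h) f (D.en d h') → ∀ d',
      D.T α σ' Λ (α.act y (D.sd d')) (D.en d' h) f (D.en d' h'))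
    {l1 h ε g h' g' l2} (hg : g ∈ D.B) (hL : g.norm ≤ L) {x u f v} (hx : α.Free x)
    (Z : D.ZW α σ n P x u f (l1 ++ (h, ε, g) :: (h', !ε, g') :: l2) v) :
    ∃ f1 l', l'.length = l1.length + l2.length ∧
      D.tot f1 l' = D.tot f (l1 ++ (h, ε, g) :: (h', !ε, g') :: l2) ∧
      nrm f1 l' ≤ nrm f (l1 ++ (h, ε, g) :: (h', !ε, g') :: l2) ∧
      D.ZW α σ' (n + Λ + n) P x u f1 l' v := by
  induction l1 generalizing x u f with
  | nil =>
    obtain ⟨hP, t1, -, t2, Z⟩ := Z
    simp only [Bool.not_not] at t1 t2 Z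
    refine ⟨f * g * g', l2, by simp, ?_, ?_, ?_⟩
    · simp only [tot, List.nil_append, List.map_cons, List.prod_cons, map_mul]
      conv_lhs => rw [← zz_comm ε hg]
      simp only [mul_assoc]
    · have := FreeGroup.norm_mul_le (f * g) g'
      have := FreeGroup.norm_mul_le f g
      simp only [nrm, List.nil_append, List.map_cons, List.sum_cons]; omega
    · have t3 := Hp (α.act x (D.ι f * (D.sd (!ε))⁻¹)) ε h h' g (hx.act _) hP hg hL (by
        rwa [α.act_mul, mul_assoc, sd_zz]) (!ε)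
      refine ZW.pre (TW.trans (TW.co hc t1) t3 (by simp [ι])) (Z.mono hc le_rfl) ?_
      rw [α.act_mul, map_mul, ← zz_comm ε hg]
      simp only [mul_assoc, zz_comm ε hg]
      rw [← mul_assoc (D.zz ε), zz_comm ε hg]
  | cons a l1 ih =>
    obtain ⟨hP, t1, Z⟩ := Z
    obtain ⟨f1, l', e1, e2, e3, Z'⟩ := ih (hx.act _) Z
    refine ⟨f, (a.1, a.2.1, f1) :: l', by simp [e1]; omega, ?_, ?_, hP,
      TW.le (TW.co hc t1) (by omega), Z'⟩
    · simp only [tot, List.cons_append, List.map_cons, List.prod_cons, mul_assoc] at e2 ⊢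
      rw [e2]
    · simp only [nrm, List.cons_append, List.map_cons, List.sum_cons] at e3 ⊢
      omega

lemma zw_of_walk {σ : X → Loc S H} {P x u w v}
    (Hw : Walk α D.gen3 (D.Wall P) (fun x => (σ x).s) x u w v) :
    ∃ f l, D.ZW α σ w.length P x u f l v ∧ D.tot f l = val D.gen3 w ∧ nrm f l ≤ w.length ∧
      l.length ≤ w.length := by
  induction Hw with
  | nil e => exact ⟨1, [], TW.refl e, by simp [tot], by simp [nrm], le_rfl⟩
  | @step x u u' v' l w v e d _ ih =>
    obtain ⟨f, l', Z, e1, e2, e3⟩ := ih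
    obtain ⟨c, b⟩ := l
    cases c with
    | some c =>
      have hv : val D.gen3 [(some c, b)] = D.ι (FreeGroup.mk [(c, b)]) := by
        cases b <;> simp [val, ι, gen3]
      have t : D.T α σ 1 x u (FreeGroup.mk [(c, b)]) v' :=
        ⟨[(c, b)], le_rfl, rfl, Walk.step e d (Walk.nil rfl)⟩
      refine ⟨_, l', (ZW.pre t Z (by rw [hv])).mono (fun _ => Co.refl _) (by simp; omega), ?_, ?_,
        by simp; omega⟩
      · rw [val_cons, ← e1, hv]; simp only [tot, map_mul, mul_assoc]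
      · have := FreeGroup.norm_mul_le (FreeGroup.mk [(c, b)]) f
        have := FreeGroup.norm_mk_le (L₁ := [(c, b)])
        simp only [nrm, List.length_cons, List.length_nil] at *; omega
    | none =>
      have hv : val D.gen3 [(none, b)] = D.zz b := by cases b <;> simp [val, zz, gen3]
      obtain ⟨h, hP, rfl, rfl⟩ : ∃ h, P h ∧ u' = D.en (!b) h ∧ v' = D.en b h := by
        rcases d with ⟨hb, h, d⟩ | ⟨hb, h, d⟩
        · simp only at hb; subst hb; exact ⟨h, d⟩
        · simp only at hb; subst hb; exact ⟨h, d.1, d.2.2, d.2.1⟩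
      refine ⟨1, (h, b, f) :: l', ⟨hP, TW.refl e, ?_⟩, ?_, ?_, by simpa using e3⟩
      · rw [hv] at Z
        simpa using Z.mono (fun _ => Co.refl _) (Nat.le_succ _)
      · rw [val_cons, ← e1, hv]; simp [tot, mul_assoc]
      · simp only [nrm, List.length_cons, List.map_cons, List.sum_cons, FreeGroup.norm_one] at *
        omega

end Data

namespace Env
open Data
variable {D : Data G S H} {α : PmpAction G μ} [IsProbabilityMeasure μ] {V : Env D α}

lemma finish (hC : Cov α) (hι : Function.Injective D.ι) (hB : D.Britton) {P L wh}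
    (hW : Wh D α P L wh) (J n : ℕ) (σ : X → Loc S H) (hσ : V.Good σ) :
    ∃ σ', V.Good σ' ∧ D.Le α σ σ' ∧ ∀ x u f l v, α.Free x → D.ZW α σ n P x u f l v →
      D.tot f l = 1 → nrm f l ≤ L → l.length ≤ J → (σ' x).s u = (σ' x).s v := by
  induction J generalizing n σ with
  | zero =>
    obtain ⟨σ1, g1, l1, H1⟩ := rounds hC n σ hσ
    refine ⟨σ1, g1, l1, fun x u f l v _ Z e1 _ e3 => ?_⟩
    obtain rfl : l = [] := by simpa using e3
    obtain rfl : f = 1 := hι (by simpa [tot] using e1)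
    exact H1 _ _ _ Z
  | succ J ih =>
    obtain ⟨σ1, g1, l1, H1⟩ := pinch hC hι hW n σ hσ
    obtain ⟨σ2, g2, l2, H2⟩ := ih (n + (8 * D.ρ + D.κ) + n) σ1 g1
    refine ⟨σ2, g2, D.le_trans' α _ _ _ l1 l2, fun x u f l v hx Z e1 e2 e3 => ?_⟩
    rcases hB f l e1 with rfl | ⟨a1, h, ε, g, h', g', a2, rfl, hg⟩
    · exact H2 x u f [] v hx (Z.mono l1.co (by omega)) e1 e2 (by simp)
    · obtain ⟨f1, l', b1, b2, b3, Z'⟩ := ZW.pinch l1.co H1 hg (by
        simp only [nrm, List.map_append, List.map_cons, List.sum_append, List.sum_cons] at e2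
        omega) hx Z
      exact H2 x u f1 l' v hx Z' (b2.trans e1) (b3.trans e2) (by simp at e3; omega)

theorem engine (hC : Cov α) (hι : Function.Injective D.ι) (hB : D.Britton) {P L wh}
    (hW : Wh D α P L wh) (σ : X → Loc S H) (hσ : V.Good σ) (Tg : Set X)
    (hT : ∀ x ∈ Tg, α.Free x ∧ ∃ w, w.length ≤ L ∧ val D.gen3 w = 1 ∧
      Walk α D.gen3 (D.Wall P) (fun x => (σ x).s) x D.p0 w D.p1) : μ.real Tg ≤ 1 / 4 := by
  obtain ⟨σ', g', -, H'⟩ := finish hC hι hB hW L L σ hσ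
  refine le_trans (measureReal_mono fun x hx => ?_) g'.small
  obtain ⟨hx, w, h1, h2, h3⟩ := hT x hx
  obtain ⟨f, l, Z, e1, e2, e3⟩ := zw_of_walk h3
  exact H' x _ f l _ hx (Z.mono (fun _ => Co.refl _) h1) (e1.trans h2) (e2.trans h1) (e3.trans h1)

end Env

end Vale.Agent.P189
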