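import Vale.Agent.P189.Defs

namespace Vale.Agent.P189

open MeasureTheory Finset

section img
variable {A B C : Type} [DecidableEq B] [DecidableEq C]

lemma img_fac (W : Finset A) (f : A → B) (g : A → C) (h : ∀ a b, f a = f b → g a = g b) :
    ∃ k : B → Option C, (W.image f).image k = (W.image g).image some ∧
      ∀ a, k (f a) = some (g a) := by
  classical
  refine ⟨fun y => if hy : ∃ a, f a = y then some (g hy.choose) else none, ?_, ?_⟩
  rotate_left
  · intro a
    have hy : ∃ a', f a' = f a := ⟨a, rfl⟩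
    simp only [dif_pos hy]
    rw [h _ _ hy.choose_spec]
  · rw [image_image, image_image]
    refine image_congr fun a _ => ?_
    have hy : ∃ a', f a' = f a := ⟨a, rfl⟩
    simp only [Function.comp, dif_pos hy]
    rw [h _ _ hy.choose_spec]

lemma img_le (W : Finset A) (f : A → B) (g : A → C) (h : ∀ a b, f a = f b → g a = g b) :
    (W.image g).card ≤ (W.image f).card := by
  obtain ⟨k, hk, -⟩ := img_fac W f g h
  rw [← card_image_of_injective (W.image g) (Option.some_injective C), ← hk]
  exact card_image_le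

lemma img_lt (W : Finset A) (f : A → B) (g : A → C) (h : ∀ a b, f a = f b → g a = g b)
    {a b : A} (ha : a ∈ W) (hb : b ∈ W) (h1 : f a ≠ f b) (h2 : g a = g b) :
    (W.image g).card + 1 ≤ (W.image f).card := by
  obtain ⟨k, hk, hk'⟩ := img_fac W f g h
  rw [← card_image_of_injective (W.image g) (Option.some_injective C), ← hk]
  refine Nat.succ_le_of_lt (lt_of_le_of_ne card_image_le fun he => h1 ?_)
  exact card_image_iff.1 he (mem_coe.2 (mem_image_of_mem f ha)) (mem_coe.2 (mem_image_of_mem f hb))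
    (by rw [hk', hk', h2])

end img

set_option linter.unusedSectionVars false

/-- indicator count -/
noncomputable def ind (P : Prop) : ℕ := by classical exact if P then 1 else 0

lemma ind_pos {P : Prop} (h : P) : ind P = 1 := by unfold ind; rw [if_pos h]

lemma ind_neg {P : Prop} (h : ¬P) : ind P = 0 := by unfold ind; rw [if_neg h]

lemma ind_le (P : Prop) : ind P ≤ 1 := by unfold ind; split_ifs <;> simp

variable {S : Type} [DecidableEq S]

/-- merge the classes of `u` and `v` -/
def mrg (s : S → S) (u v : S) : S → S := fun w => if s w = s v then s u else s w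

/-- coarsening -/
def Co (s s' : S → S) : Prop := ∀ u v, s u = s v → s' u = s' v

lemma Co.refl (s : S → S) : Co s s := fun _ _ h => h

lemma Co.trans {s s' s'' : S → S} (h : Co s s') (h' : Co s' s'') : Co s s'' :=
  fun _ _ e => h' _ _ (h _ _ e)

lemma co_mrg (s : S → S) (u v : S) : Co s (mrg s u v) := fun a b h => by simp [mrg, h]

lemma mrg_eq (s : S → S) (u v : S) : mrg s u v u = mrg s u v v := by
  unfold mrg; split_ifs <;> simp_all

lemma mrg_self {s : S → S} {u v : S} (h : s u = s v) : mrg s u v = s := by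
  funext w; unfold mrg; split_ifs with h' <;> simp_all

/-- conditional merge -/
noncomputable def cmrg (P : Prop) (s : S → S) (u v : S) : S → S := by
  classical exact if P then mrg s u v else s

lemma co_cmrg (P : Prop) (s : S → S) (u v : S) : Co s (cmrg P s u v) := by
  unfold cmrg; split_ifs
  · exact co_mrg s u v
  · exact Co.refl s

lemma cmrg_eq {P : Prop} (hP : P) (s : S → S) (u v : S) : cmrg P s u v u = cmrg P s u v v := by
  unfold cmrg; rw [if_pos hP]; exact mrg_eq s u v

lemma cmrg_neg {P : Prop} (hP : ¬P) (s : S → S) (u v : S) : cmrg P s u v = s := by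
  unfold cmrg; rw [if_neg hP]

lemma cmrg_self {P : Prop} {s : S → S} {u v : S} (h : s u = s v) : cmrg P s u v = s := by
  unfold cmrg; split_ifs
  · exact mrg_self h
  · rfl

variable [Fintype S]

/-- number of classes -/
def cls (s : S → S) : ℕ := (univ.image s).card

lemma cls_le (s : S → S) : cls s ≤ Fintype.card S := card_image_le

lemma cls_mrg (s : S → S) (u v : S) : cls s ≤ cls (mrg s u v) + 1 := by
  unfold cls
  refine le_trans (card_le_card (t := insert (s v) (univ.image (mrg s u v))) ?_)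
    (card_insert_le _ _)
  intro y hy
  obtain ⟨w, -, rfl⟩ := mem_image.1 hy
  by_cases h : s w = s v
  · simp [h]
  · exact mem_insert_of_mem (mem_image.2 ⟨w, mem_univ _, by simp [mrg, h]⟩)

lemma cls_cmrg (P : Prop) (s : S → S) (u v : S) :
    cls s ≤ cls (cmrg P s u v) + ind (P ∧ s u ≠ s v) := by
  by_cases h : P ∧ s u ≠ s v
  · rw [ind_pos h]; unfold cmrg; rw [if_pos h.1]; exact cls_mrg s u v
  · by_cases hP : P
    · rw [cmrg_self (by tauto)]; simp
    · rw [cmrg_neg hP]; simp

/-- classes of wires -/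
def ecl (s1 s2 : S → S) (W : Finset (S × S)) : Finset (S × S) :=
  W.image fun q => (s1 q.1, s2 q.2)

omit [Fintype S] in
lemma ecl_le {s1 s2 s1' s2' : S → S} (h1 : Co s1 s1') (h2 : Co s2 s2') (W : Finset (S × S)) :
    (ecl s1' s2' W).card ≤ (ecl s1 s2 W).card :=
  img_le W _ _ fun a b h => by
    rw [Prod.mk.injEq] at h ⊢; exact ⟨h1 _ _ h.1, h2 _ _ h.2⟩

omit [Fintype S] in
lemma ecl_lt {s1 s2 s1' s2' : S → S} (h1 : Co s1 s1') (h2 : Co s2 s2') (W : Finset (S × S))
    {a b : S × S} (ha : a ∈ W) (hb : b ∈ W) (hne : ¬(s1 a.1 = s1 b.1 ∧ s2 a.2 = s2 b.2))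
    (e1 : s1' a.1 = s1' b.1) (e2 : s2' a.2 = s2' b.2) :
    (ecl s1' s2' W).card + 1 ≤ (ecl s1 s2 W).card :=
  img_lt W _ _ (fun a b h => by
    rw [Prod.mk.injEq] at h ⊢; exact ⟨h1 _ _ h.1, h2 _ _ h.2⟩) ha hb
    (by rw [Ne, Prod.mk.injEq]; exact hne) (by rw [e1, e2])

/-! Measurability of countably valued maps and expectations of bounded counts -/

section ms
variable {X : Type} [MeasurableSpace X] {Y Z : Type}

/-- all fibres (all preimages) are measurable -/
def Ms (f : X → Y) : Prop := ∀ T : Set Y, MeasurableSet (f ⁻¹' T)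

lemma Ms.of_fib [Countable Y] {f : X → Y} (h : ∀ y, MeasurableSet {x | f x = y}) : Ms f := by
  intro T
  have : f ⁻¹' T = ⋃ y ∈ T, {x | f x = y} := by ext x; simp
  rw [this]
  exact MeasurableSet.biUnion (Set.to_countable T) fun y _ => h y

lemma Ms.set {f : X → Y} (h : Ms f) (P : Y → Prop) : MeasurableSet {x | P (f x)} := h {y | P y}

lemma Ms.comp {f : X → Y} (h : Ms f) (g : Y → Z) : Ms fun x => g (f x) := fun T => h (g ⁻¹' T)

lemma Ms.pair [Countable Y] [Countable Z] {f : X → Y} {g : X → Z} (hf : Ms f) (hg : Ms g) :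
    Ms fun x => (f x, g x) := by
  refine Ms.of_fib fun y => ?_
  have : {x | (f x, g x) = y} = {x | f x = y.1} ∩ {x | g x = y.2} := by
    ext x; simp [Prod.ext_iff]
  rw [this]
  exact (hf.set (· = y.1)).inter (hg.set (· = y.2))

lemma Ms.of_set {P : X → Prop} (h : MeasurableSet {x | P x}) : Ms P := by
  refine Ms.of_fib fun y => ?_
  by_cases hy : y
  · simpa [hy] using h
  · have : {x | P x = y} = {x | P x}ᶜ := by ext x; simp [hy]
    rw [this]; exact h.compl

lemma Ms.const (y : Y) : Ms fun _ : X => y := fun T => by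
  by_cases h : y ∈ T
  · have : (fun _ : X => y) ⁻¹' T = Set.univ := by ext; simp [h]
    rw [this]; exact MeasurableSet.univ
  · have : (fun _ : X => y) ⁻¹' T = ∅ := by ext; simp [h]
    rw [this]; exact MeasurableSet.empty

lemma Ms.pre {f : X → Y} (h : Ms f) {g : X → X} (hg : Measurable g) : Ms fun x => f (g x) :=
  fun T => hg (h T)

lemma Ms.dep [Countable Z] {f : Z → X → Y} (h : ∀ c, Ms (f c)) {β : X → Z} (hβ : Ms β) :
    Ms fun x => f (β x) x := by
  intro T
  have : (fun x => f (β x) x) ⁻¹' T = ⋃ c, {x | β x = c} ∩ f c ⁻¹' T := by ext x; simp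
  rw [this]
  exact MeasurableSet.iUnion fun c => (hβ.set (· = c)).inter (h c T)

lemma Ms.pi {I : Type} [Finite I] [Countable Y] {f : X → I → Y} (h : ∀ i, Ms fun x => f x i) :
    Ms f := by
  refine Ms.of_fib fun y => ?_
  have : {x | f x = y} = ⋂ i, {x | f x i = y i} := by ext x; simp [funext_iff]
  rw [this]
  exact MeasurableSet.iInter fun i => (h i).set (· = y i)

variable (μ : Measure X)

/-- expectation of a count -/
noncomputable def Ex (f : X → ℕ) : ℝ := ∫ x, (f x : ℝ) ∂μ

/-- integrability of a count -/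
def Ig (f : X → ℕ) : Prop := Integrable (fun x => (f x : ℝ)) μ

variable {μ}

lemma Ig.of_ms [IsFiniteMeasure μ] {f : X → ℕ} (h : Ms f) (C : ℕ) (hC : ∀ x, f x ≤ C) :
    Ig μ f := by
  have hm : Measurable fun x => (f x : ℝ) := fun T _ => h ((fun n : ℕ => (n : ℝ)) ⁻¹' T)
  refine Integrable.of_bound hm.aestronglyMeasurable C (ae_of_all _ fun x => ?_)
  rw [Real.norm_natCast]; exact_mod_cast hC x

lemma Ig.add {f g : X → ℕ} (hf : Ig μ f) (hg : Ig μ g) : Ig μ fun x => f x + g x := by
  unfold Ig; push_cast; exact Integrable.add hf hg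

lemma Ig.mul {f : X → ℕ} (c : ℕ) (hf : Ig μ f) : Ig μ fun x => c * f x := by
  unfold Ig; push_cast; exact Integrable.const_mul hf _

lemma Ig.pre {f : X → ℕ} (hf : Ig μ f) {g : X → X} (hg : MeasurePreserving g μ μ) :
    Ig μ fun x => f (g x) := hg.integrable_comp_of_integrable hf

lemma Ex_add {f g : X → ℕ} (hf : Ig μ f) (hg : Ig μ g) :
    Ex μ (fun x => f x + g x) = Ex μ f + Ex μ g := by
  unfold Ex; push_cast; exact integral_add hf hg

lemma Ex_mul (c : ℕ) (f : X → ℕ) : Ex μ (fun x => c * f x) = c * Ex μ f := by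
  unfold Ex; push_cast; exact integral_const_mul _ _

lemma Ex_mono {f g : X → ℕ} (hf : Ig μ f) (hg : Ig μ g) (h : ∀ x, f x ≤ g x) :
    Ex μ f ≤ Ex μ g := integral_mono hf hg fun x => by simpa using h x

lemma Ex_pre {f : X → ℕ} (hf : Ig μ f) {g : X → X} (hg : MeasurePreserving g μ μ) :
    Ex μ (fun x => f (g x)) = Ex μ f := by
  unfold Ex
  have := integral_map (μ := μ) (φ := g) hg.measurable.aemeasurable
    (f := fun x => (f x : ℝ)) (by rw [hg.map_eq]; exact hf.aestronglyMeasurable)
  rw [hg.map_eq] at this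
  exact this.symm

lemma Ex_const [IsProbabilityMeasure μ] (c : ℕ) : Ex μ (fun _ => c) = c := by simp [Ex]

lemma Ig.const [IsFiniteMeasure μ] (c : ℕ) : Ig μ fun _ => c := integrable_const _

lemma Ig.ind [IsFiniteMeasure μ] {P : X → Prop} (h : MeasurableSet {x | P x}) :
    Ig μ fun x => ind (P x) := Ig.of_ms ((Ms.of_set h).comp _) 1 fun _ => ind_le _

lemma Ex_ind {P : X → Prop} (h : MeasurableSet {x | P x}) :
    Ex μ (fun x => ind (P x)) = μ.real {x | P x} := by
  unfold Ex
  rw [← integral_indicator_one h]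
  refine integral_congr_ae (ae_of_all _ fun x => ?_)
  by_cases hx : P x
  · simp [ind, Set.indicator, hx]
  · simp [ind, Set.indicator, hx]

end ms

end Vale.Agent.P189
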