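import Vale.Agent.P189.Lower

namespace Vale.Agent.P189

open MeasureTheory Filter Topology

set_option linter.unusedSectionVars false

lemma paradox {J : Type} [MulAction F J] (Fr : J → Prop)
    (hfr : ∀ I, Fr I → ∀ f : F, f • I = I → f = 1) (c : J → ℝ) (hc : ∀ I, ¬Fr I → c I = 0)
    {T : ℝ} {A : Bool → ℝ} (hT : HasSum (fun I => c I ^ 2) T)
    (hA : ∀ l, HasSum (fun I => (c ((FreeGroup.of l : F)⁻¹ • I) - c I) ^ 2) (A l)) :
    T ≤ 6 * (A false + A true) := by
  classical
  have h0 : ∀ I : J, ∃ g : F, g • (Quotient.mk (MulAction.orbitRel F J) I).out = I := fun I =>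
    (MulAction.orbitRel F J).symm (Quotient.mk_out (s := MulAction.orbitRel F J) I)
  choose φ hφ using h0
  have h1 : ∀ I, Fr I → ∀ f : F, φ (f • I) = f * φ I := fun I hI f => by
    have e : Quotient.mk (MulAction.orbitRel F J) (f • I) = Quotient.mk _ I :=
      Quotient.sound ⟨f, rfl⟩
    have a := hφ (f • I)
    rw [e] at a
    have := hfr I hI (f⁻¹ * φ (f • I) * (φ I)⁻¹) (by
      rw [mul_smul, mul_smul, inv_smul_eq_iff.2 (hφ I).symm, a, inv_smul_smul])
    rwa [mul_inv_eq_one, inv_mul_eq_iff_eq_mul] at this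
  let p : Bool × Bool → J → ℝ := fun w I => if φ I ∈ FreeGroup.startsWith w then c I ^ 2 else 0
  have p0 : ∀ w I, 0 ≤ p w I := fun w I => by simp only [p]; split_ifs <;> positivity
  have ps : ∀ w, HasSum (p w) (∑' I, p w I) := fun w =>
    (hT.summable.of_nonneg_of_le (p0 w) fun I => by
      simp only [p]; split_ifs
      · exact le_rfl
      · positivity).hasSum
  have h2 : ∀ l, T ≤ ∑' I, p (l, true) I + 3 / 2 * ∑' I, p (l, false) I + 3 * A l := fun l => by
    have s1 : HasSum (fun I => p (l, false) ((FreeGroup.of l : F)⁻¹ • I)) (∑' I, p (l, false) I) :=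
      (Equiv.hasSum_iff (f := p (l, false)) (MulAction.toPerm (FreeGroup.of l : F)⁻¹)).2
        (ps (l, false))
    refine hasSum_le (fun I => ?_) hT (((ps _).add (s1.mul_left _)).add ((hA l).mul_left _))
    have q1 := p0 (l, true) I
    have q2 := p0 (l, false) ((FreeGroup.of l : F)⁻¹ • I)
    have q3 := sq_nonneg (c ((FreeGroup.of l : F)⁻¹ • I) - c I)
    by_cases hI : Fr I
    · by_cases h : φ I ∈ FreeGroup.startsWith (l, true)
      · simp only [p, if_pos h] at q2 ⊢; linarith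
      · have : φ ((FreeGroup.of l : F)⁻¹ • I) ∈ FreeGroup.startsWith (l, false) := by
          rw [h1 I hI]; exact FreeGroup.startsWith_mk_mul (w := (l, false)) _ h
        simp only [p, if_pos this, if_neg h]
        nlinarith [sq_nonneg (3 * c ((FreeGroup.of l : F)⁻¹ • I) - 2 * c I)]
    · rw [hc I hI] at q3 ⊢; nlinarith
  have h3 : ∑' I, p (false, true) I + ∑' I, p (false, false) I + ∑' I, p (true, true) I +
      ∑' I, p (true, false) I ≤ T := by
    refine hasSum_le (fun I => ?_) ((((ps _).add (ps _)).add (ps _)).add (ps _)) hT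
    have := sq_nonneg (c I)
    simp only [p, FreeGroup.startsWith, Set.mem_ofPred_eq]
    obtain ⟨o, h⟩ : ∃ o, (φ I).toWord[0]? = o := ⟨_, rfl⟩
    rcases o with _ | ⟨_ | _, _ | _⟩ <;> simp [h, this]
  have a1 := (ps _).nonneg (p0 (false, true))
  have a2 := (ps _).nonneg (p0 (true, true))
  linarith [h2 false, h2 true]

variable {G : Type} [Group G] {X : Type} [MeasurableSpace X] {μ : Measure X}

lemma indep_cover (α : PmpAction G μ) (e : G) {J : Type} [Countable J] [Nonempty J]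
    (C : J → Set X) (hm : ∀ n, MeasurableSet (C n)) (hi : ∀ n, ∀ x ∈ C n, α.act x e ∉ C n) :
    ∃ 𝒜 : Set (Set X), 𝒜.Finite ∧ (∀ A ∈ 𝒜, MeasurableSet A ∧ ∀ x ∈ A, α.act x e ∉ A) ∧
      ∀ n, ∀ x ∈ C n, ∃ A ∈ 𝒜, x ∈ A := by
  classical
  obtain ⟨u, hu⟩ := exists_surjective_nat J
  let A : ℕ → Set X := fun n => Nat.rec ∅ (fun n B =>
    B ∪ (C (u n) \ ({x | α.act x e ∈ B} ∪ {x | α.act x e⁻¹ ∈ B}))) n
  have As : ∀ n, A (n + 1) = A n ∪
    (C (u n) \ ({x | α.act x e ∈ A n} ∪ {x | α.act x e⁻¹ ∈ A n})) := fun n => rfl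
  have mA : ∀ n, MeasurableSet (A n) := fun n => by
    induction n with
    | zero => exact MeasurableSet.empty
    | succ n ih => exact ih.union ((hm _).diff ((α.meas _ ih).union (α.meas _ ih)))
  have iA : ∀ n, ∀ x ∈ A n, α.act x e ∉ A n := fun n => by
    induction n with
    | zero => exact fun x hx => hx.elim
    | succ n ih =>
      rw [As]
      rintro x (hx | hx) (hy | hy)
      · exact ih x hx hy
      · exact hy.2 (Or.inr (by simpa using hx))
      · exact hx.2 (Or.inl hy)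
      · exact hi _ x hx.1 hy.1
  have mono : Monotone A := monotone_nat_of_le_succ fun n => Set.subset_union_left
  have iU : ∀ x ∈ ⋃ n, A n, α.act x e ∉ ⋃ n, A n := fun x hx hy => by
    obtain ⟨n, hn⟩ := Set.mem_iUnion.1 hx
    obtain ⟨m, hm⟩ := Set.mem_iUnion.1 hy
    exact iA (max n m) x (mono (le_max_left _ _) hn) (mono (le_max_right _ _) hm)
  have mU := MeasurableSet.iUnion mA
  refine ⟨{⋃ n, A n, {x | α.act x e ∈ ⋃ n, A n}, {x | α.act x e⁻¹ ∈ ⋃ n, A n}},
    Set.toFinite _, ?_, fun j x hx => ?_⟩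
  · rintro B (rfl | rfl | rfl)
    · exact ⟨mU, iU⟩
    · exact ⟨α.meas _ mU, fun x hx => iU _ hx⟩
    · exact ⟨α.meas _ mU, fun x hx hy => iU _ hx (by simpa using hy)⟩
  · obtain ⟨n, rfl⟩ := hu j
    rcases Classical.em (α.act x e ∈ A n ∨ α.act x e⁻¹ ∈ A n) with (h | h) | h
    · exact ⟨_, Or.inr (Or.inl rfl), Set.mem_iUnion.2 ⟨n, h⟩⟩
    · exact ⟨_, Or.inr (Or.inr rfl), Set.mem_iUnion.2 ⟨n, h⟩⟩
    · exact ⟨_, Or.inl rfl, Set.mem_iUnion.2 ⟨n + 1, Or.inr ⟨hx, h⟩⟩⟩

lemma real_diff_comm [IsFiniteMeasure μ] {P Q : Set X} (hP : MeasurableSet P)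
    (hQ : MeasurableSet Q) (h : μ.real P = μ.real Q) : μ.real (P \ Q) = μ.real (Q \ P) := by
  have h1 := measureReal_sdiff_add_inter (μ := μ) (s := P) hQ
  have h2 := measureReal_sdiff_add_inter (μ := μ) (s := Q) hP
  rw [Set.inter_comm] at h2
  linarith

lemma int_sq_ind [IsFiniteMeasure μ] {P Q : Set X} (hP : MeasurableSet P) (hQ : MeasurableSet Q) :
    ∫ x, (P.indicator (1 : X → ℝ) x - Q.indicator 1 x) ^ 2 ∂μ =
      μ.real (P \ Q) + μ.real (Q \ P) := by
  rw [← integral_indicator_one (hP.diff hQ), ← integral_indicator_one (hQ.diff hP),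
    ← integral_add ((integrable_const 1).indicator (hP.diff hQ))
      ((integrable_const 1).indicator (hQ.diff hP))]
  refine integral_congr_ae (ae_of_all _ fun x => ?_)
  by_cases h1 : x ∈ P <;> by_cases h2 : x ∈ Q <;> simp [Set.indicator, h1, h2]

lemma int_sq_cen [IsProbabilityMeasure μ] {P : Set X} (hP : MeasurableSet P) :
    ∫ x, (P.indicator (1 : X → ℝ) x - μ.real P) ^ 2 ∂μ = μ.real P * (1 - μ.real P) := by
  have : ∀ x, (P.indicator (1 : X → ℝ) x - μ.real P) ^ 2 =
      (1 - 2 * μ.real P) * P.indicator 1 x + μ.real P ^ 2 := fun x => by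
    by_cases h : x ∈ P <;> simp [Set.indicator, h] <;> ring
  simp_rw [this]
  rw [integral_add (((integrable_const 1).indicator hP).const_mul _) (integrable_const _),
    integral_const_mul, integral_indicator_one hP]
  simp; ring

end Vale.Agent.P189
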