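import Vale.Agent.P189.Engine

namespace Vale.Agent.P189

open MeasureTheory Finset

set_option linter.unusedSectionVars false

abbrev Lt := Option Bool × Bool

abbrev Wd (N : ℕ) := {w : List Lt // w.length ≤ N}

noncomputable instance (N : ℕ) : Fintype (Wd N) :=
  @Fintype.ofFinite _ (List.finite_length_le Lt N).to_subtype

instance (N : ℕ) : DecidableEq (Wd N) := inferInstance

abbrev Sl (N : ℕ) := Fin 3 ⊕ Wd N

instance (N : ℕ) : DecidableEq (Sl N) := inferInstance

def sl (N : ℕ) (w : List Lt) : Sl N := if h : w.length ≤ N then Sum.inr ⟨w, h⟩ else Sum.inl 0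

noncomputable def Wc (N : ℕ) (c : Option Bool) : Finset (Wd N) :=
  univ.filter fun w => w.1.head?.map Prod.fst = some c

def wire {N : ℕ} (w : Wd N) : Sl N × Sl N :=
  if w.1.head?.map Prod.snd = some true then (sl N w.1.tail, sl N w.1) else (sl N w.1, sl N w.1.tail)

abbrev Hn (N : ℕ) := Option (Wc N none)

instance (N : ℕ) : DecidableEq (Hn N) := inferInstance

def realW (N : ℕ) (c : Bool) : Finset (Sl N × Sl N) :=
  {(if c then Sum.inl 0 else Sum.inl 1, Sum.inl 0), (Sum.inl 2, Sum.inl 1)}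

def sW : List (Bool × Bool) := [(false, false), (true, false), (false, true), (false, true)]

def B0 : Subgroup F := Subgroup.closure {FreeGroup.of true, FreeGroup.mk sW}

variable {G : Type} [Group G] {X : Type} [MeasurableSpace X] {μ : Measure X}

/-- algebraic data -/
structure Alg (G : Type) [Group G] where
  gen : Bool → G
  z : G
  comm : ∀ b ∈ B0, z * FreeGroup.lift gen b = FreeGroup.lift gen b * z

noncomputable def Alg.D (A : Alg G) (N K κ : ℕ) : Data G (Sl N) (Hn N) where
  gen := A.gen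
  z := A.z
  B := B0
  comm := A.comm
  W := fun c => realW N c ∪ (Wc N (some c)).image wire
  p0 := Sum.inl 0
  p1 := Sum.inl 1
  p2 := Sum.inl 2
  wa1 := by simp [realW]
  wa2 := by simp [realW]
  wt1 := by simp [realW]
  wt2 := by simp [realW]
  en := fun d h => match h with
    | none => Sum.inl 0
    | some w => if d then (wire w.1).2 else (wire w.1).1
  K := K + 1
  κ := κ
  hK := by omega

def Short {N : ℕ} (L : ℕ) : Hn N → Prop
  | none => True
  | some w => w.1.1.length ≤ L

def Alg.g3 (A : Alg G) : Option Bool → G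
  | some c => A.gen c
  | none => A.z

lemma Alg.gen3 (A : Alg G) (N K κ : ℕ) : (A.D N K κ).gen3 = A.g3 := by
  funext c; cases c <;> rfl

variable (A : Alg G) (α : PmpAction G μ) {N K κ : ℕ}

lemma dir_wall {L : ℕ} (hL : L ≤ N) (c : Option Bool) (b : Bool) (w : List Lt)
    (hw : w.length + 1 ≤ L) :
    Dir ((A.D N K κ).Wall (Short L)) (c, b) (sl N w) (sl N ((c, b) :: w)) := by
  let w' : Wd N := ⟨(c, b) :: w, by simp; omega⟩
  have hm : w' ∈ Wc N c := by simp [Wc, w']
  have key : (A.D N K κ).Wall (Short L) c (wire w').1 (wire w').2 := by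
    cases c with
    | some c => exact mem_union_right _ (mem_image_of_mem _ hm)
    | none => exact ⟨some ⟨w', hm⟩, by simpa [Short, w'] using hw, rfl, rfl⟩
  cases b
  · exact Or.inr ⟨rfl, by simpa [wire, w'] using key⟩
  · exact Or.inl ⟨rfl, by simpa [wire, w'] using key⟩

lemma whisker {T : Type} {gen : T → G} {Wr : T → Sl N → Sl N → Prop} (e : T → Option Bool)
    (L : ℕ) (h : ∀ c b w, w.length + 1 ≤ L → Dir Wr (c, b) (sl N w) (sl N ((e c, b) :: w)))
    (s : X → Sl N → Sl N) (u : List (T × Bool)) (w : List Lt) (x : X)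
    (hw : w.length + u.length ≤ L) :
    Walk α gen Wr s x (sl N w) u (sl N ((u.map fun l => (e l.1, l.2)).reverse ++ w)) := by
  induction u generalizing w x with
  | nil => exact Walk.nil rfl
  | cons l u ih =>
    simp only [List.length_cons] at hw
    refine Walk.step rfl (h l.1 l.2 w (by omega)) ?_
    simpa using ih ((e l.1, l.2) :: w) _ (by simp; omega)

lemma rw_ex (f : F) (hf : f ∈ B0) : ∃ n, (A.D N K κ).RW α n f := by
  induction hf using Subgroup.closure_induction with
  | mem x hx =>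
    rcases hx with rfl | rfl
    · exact ⟨1, fun s x => ⟨[(true, true)], le_rfl, rfl,
        Walk.single (Or.inl ⟨rfl, (A.D N K κ).wt1⟩)⟩⟩
    · exact ⟨4, fun s x => ⟨sW, le_rfl, rfl,
        Walk.step rfl (Or.inr ⟨rfl, (A.D N K κ).wa1⟩)
        (Walk.step rfl (Or.inr ⟨rfl, (A.D N K κ).wt2⟩)
        (Walk.step rfl (Or.inl ⟨rfl, (A.D N K κ).wa2⟩)
        (Walk.single (Or.inl ⟨rfl, (A.D N K κ).wa1⟩))))⟩⟩
  | one => exact ⟨0, fun s x => TW.refl rfl⟩
  | mul x y _ _ hx hy =>
    obtain ⟨n, hn⟩ := hx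
    obtain ⟨m, hm⟩ := hy
    exact ⟨_, hn.mul hm⟩
  | inv x _ hx =>
    obtain ⟨n, hn⟩ := hx
    exact ⟨_, hn.inv⟩

lemma wh_ex (L K : ℕ) : ∃ κ wh, Env.Wh (A.D (2 * L) K κ) α (Short L) L wh := by
  classical
  choose! n hn using rw_ex A α (N := 2 * L) (K := K) (κ := 0)
  obtain ⟨M, hM⟩ := ((finite_norm_le (A := Bool) L).image n).bddAbove
  have hR : ∀ f ∈ B0, f.norm ≤ L → (A.D (2 * L) K (M + L)).RW α (M + L) f := fun f hf hL =>
    (hn f hf).le ((hM ⟨f, hL, rfl⟩).trans (Nat.le_add_right _ _))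
  have key : ∀ (h : Hn (2 * L)) (f : F) (d : Bool), ∃ u, Short L h → f ∈ B0 → f.norm ≤ L →
      ∀ s x, TW α A.gen (A.D (2 * L) K (M + L)).Wr s (M + L) x
        ((A.D (2 * L) K (M + L)).en d h) f u := by
    intro h f d
    cases h with
    | none => exact ⟨Sum.inl 0, fun _ hf hL => hR f hf hL⟩
    | some w =>
      obtain ⟨w', h1, h2⟩ : ∃ w' : List Lt, w'.length ≤ w.1.1.length ∧
          (A.D (2 * L) K (M + L)).en d (some w) = sl _ w' := by
        simp only [Alg.D, wire]
        split_ifs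
        · exact ⟨_, le_rfl, rfl⟩
        · exact ⟨_, by simp, rfl⟩
        · exact ⟨_, by simp, rfl⟩
        · exact ⟨_, le_rfl, rfl⟩
      refine ⟨_, fun hs _ hL s x => ⟨f.toWord, hL.trans (Nat.le_add_left _ _),
        FreeGroup.mk_toWord, h2 ▸ whisker α some (2 * L) (fun c b w hw =>
          dir_wall A (K := K) (κ := M + L) le_rfl (some c) b w hw) s _ w' x ?_⟩⟩
      have : w.1.1.length ≤ L := hs
      have : f.toWord.length ≤ L := hL
      omega
  choose wh hwh using key
  exact ⟨M + L, wh, fun h f a b c d => hwh h f d a b c, hR⟩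

lemma zwalk {P : Hn N → Prop} (hP : P none) (s : X → Sl N → Sl N) (w : List Lt)
    (hw : ∀ l ∈ w, l.1 = none) (x : X) :
    Walk α A.g3 ((A.D N K κ).Wall P) s x (Sum.inl 0) w (Sum.inl 0) := by
  induction w generalizing x with
  | nil => exact Walk.nil rfl
  | cons l w ih =>
    obtain ⟨c, b⟩ := l
    obtain rfl : c = none := hw (c, b) (by simp)
    refine Walk.step rfl ?_ (ih (fun l hl => hw l (by simp [hl])) _)
    cases b
    · exact Or.inr ⟨rfl, none, hP, rfl, rfl⟩
    · exact Or.inl ⟨rfl, none, hP, rfl, rfl⟩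

lemma zword (k : ℤ) : ∃ w : List Lt, (∀ l ∈ w, l.1 = none) ∧ val A.g3 w = A.z ^ k := by
  induction k using Int.induction_on with
  | zero => exact ⟨[], by simp, by simp⟩
  | succ k ih =>
    obtain ⟨w, h1, h2⟩ := ih
    refine ⟨(none, true) :: w, by simpa using h1, ?_⟩
    rw [val_cons, h2, val_true, add_comm, zpow_add, zpow_one]; rfl
  | pred k ih =>
    obtain ⟨w, h1, h2⟩ := ih
    refine ⟨(none, false) :: w, by simpa using h1, ?_⟩
    rw [val_cons, h2, val_false, sub_eq_neg_add, zpow_add, zpow_neg_one]; rfl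

lemma card_Wc (N : ℕ) : (Wc N (some false)).card + (Wc N (some true)).card + (Wc N none).card + 1 ≤
    Fintype.card (Wd N) := by
  have hd : ∀ c c', c ≠ c' → Disjoint (Wc N c) (Wc N c') := fun c c' h => by
    rw [disjoint_left]; intro w h1 h2
    simp only [Wc, mem_filter, mem_univ, true_and] at h1 h2
    exact h (Option.some.inj (h1.symm.trans h2))
  rw [← card_union_of_disjoint (hd _ _ (by simp)), ← card_union_of_disjoint
    (disjoint_union_left.2 ⟨hd _ _ (by simp), hd _ _ (by simp)⟩)]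
  refine Nat.succ_le_of_lt (card_lt_univ_of_notMem (x := ⟨[], by simp⟩) ?_)
  simp [Wc]

section init
variable (wd : G → List Lt) (I : G → Set X) (Y : Set X)

def Act (x : X) (w : List Lt) : Prop :=
  w = (wd (val A.g3 w.reverse)).reverse ∧
    α.act x (val A.g3 w.reverse)⁻¹ ∈ I (val A.g3 w.reverse)

open Classical in
noncomputable def s0 (N : ℕ) (x : X) : Sl N → Sl N
  | Sum.inl i => Sum.inl i
  | Sum.inr w => if w.1 = [] ∨ Act A α wd I x w.1 then (if x ∈ Y then Sum.inl 0 else sl N [])
      else Sum.inr w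

noncomputable def σ0 (N : ℕ) (x : X) : Loc (Sl N) (Hn N) :=
  ⟨s0 A α wd I Y N x, fun h => h.map fun _ => (1, h), fun _ => 1⟩

/-- validity of a chain of items -/
def Vl : X → List (G × Bool) → Prop
  | _, [] => True
  | x, a :: l => ((a.2 = true ∧ x ∈ I a.1) ∨ (a.2 = false ∧ α.act x a.1⁻¹ ∈ I a.1)) ∧
      Vl (α.act x (val id [a])) l

def sz (l : List (G × Bool)) : ℕ := (l.map fun a => (wd a.1).length).sum

variable {I} in
lemma ms_Vl (hI : ∀ g, MeasurableSet (I g)) (l : List (G × Bool)) :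
    MeasurableSet {x | Vl α I x l} := by
  induction l with
  | nil => simp [Vl]
  | cons a l ih =>
    exact (((MeasurableSet.const _).inter (hI _)).union
      ((MeasurableSet.const _).inter (α.meas _ (hI _)))).inter (α.meas _ ih)

variable {wd}

lemma item_walk (hwd : ∀ g, val A.g3 (wd g) = g) {L : ℕ} (hL : L ≤ N) {x g} (hx : x ∈ I g)
    (hg : (wd g).length ≤ L) : Walk α A.g3 ((A.D N K κ).Wall (Short L)) (s0 A α wd I Y N) x
      (sl N []) (wd g) (sl N []) := by
  have h1 := whisker α (gen := A.g3) id L (dir_wall A (K := K) (κ := κ) hL) (s0 A α wd I Y N)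
    (wd g) [] x (by simpa using hg)
  have h2 : s0 A α wd I Y N (α.act x (val A.g3 (wd g))) (sl N (wd g).reverse) =
      s0 A α wd I Y N (α.act x (val A.g3 (wd g))) (sl N []) := by
    have ha : Act A α wd I (α.act x (val A.g3 (wd g))) (wd g).reverse := by
      simp [Act, hwd, hx]
    have hl : (wd g).reverse.length ≤ N := by simpa using hg.trans hL
    simp only [sl, dif_pos hl, List.length_nil, zero_le, dif_pos, s0, ha, or_true, true_or, if_true]
  simpa using h1.append (Walk.nil (by simpa using h2))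

lemma chain_walk (hwd : ∀ g, val A.g3 (wd g) = g) {L : ℕ} (hL : L ≤ N) {x l} (hx : Vl α I x l)
    (hl : sz wd l ≤ L) : ∃ w, w.length = sz wd l ∧ val A.g3 w = val id l ∧
      Walk α A.g3 ((A.D N K κ).Wall (Short L)) (s0 A α wd I Y N) x (sl N []) w (sl N []) := by
  induction l generalizing x with
  | nil => exact ⟨[], rfl, by simp, Walk.nil rfl⟩
  | cons a l ih =>
    obtain ⟨g, b⟩ := a
    simp only [sz, List.map_cons, List.sum_cons] at hl ⊢
    obtain ⟨w, h1, h2, h3⟩ := ih hx.2 (le_trans (Nat.le_add_left _ _) hl)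
    have hg : (wd g).length ≤ L := le_trans (Nat.le_add_right _ _) hl
    rcases hx.1 with ⟨hb, h⟩ | ⟨hb, h⟩
    · simp only at hb; subst hb
      refine ⟨wd g ++ w, by simp [h1, sz], by rw [val_append, val_cons, h2, hwd, val_true]; rfl,
        (item_walk A α I Y hwd hL h hg).append ?_⟩
      rw [hwd]; rwa [val_true] at h3
    · simp only at hb; subst hb
      have := (item_walk A α I Y (K := K) (κ := κ) hwd hL h hg).symm
      simp only [hwd, α.act_mul, inv_mul_cancel, α.act_one] at this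
      refine ⟨FreeGroup.invRev (wd g) ++ w, by simp [h1, sz],
        by rw [val_append, val_cons, h2, val_invRev, hwd, val_false]; rfl, this.append ?_⟩
      rw [val_invRev, hwd]; rwa [val_false] at h3

lemma s0_Y {x} (hx : x ∈ Y) : s0 A α wd I Y N x (sl N []) = s0 A α wd I Y N x (Sum.inl 0) := by
  simp [sl, s0, hx]

variable {I Y}

lemma ms_Act (hI : ∀ g, MeasurableSet (I g)) (w : List Lt) :
    MeasurableSet {x | Act A α wd I x w} := (MeasurableSet.const _).inter (α.meas _ (hI _))

lemma ms_σ0 (hI : ∀ g, MeasurableSet (I g)) (hY : MeasurableSet Y) : Ms (σ0 A α wd I Y N) := by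
  classical
  have h1 : Ms fun x (w : Wd N) => Act A α wd I x w.1 :=
    Ms.pi fun w => Ms.of_set (ms_Act A α hI w.1)
  exact (h1.pair (Ms.of_set (P := fun x => x ∈ Y) hY)).comp fun q =>
    (⟨fun u => match u with
      | Sum.inl i => Sum.inl i
      | Sum.inr w => if w.1 = [] ∨ q.1 w then (if q.2 then Sum.inl 0 else sl N []) else Sum.inr w,
      fun h => h.map fun _ => (1, h), fun _ => 1⟩ : Loc (Sl N) (Hn N))

lemma inv_σ0 : (A.D N K κ).Inv α (σ0 A α wd I Y N) := by
  constructor
  · intro x h b k e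
    cases h with
    | none => cases e
    | some w =>
      cases e
      exact ⟨rfl, one_mem _, le_rfl, by simp [σ0, Alg.D]; omega, fun d => TW.refl rfl,
        fun s x => TW.refl rfl⟩
  · intro x h e d
    cases h with
    | none => exact TW.refl rfl
    | some w => cases e

lemma cls_s0 (x : X) : 3 + Fintype.card (Wd N) ≤ cls (s0 A α wd I Y N x) + ind (x ∈ Y) +
    ∑ w : Wd N, ind (Act A α wd I x w.1) := by
  classical
  have hs : (univ : Finset (Sl N)) ⊆ univ.image (s0 A α wd I Y N x) ∪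
      (if x ∈ Y then {sl N []} else ∅) ∪
      (univ.filter fun w : Wd N => Act A α wd I x w.1).image Sum.inr := by
    intro u _
    simp only [mem_union]
    cases u with
    | inl i => exact Or.inl (Or.inl (mem_image.2 ⟨Sum.inl i, mem_univ _, rfl⟩))
    | inr w =>
      by_cases ha : Act A α wd I x w.1
      · exact Or.inr (mem_image_of_mem _ (mem_filter.2 ⟨mem_univ _, ha⟩))
      · by_cases hw : w.1 = []
        · obtain ⟨w, hw'⟩ := w
          subst hw
          by_cases hx : x ∈ Y
          · exact Or.inl (Or.inr (by simp [hx, sl]))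
          · exact Or.inl (Or.inl (mem_image.2 ⟨_, mem_univ (sl N []), by simp [sl, s0, hx]⟩))
        · exact Or.inl (Or.inl (mem_image.2 ⟨Sum.inr w, mem_univ _, by simp [s0, ha, hw]⟩))
  have h1 := (card_le_card hs).trans ((card_union_le _ _).trans
    (Nat.add_le_add (card_union_le _ _) card_image_le))
  rw [card_univ, Fintype.card_sum, Fintype.card_fin, card_filter] at h1
  refine h1.trans (Nat.add_le_add (Nat.add_le_add le_rfl ?_) (sum_le_sum fun w _ => ?_))
  · by_cases hx : x ∈ Y <;> simp [hx, ind]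
  · by_cases hx : Act A α wd I x w.1 <;> simp [hx, ind]

lemma ex_act [IsProbabilityMeasure μ] (hI : ∀ g, MeasurableSet (I g)) (C : ℝ) (hC0 : 0 ≤ C)
    (hC : ∑' g, μ (I g) ≤ ENNReal.ofReal C) :
    Ex μ (fun x => ∑ w : Wd N, ind (Act A α wd I x w.1)) ≤ C := by
  classical
  have h1 : Ex μ (fun x => ∑ w : Wd N, ind (Act A α wd I x w.1)) =
      ∑ w : Wd N, μ.real {x | Act A α wd I x w.1} := by
    unfold Ex; push_cast
    rw [integral_finsetSum _ fun w _ => Ig.ind (ms_Act A α hI w.1)]
    exact sum_congr rfl fun w _ => Ex_ind (ms_Act A α hI w.1)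
  let γ : Wd N → G := fun w => val A.g3 w.1.reverse
  let Cn : Finset (Wd N) := univ.filter fun w => w.1 = (wd (γ w)).reverse
  have h2 : ∑ w : Wd N, μ.real {x | Act A α wd I x w.1} = ∑ w ∈ Cn, μ.real (I (γ w)) := by
    rw [sum_filter]
    refine sum_congr rfl fun w _ => ?_
    split_ifs with h
    · rw [← Env.real_pre (α := α) (hI _) (γ w)⁻¹]
      congr 1; ext x; exact and_iff_right h
    · have : {x | Act A α wd I x w.1} = ∅ := Set.eq_empty_of_forall_notMem fun x hx => h hx.1
      rw [this]; simp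
  rw [h1, h2, ← sum_image (s := Cn) (g := γ) (f := fun g => μ.real (I g)) (fun a ha b hb e =>
    Subtype.ext (by rw [(mem_filter.1 ha).2, (mem_filter.1 hb).2, e]))]
  refine le_trans ?_ (ENNReal.toReal_le_of_le_ofReal hC0 ((ENNReal.sum_le_tsum (Cn.image γ)).trans hC))
  rw [ENNReal.toReal_sum fun _ _ => measure_ne_top _ _]
  rfl

lemma pot_σ0 [IsProbabilityMeasure μ] (hI : ∀ g, MeasurableSet (I g)) (hY : MeasurableSet Y)
    (C : ℝ) (hC0 : 0 ≤ C) (hC : ∑' g, μ (I g) ≤ ENNReal.ofReal C) :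
    (A.D N K κ).pot α (σ0 A α wd I Y N) ≤ (K + 1) * (C + μ.real Y) + (Wc N none).card := by
  have hm := ms_σ0 A α (wd := wd) (N := N) hI hY
  have h1 : ∀ c, Ex μ ((A.D N K κ).EA α (σ0 A α wd I Y N) c) ≤ (2 + (Wc N (some c)).card : ℕ) :=
    fun c => by
    rw [← Ex_const (μ := μ)]
    exact Ex_mono ((A.D N K κ).ig_EA α hm c) (Ig.const _) fun x => card_image_le.trans
      ((card_union_le _ _).trans (Nat.add_le_add card_le_two card_image_le))
  have h2 : Ex μ (fun x => (A.D N K κ).Zc (σ0 A α wd I Y N x)) ≤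
      ((Wc N none).card * (K + 2) : ℕ) := by
    rw [← Ex_const (μ := μ)]
    refine Ex_mono ((A.D N K κ).ig_Zc α hm (inv_σ0 A α)) (Ig.const _) fun x => ?_
    simp [Data.Zc, σ0, Alg.D, Fintype.sum_option]
  have iY := Ig.ind (μ := μ) (P := fun x => x ∈ Y) hY
  have iA : Ig μ fun x => ∑ w : Wd N, ind (Act A α wd I x w.1) :=
    Ig.of_ms ((Ms.pi fun w : Wd N => Ms.of_set (ms_Act A α (wd := wd) hI w.1)).comp
      fun p => ∑ w, ind (p w)) (∑ _w : Wd N, 1) fun x => sum_le_sum fun _ _ => ind_le _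
  have h3 := Ex_mono (Ig.const _) (((Data.ig_cls hm).add iY).add iA) (cls_s0 A α)
  rw [Ex_add ((Data.ig_cls hm).add iY) iA, Ex_add (Data.ig_cls hm) iY, Ex_const,
    Ex_ind (P := fun x => x ∈ Y) hY] at h3
  have h4 := ex_act A α (wd := wd) (N := N) hI C hC0 hC
  have h5 : ((Wc N (some false)).card + (Wc N (some true)).card + (Wc N none).card + 1 : ℝ) ≤
      Fintype.card (Wd N) := by exact_mod_cast card_Wc N
  have h6 := h1 false
  have h7 := h1 true
  have hK : (0 : ℝ) ≤ K + 1 := by positivity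
  have h8 : Ex μ ((A.D N K κ).EA α (σ0 A α wd I Y N) false) +
      Ex μ ((A.D N K κ).EA α (σ0 A α wd I Y N) true) - Ex μ (fun x => cls (σ0 A α wd I Y N x).s) ≤
      C + μ.real Y - (Wc N none).card := by
    push_cast at h3 h6 h7
    simp only [Set.ofPred_mem_eq] at h3
    linarith
  unfold Data.pot
  have hk : ((A.D N K κ).K : ℝ) = K + 1 := by simp [Alg.D]
  rw [hk]
  push_cast at h2
  nlinarith [mul_le_mul_of_nonneg_left h8 hK]

end init

end Vale.Agent.P189
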