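import Vale.Agent.P189.Inst

namespace Vale.Agent.P189

open MeasureTheory Filter Topology

set_option linter.unusedSectionVars false

variable {G : Type} [Group G] [Countable G] {X : Type} [MeasurableSpace X] {μ : Measure X}
  [IsProbabilityMeasure μ]

lemma PmpAction.EssFree.ae {α : PmpAction G μ} (h : α.EssFree) : ∀ᵐ x ∂μ, α.Free x := by
  refine ae_all_iff.2 fun g => ?_
  by_cases hg : g = 1
  · exact ae_of_all _ fun _ _ => hg
  · filter_upwards [measure_eq_zero_iff_ae_notMem.1 (h g hg)] with x hx e using absurd e hx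

lemma ae_act (α : PmpAction G μ) {P : X → Prop} (h : ∀ᵐ x ∂μ, P x) :
    ∀ᵐ x ∂μ, ∀ g, P (α.act x g) :=
  ae_all_iff.2 fun g => (α.mp g).quasiMeasurePreserving.ae h

lemma ex_stage {T : ℕ → Set X} (hT : Monotone T) (h : ∀ᵐ x ∂μ, ∃ j, x ∈ T j) {c : ℝ} (hc : c < 1) :
    ∃ j, c < μ.real (T j) := by
  have h1 := tendsto_measure_iUnion_atTop (μ := μ) hT
  have h2 : μ (⋃ j, T j) = 1 := by
    rw [← measure_univ (μ := μ)]
    exact measure_congr (ae_eq_univ.2 (by simpa [ae_iff, Set.compl_def] using h))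
  rw [h2] at h1
  have h3 := (ENNReal.tendsto_toReal ENNReal.one_ne_top).comp h1
  exact (h3.eventually (lt_mem_nhds (by simpa using hc))).exists

lemma graphing_sets [StandardBorelSpace X] {α : PmpAction G μ} (hf : α.EssFree) (Φ : Graphing α)
    (hΦ : Φ.Generates) : ∃ I : G → Set X, (∀ g, MeasurableSet (I g)) ∧ ∑' g, μ (I g) ≤ Φ.cost ∧
      ∀ᵐ x ∂μ, ∀ g, ∃ l, Vl α I x l ∧ α.act x (val id l) = α.act x g := by
  have := Φ.countable
  let E : Φ.ι → G → Set X := fun i g => (Φ.φ i).dom ∩ {x | (Φ.φ i).f x = α.act x g}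
  have mE : ∀ i g, MeasurableSet (E i g) := fun i g =>
    (Φ.φ i).dom_meas.inter (measurableSet_eq_fun (Φ.φ i).mp.measurable (α.meas g))
  refine ⟨fun g => ⋃ i, E i g, fun g => MeasurableSet.iUnion fun i => mE i g, ?_, ?_⟩
  · refine (ENNReal.tsum_le_tsum fun g => measure_iUnion_le _).trans ?_
    rw [ENNReal.tsum_comm]
    refine ENNReal.tsum_le_tsum fun i => ?_
    rw [← measure_iUnion₀ (fun g g' hg => ?_) fun g => (mE i g).nullMeasurableSet]
    · exact measure_mono (Set.iUnion_subset fun g => Set.inter_subset_left)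
    · refine measure_mono_null (fun x hx => ?_) (hf (g * g'⁻¹) (by rwa [Ne, mul_inv_eq_one]))
      have e : α.act x g = α.act x g' := hx.1.2.symm.trans hx.2.2
      simp only [Set.mem_ofPred_eq]
      rw [← α.act_mul, e]; simp
  · filter_upwards [hΦ] with x hx g
    have := hx _ ⟨g, rfl⟩
    generalize α.act x g = y at this
    clear hx
    induction this using Relation.ReflTransGen.head_induction_on with
    | refl => exact ⟨[], trivial, by simp⟩
    | @head a c h _ ih =>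
      obtain ⟨l, h1, h2⟩ := ih
      obtain ⟨i, ⟨h3, h4⟩ | ⟨h3, h4⟩⟩ := h
      · obtain ⟨k, hk⟩ := Φ.rel i a h3
        have e : α.act a (val id [(k, true)]) = c := by rw [val_true, h4, hk]; rfl
        exact ⟨(k, true) :: l, ⟨Or.inl ⟨rfl, Set.mem_iUnion.2 ⟨i, h3, hk⟩⟩, e ▸ h1⟩,
          by rw [val_cons, ← α.act_mul, e, h2]⟩
      · obtain ⟨k, hk⟩ := Φ.rel i c h3
        have e : α.act a k⁻¹ = c := by rw [h4, hk]; simp
        have e' : α.act a (val id [(k, false)]) = c := by rw [val_false]; exact e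
        exact ⟨(k, false) :: l, ⟨Or.inr ⟨rfl, by
          simp only; rw [e]; exact Set.mem_iUnion.2 ⟨i, h3, hk⟩⟩, e' ▸ h1⟩,
          by rw [val_cons, ← α.act_mul, e', h2]⟩

theorem lower [StandardBorelSpace X] (A : Alg G) (α : PmpAction G μ)
    (hinj : Function.Injective (FreeGroup.lift A.gen)) (hB : ∀ N K κ, (A.D N K κ).Britton)
    (hgen : ∀ g, ∃ w, val A.g3 w = g) (hf : α.EssFree) (hC : Cov α) (c0 : ℝ)
    (gap : ∀ T, MeasurableSet T → μ.real {x | α.act x (A.gen true) ∈ T ∧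
      ¬(x ∈ T ∧ α.act x (A.gen false) ∈ T)} ≤ c0 → μ.real T ≤ 1 / 2 → μ.real T ≤ 1 / 4)
    (hY : ∀ ε > 0, ∃ Y, MeasurableSet Y ∧ μ.real Y ≤ ε ∧ ∀ᵐ x ∂μ, ∃ k : ℤ, α.act x (A.z ^ k) ∈ Y) :
    ENNReal.ofReal (1 + c0) ≤ α.cost := by
  refine le_iInf₂ fun Φ hΦ => ?_
  by_contra hlt
  rw [not_le] at hlt
  obtain ⟨I, hI, hc, hg⟩ := graphing_sets hf Φ hΦ
  set C := Φ.cost.toReal with hCd
  have hC0 : 0 ≤ C := ENNReal.toReal_nonneg
  have hC1 : C < 1 + c0 := ENNReal.toReal_lt_of_lt_ofReal hlt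
  have hc' : ∑' g, μ (I g) ≤ ENNReal.ofReal C := by rwa [hCd, ENNReal.ofReal_toReal hlt.ne_top]
  obtain ⟨Y, mY, sY, aY⟩ := hY ((1 + c0 - C) / 3) (by linarith)
  choose wd hwd using hgen
  choose zw zw1 zw2 using zword A
  let T1 : ℕ → Set X := fun j => {x | ∃ l, Vl α I x l ∧ sz wd l ≤ j ∧ α.act x (val id l) ∈ Y}
  let T2 : ℕ → Set X := fun j => {x | α.Free x ∧ ∃ k1 k2 l, α.act x (A.z ^ k1) ∈ Y ∧
    α.act x (A.gen false * A.z ^ k2) ∈ Y ∧ Vl α I (α.act x (A.z ^ k1)) l ∧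
    A.z ^ k1 * val id l = A.gen false * A.z ^ k2 ∧
    (zw k1).length + sz wd l + (zw k2).length + 1 ≤ j}
  have m1 : Monotone T1 := fun i j hij x ⟨l, a, b, c⟩ => ⟨l, a, b.trans hij, c⟩
  have m2 : Monotone T2 := fun i j hij x ⟨f, k1, k2, l, a, b, c, d, e⟩ =>
    ⟨f, k1, k2, l, a, b, c, d, e.trans hij⟩
  have mT1 : ∀ j, MeasurableSet (T1 j) := fun j => by
    simp only [T1, Set.ofPred_exists]
    exact MeasurableSet.iUnion fun l => (ms_Vl α hI l).inter
      ((MeasurableSet.const _).inter (α.meas _ mY))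
  obtain ⟨j1, hj1⟩ := ex_stage m1 (by
    filter_upwards [hg, aY] with x h1 ⟨k, hk⟩
    obtain ⟨l, a, b⟩ := h1 (A.z ^ k)
    exact ⟨_, l, a, le_rfl, b ▸ hk⟩) (c := 1 - (1 + c0 - C) / 3) (by linarith)
  obtain ⟨j2, hj2⟩ := ex_stage m2 (by
    filter_upwards [ae_act α hg, ae_act α aY, hf.ae] with x h1 h2 h3
    obtain ⟨k1, a1⟩ := h2 1
    obtain ⟨k2, a2⟩ := h2 (A.gen false)
    obtain ⟨l, a3, a4⟩ := h1 (A.z ^ k1) ((A.z ^ k1)⁻¹ * (A.gen false * A.z ^ k2))
    refine ⟨_, h3, k1, k2, l, by simpa using a1, by simpa using a2, a3, ?_, le_rfl⟩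
    rw [← mul_inv_eq_one]
    refine h3 _ ?_
    rw [← α.act_mul, ← α.act_mul, a4]; simp) (c := 1 / 4) (by norm_num)
  set L := max j1 j2
  have hL1 : 1 - (1 + c0 - C) / 3 < μ.real (T1 L) :=
    hj1.trans_le (measureReal_mono (m1 (le_max_left _ _)))
  have hL2 : 1 / 4 < μ.real (T2 L) := hj2.trans_le (measureReal_mono (m2 (le_max_right _ _)))
  let Y' := Y ∪ (T1 L)ᶜ
  have mY' : MeasurableSet Y' := mY.union (mT1 L).compl
  have sY' : μ.real Y' ≤ 2 * ((1 + c0 - C) / 3) := by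
    have := measureReal_union_le (μ := μ) Y (T1 L)ᶜ
    rw [probReal_compl_eq_one_sub (mT1 L)] at this
    linarith
  obtain ⟨K, hK⟩ := exists_nat_ge (((Wc (2 * L) none).card : ℝ) / ((1 + c0 - C) / 3))
  rw [div_le_iff₀ (by linarith)] at hK
  obtain ⟨κ, wh, hW⟩ := wh_ex A α L K
  have tok : ∀ x, ∃ w, Walk α A.g3 ((A.D (2 * L) K κ).Wall (Short (2 * L)))
      (s0 A α wd I Y' (2 * L)) x (sl _ []) w (Sum.inl 0) := fun x => by
    by_cases hx : x ∈ T1 L
    · obtain ⟨l, a, b, c⟩ := hx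
      obtain ⟨w, -, e, hw⟩ := chain_walk A α I Y' (K := K) (κ := κ) hwd (le_refl (2 * L)) a
        (by omega)
      exact ⟨_, hw.append (Walk.nil (s0_Y A α I Y' (Or.inl (e ▸ c))))⟩
    · exact ⟨[], Walk.nil (s0_Y A α I Y' (Or.inr hx))⟩
  let V : Env (A.D (2 * L) K κ) α :=
    { s0 := s0 A α wd I Y' (2 * L)
      c0 := c0
      gap := gap
      R0 := fun x u => by
        rw [A.gen3]
        cases u with
        | inl i =>
          fin_cases i
          · exact ⟨[], Walk.nil rfl⟩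
          · exact ⟨[(some false, true)], Walk.single (Or.inl ⟨rfl, (A.D (2 * L) K κ).wa1⟩)⟩
          · exact ⟨[(some false, true), (some false, true)], Walk.step rfl
              (Or.inl ⟨rfl, (A.D (2 * L) K κ).wa2⟩)
              (Walk.single (Or.inl ⟨rfl, (A.D (2 * L) K κ).wa1⟩))⟩
        | inr w =>
          have h1 := (whisker α (gen := A.g3) id (2 * L) (dir_wall A (K := K) (κ := κ) le_rfl)
            (s0 A α wd I Y' (2 * L)) w.1.reverse [] (α.act x (val A.g3 w.1.reverse)⁻¹)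
            (by simpa using w.2)).symm
          obtain ⟨w', h2⟩ := tok (α.act x (val A.g3 w.1.reverse)⁻¹)
          have h3 := h1.append (w' := w') (v' := Sum.inl 0) (by simpa [val_invRev] using h2)
          have e : sl (2 * L) w.1 = Sum.inr w := dif_pos w.2
          simp only [id, Prod.mk.eta, List.map_id', List.reverse_reverse, List.append_nil, e,
            α.act_mul, inv_mul_cancel, α.act_one] at h3
          refine ⟨_, h3.mono (fun _ => Co.refl _) fun c u v h => ?_⟩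
          cases c with
          | some c => exact h
          | none => obtain ⟨k, -, h⟩ := h; exact ⟨k, trivial, h⟩ }
  have hG : V.Good (σ0 A α wd I Y' (2 * L)) := by
    refine ⟨ms_σ0 A α hI mY', inv_σ0 A α, fun x => Co.refl _, ?_, ?_⟩
    · refine (pot_σ0 A α hI mY' C hC0 hc').trans ?_
      have hk : ((A.D (2 * L) K κ).K : ℝ) = K + 1 := by simp [Alg.D]
      rw [hk]
      have : (0 : ℝ) ≤ K := Nat.cast_nonneg _
      simp only [V]
      nlinarith
    · have : {x | (A.D (2 * L) K κ).Sx (σ0 A α wd I Y' (2 * L)) x} = ∅ :=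
        Set.eq_empty_of_forall_notMem fun x hx => by simp [Data.Sx, σ0, s0, Alg.D] at hx
      rw [this]; simp
  refine absurd (Env.engine (V := V) hC hinj (hB _ _ _) hW _ hG (T2 L) ?_) (not_le.2 hL2)
  rintro x ⟨hx, k1, k2, l, a1, a2, a3, a4, a5⟩
  obtain ⟨w, b1, b2, b3⟩ := chain_walk A α I Y' (N := 2 * L) (K := K) (κ := κ) hwd
    (L := L) (by omega) a3 (by omega)
  have w1 := zwalk A α (N := 2 * L) (K := K) (κ := κ) (P := Short L) trivial
    (s0 A α wd I Y' (2 * L)) _ (zw1 k1) x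
  have w2 := (zwalk A α (N := 2 * L) (K := K) (κ := κ) (P := Short L) trivial
    (s0 A α wd I Y' (2 * L)) _ (zw1 k2) (α.act x (A.gen false))).symm
  refine ⟨hx, zw k1 ++ (w ++ (FreeGroup.invRev (zw k2) ++ [(some false, false)])), by simp; omega,
    ?_, ?_⟩
  · rw [A.gen3, val_append, val_append, val_append, val_invRev, zw2, zw2, b2, val_false,
      ← mul_assoc, a4]
    simp [Alg.g3]
  · rw [A.gen3]
    refine w1.append (Walk.pre (s0_Y A α I Y' (Or.inl (by rwa [zw2]))).symm ?_)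
    rw [zw2]
    refine b3.append ?_
    rw [α.act_mul, b2, a4]
    refine Walk.pre (s0_Y A α I Y' (Or.inl a2)) ?_
    rw [zw2, α.act_mul] at w2
    exact w2.append (Walk.single (Or.inr ⟨rfl, (A.D (2 * L) K κ).wa1⟩))

end Vale.Agent.P189
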