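import Vale.Agent.P189.Bern

namespace Vale.Agent.P189

open MeasureTheory Filter Topology
open scoped ENNReal

set_option linter.unusedSectionVars false

section upper
variable {G : Type} [Group G] [Countable G] {X : Type} [MeasurableSpace X] {μ : Measure X}
  [IsProbabilityMeasure μ]

noncomputable def unif (m : ℕ) : Measure (ZMod m) := (m : ℝ≥0∞)⁻¹ • Measure.count

lemma unif_single (m : ℕ) (j : ZMod m) : unif m {j} = (m : ℝ≥0∞)⁻¹ := by simp [unif]

instance (m : ℕ) [NeZero m] : IsProbabilityMeasure (unif m) := ⟨by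
  simp only [unif, Measure.smul_apply, Measure.count_univ, smul_eq_mul]
  simpa using ENNReal.inv_mul_cancel (a := m) (by simpa using NeZero.ne m) (by simp)⟩

lemma unif_add (m : ℕ) [NeZero m] (c : ZMod m) :
    MeasurePreserving (fun j => j + c) (unif m) (unif m) := by
  refine ⟨measurable_of_countable _, Measure.ext_of_singleton fun b => ?_⟩
  rw [Measure.map_apply (measurable_of_countable _) (measurableSet_singleton _)]
  have : (fun j => j + c) ⁻¹' {b} = {b - c} := by
    ext; exact eq_sub_iff_add_eq.symm
  rw [this, unif_single, unif_single]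

/-- finite height extension -/
noncomputable def ext (α : PmpAction G μ) (m : ℕ) [NeZero m] (ht : G →* Multiplicative (ZMod m)) :
    PmpAction G (μ.prod (unif m)) where
  act p g := (α.act p.1 g, p.2 + (ht g).toAdd)
  act_one p := by simp
  act_mul p g h := by simp [add_assoc]
  mp g := (α.mp g).prod (unif_add m _)

lemma ext_free {α : PmpAction G μ} (h : α.EssFree) (m : ℕ) [NeZero m]
    (ht : G →* Multiplicative (ZMod m)) : (ext α m ht).EssFree := fun g hg => by
  refine measure_mono_null (t := {x | α.act x g = x} ×ˢ Set.univ)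
    (fun p hp => ⟨congrArg Prod.fst hp, trivial⟩) ?_
  rw [Measure.prod_prod, h g hg, zero_mul]

/-- restriction of a group element -/
def restr (α : PmpAction G μ) (A : Set X) (hA : MeasurableSet A) (g : G) : PartIso μ where
  dom := A
  cod := {y | α.act y g⁻¹ ∈ A}
  f := fun x => α.act x g
  dom_meas := hA
  cod_meas := α.meas _ hA
  bij := ⟨fun x hx => by simpa using hx, fun x _ y _ e => by
    simpa using congrArg (fun y => α.act y g⁻¹) e, fun y hy => ⟨_, hy, by simp⟩⟩
  mp := by
    have := (α.mp g).restrict_preimage (s := {y | α.act y g⁻¹ ∈ A}) (α.meas _ hA)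
    convert this
    ext x; simp

theorem upper (A : Alg G) (α : PmpAction G μ) (hgen : ∀ g, ∃ w, val A.g3 w = g) (m : ℕ) [NeZero m]
    (ht : G →* Multiplicative (ZMod m)) (ha : ht (A.gen false) = 1)
    (htt : ht (A.gen true) = Multiplicative.ofAdd 1) (Y : Set X) (hY : MeasurableSet Y)
    (aY : ∀ᵐ x ∂μ, ∃ k : ℤ, α.act x (A.z ^ k) ∈ Y) :
    (ext α m ht).cost ≤ 1 + μ Y + μ Y + (m : ℝ≥0∞)⁻¹ := by
  set β := ext α m ht
  let s : G := FreeGroup.lift A.gen (FreeGroup.mk sW)
  have mY : MeasurableSet (Y ×ˢ (Set.univ : Set (ZMod m))) := hY.prod MeasurableSet.univ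
  have m0 : MeasurableSet ((Set.univ : Set X) ×ˢ ({0} : Set (ZMod m))) :=
    MeasurableSet.univ.prod (measurableSet_singleton _)
  let Φ : Graphing β :=
    { ι := Fin 4
      countable := inferInstance
      φ := ![restr β _ MeasurableSet.univ A.z, restr β _ mY (A.gen true), restr β _ mY s,
        restr β _ m0 (A.gen false)]
      rel := fun i x _ => by fin_cases i <;> exact ⟨_, rfl⟩ }
  refine le_trans (iInf₂_le Φ ?_) (le_of_eq ?_)
  · have h1 : ∀ᵐ p ∂μ.prod (unif m), ∀ g, ∃ k : ℤ, α.act (α.act p.1 g) (A.z ^ k) ∈ Y :=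
      Measure.quasiMeasurePreserving_fst.ae (ae_act α aY)
    let Ω : X × ZMod m → Prop := fun p => ∀ g, ∃ k : ℤ, α.act (α.act p.1 g) (A.z ^ k) ∈ Y
    have hΩ : ∀ p g, Ω p → Ω (β.act p g) := fun p g h k => by simpa [β, ext] using h (g * k)
    have hs : ∀ p q, Relation.ReflTransGen Φ.Step p q → Relation.ReflTransGen Φ.Step q p :=
      fun p q h => by
        induction h with
        | refl => exact Relation.ReflTransGen.refl
        | tail _ h ih =>
          obtain ⟨i, h⟩ := h
          exact Relation.ReflTransGen.head ⟨i, h.symm⟩ ih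
    let S : Subgroup G :=
      { carrier := {g | ∀ p, Ω p → Relation.ReflTransGen Φ.Step p (β.act p g)}
        one_mem' := fun p _ => by rw [β.act_one]
        mul_mem' := fun {g h} hg hh p hp => by
          rw [← β.act_mul]; exact (hg p hp).trans (hh _ (hΩ _ _ hp))
        inv_mem' := fun {g} hg p hp => by
          have := hg _ (hΩ p g⁻¹ hp)
          simp only [β.act_mul, inv_mul_cancel, β.act_one] at this
          exact hs _ _ this }
    have hz : A.z ∈ S := fun p _ => Relation.ReflTransGen.single ⟨(0 : Fin 4), Or.inl ⟨trivial, rfl⟩⟩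
    have hb : ∀ b : F, b ∈ B0 → (∀ p : X × ZMod m, p.1 ∈ Y →
        Φ.Step p (β.act p (FreeGroup.lift A.gen b))) → FreeGroup.lift A.gen b ∈ S := by
      intro b hb h p hp
      obtain ⟨k, hk⟩ := hp 1
      have c : Commute A.z (FreeGroup.lift A.gen b) := A.comm b hb
      have a1 := S.zpow_mem hz k p hp
      have a2 := h (β.act p (A.z ^ k)) (by simpa [β, ext] using hk)
      have a3 := S.zpow_mem hz (-k) _ (hΩ _ (FreeGroup.lift A.gen b) (hΩ p (A.z ^ k) hp))
      have e : β.act (β.act (β.act p (A.z ^ k)) (FreeGroup.lift A.gen b)) (A.z ^ (-k)) =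
          β.act p (FreeGroup.lift A.gen b) := by
        rw [β.act_mul p, β.act_mul p, (c.zpow_left k).eq, mul_assoc, ← zpow_add,
          add_neg_cancel, zpow_zero, mul_one]
      rw [e] at a3
      exact (a1.tail a2).trans a3
    have htS : A.gen true ∈ S := by
      simpa using hb (FreeGroup.of true) (Subgroup.subset_closure (by simp)) fun p hp =>
        ⟨(1 : Fin 4), Or.inl ⟨⟨hp, trivial⟩, by simp; rfl⟩⟩
    have hsS : s ∈ S := hb _ (Subgroup.subset_closure (by simp)) fun p hp =>
      ⟨(2 : Fin 4), Or.inl ⟨⟨hp, trivial⟩, rfl⟩⟩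
    have haS : A.gen false ∈ S := by
      have key : ∀ (n : ℕ) p, Ω p → p.2 = n →
          Relation.ReflTransGen Φ.Step p (β.act p (A.gen false)) := by
        intro n
        induction n with
        | zero =>
          exact fun p _ h => Relation.ReflTransGen.single
            ⟨(3 : Fin 4), Or.inl ⟨⟨trivial, by simpa using h⟩, rfl⟩⟩
        | succ n ih =>
          intro p hp h
          have o1 := hΩ p (A.gen true)⁻¹ hp
          have o2 := hΩ _ (A.gen false) o1
          have o3 := hΩ _ (A.gen false) o2
          have a1 := S.inv_mem htS p hp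
          have a2 := ih _ o1 (by simp [β, ext, htt, h])
          have a3 := ih _ o2 (by simp [β, ext, htt, h, ha])
          have a4 := S.inv_mem hsS _ o3
          have e : β.act (β.act (β.act (β.act p (A.gen true)⁻¹) (A.gen false)) (A.gen false)) s⁻¹ =
              β.act p (A.gen false) := by simp [s, sW, mul_assoc]
          rw [e] at a4
          exact ((a1.trans a2).trans a3).trans a4
      exact fun p hp => key p.2.val p hp (ZMod.natCast_zmod_val _).symm
    have hall : ∀ w, val A.g3 w ∈ S := fun w => by
      induction w with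
      | nil => rw [val_nil]; exact S.one_mem
      | cons l w ih =>
        rw [val_cons]
        refine S.mul_mem ?_ ih
        have : ∀ c, A.g3 c ∈ S := by rintro (_ | _ | _) <;> assumption
        obtain ⟨c, _ | _⟩ := l
        · rw [val_false]; exact S.inv_mem (this c)
        · rw [val_true]; exact this c
    filter_upwards [h1] with p hp
    rintro _ ⟨g, rfl⟩
    obtain ⟨w, rfl⟩ := hgen g
    exact hall w p hp
  · simp [Graphing.cost, Φ, tsum_fintype, Fin.sum_univ_four, restr, unif_single]

end upper

abbrev Gam := HNNExtension F B0 B0 (MulEquiv.refl B0)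

lemma lift_gen : FreeGroup.lift (fun c => (HNNExtension.of (FreeGroup.of c) : Gam)) =
    HNNExtension.of := by ext; simp

def alg : Alg Gam where
  gen c := HNNExtension.of (FreeGroup.of c)
  z := HNNExtension.t
  comm b hb := by rw [lift_gen]; exact HNNExtension.t_mul_of ⟨b, hb⟩

lemma alg_inj : Function.Injective (FreeGroup.lift alg.gen) := by
  rw [show FreeGroup.lift alg.gen = HNNExtension.of from lift_gen]
  exact HNNExtension.of_injective _

lemma alg_gen (g : Gam) : ∃ w, val alg.g3 w = g := by
  have hm : ∀ x y, (∃ w, val alg.g3 w = x) → (∃ w, val alg.g3 w = y) →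
      ∃ w, val alg.g3 w = x * y := by
    rintro _ _ ⟨w, rfl⟩ ⟨w', rfl⟩; exact ⟨_, val_append _ _ _⟩
  have hi : ∀ x, (∃ w, val alg.g3 w = x) → ∃ w, val alg.g3 w = x⁻¹ := by
    rintro _ ⟨w, rfl⟩; exact ⟨_, val_invRev _ _⟩
  induction g using HNNExtension.induction_on with
  | of g =>
    induction g using FreeGroup.induction_on with
    | C1 => exact ⟨[], by simp⟩
    | of c => exact ⟨[(some c, true)], val_true _ _⟩
    | inv_of c ih => rw [map_inv]; exact hi _ ih
    | mul x y hx hy => rw [map_mul]; exact hm _ _ hx hy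
  | t => exact ⟨[(none, true)], val_true _ _⟩
  | mul x y hx hy => exact hm _ _ hx hy
  | inv x hx => exact hi _ hx

instance : Countable Gam := Function.Surjective.countable alg_gen

lemma alg_z : ¬IsOfFinOrder alg.z := fun h => by
  have := (HNNExtension.lift (φ := MulEquiv.refl B0) (1 : F →* Multiplicative ℤ)
    (Multiplicative.ofAdd 1) (by simp)).isOfFinOrder h
  rw [alg, HNNExtension.lift_t, isOfFinOrder_ofAdd_iff] at this
  simpa using this.eq_zero'

instance : Infinite Gam := Set.infinite_univ_iff.1
  ((infinite_powers.2 alg_z).mono (Set.subset_univ _))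

lemma alg_britton (N K κ : ℕ) : (alg.D N K κ).Britton := by
  intro f l h
  let u : Hn N × Bool × F → ℤˣ × F := fun a => (if a.2.1 then 1 else -1, a.2.2)
  by_cases hc : (l.map u).IsChain
      fun a b => a.2 ∈ HNNExtension.toSubgroup B0 B0 a.1 → a.1 = b.1
  · left
    have := HNNExtension.ReducedWord.toList_eq_nil_of_mem_of_range (MulEquiv.refl B0)
      ⟨f, l.map u, hc⟩ ⟨1, by
        rw [map_one, ← h]
        simp only [Data.tot, Data.ι, HNNExtension.NormalWord.ReducedWord.prod, List.map_map]
        rw [show FreeGroup.lift (alg.D N K κ).gen = HNNExtension.of from lift_gen]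
        congr 2
        refine List.map_congr_left fun a _ => ?_
        obtain ⟨h, _ | _, g⟩ := a <;> simp [u, Data.zz, Alg.D, alg]⟩
    simpa using this
  · right
    rw [List.isChain_map, List.isChain_iff_forall_rel_of_append_cons_cons] at hc
    push Not at hc
    obtain ⟨⟨k, ε, g⟩, ⟨k', ε', g'⟩, l1, l2, rfl, h1, h2⟩ := hc
    obtain rfl : ε' = !ε := by cases ε <;> cases ε' <;> simp_all [u]
    exact ⟨l1, k, ε, g, k', g', l2, rfl, by cases ε <;> exact h1⟩

noncomputable def height (m : ℕ) : Gam →* Multiplicative (ZMod m) :=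
  HNNExtension.lift (FreeGroup.lift fun c => if c then Multiplicative.ofAdd 1 else 1) 1 (by simp)

theorem main : ∃ β : PmpAction Gam ((bm Gam).prod (unif 1000)),
    (bern Gam).EssFree ∧ β.EssFree ∧ β.cost < (bern Gam).cost := by
  classical
  obtain ⟨Y, hY, sY, aY⟩ := bern_hit alg_z (1 / 1000) (by norm_num)
  refine ⟨ext (bern Gam) 1000 (height _), bern_free, ext_free bern_free _ _, ?_⟩
  refine lt_of_le_of_lt (upper alg _ alg_gen 1000 _ (by simp [height, alg]) (by simp [height, alg])
    Y hY aY) (lt_of_lt_of_le ?_ (lower alg _ alg_inj alg_britton alg_gen bern_free bern_cov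
      (1 / 200) (bern_gap alg.gen alg_inj) (bern_hit alg_z)))
  rw [ENNReal.lt_ofReal_iff_toReal_lt (by finiteness), ENNReal.toReal_add (by finiteness)
    (by finiteness), ENNReal.toReal_add (by finiteness) (by finiteness),
    ENNReal.toReal_add (by finiteness) (by finiteness), ← measureReal_def]
  simp only [ENNReal.toReal_one, ENNReal.toReal_inv, ENNReal.toReal_natCast]
  norm_num
  linarith

end Vale.Agent.P189
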