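import Vale.Agent.P189.StepM

namespace Vale.Agent.P189

open MeasureTheory Finset

set_option linter.unusedSectionVars false

variable {G : Type} [Group G] {X : Type} [MeasurableSpace X] {μ : Measure X}
  {S H : Type} [DecidableEq S] [Fintype S] [DecidableEq H] [Fintype H]

/-- points with trivial stabiliser -/
def PmpAction.Free (α : PmpAction G μ) (x : X) : Prop := ∀ g, α.act x g = x → g = 1

lemma PmpAction.Free.act {α : PmpAction G μ} {x : X} (h : α.Free x) (g : G) :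
    α.Free (α.act x g) := fun k e => by
  have := h (g * k * g⁻¹) (by rw [← α.act_mul, ← α.act_mul, e]; simp)
  rwa [mul_inv_eq_one, mul_eq_left] at this

/-- finite covers by small sets -/
structure Cov (α : PmpAction G μ) : Prop where
  all : ∃ 𝒜 : Set (Set X), 𝒜.Finite ∧ (∀ A ∈ 𝒜, MeasurableSet A ∧ μ.real A ≤ 1 / 8) ∧
    ∀ x, ∃ A ∈ 𝒜, x ∈ A
  ind : ∀ e : G, ∃ 𝒜 : Set (Set X), 𝒜.Finite ∧ (∀ A ∈ 𝒜, MeasurableSet A ∧ μ.real A ≤ 1 / 8 ∧
    (e ≠ 1 → ∀ x ∈ A, α.act x e ∉ A)) ∧ ∀ x, α.Free x → ∃ A ∈ 𝒜, x ∈ A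

namespace Env
open Data
variable {D : Data G S H} {α : PmpAction G μ} [IsProbabilityMeasure μ] {V : Env D α}

lemma round (hC : Cov α) (σ : X → Loc S H) (hσ : V.Good σ) : ∃ σ', V.Good σ' ∧ D.Le α σ σ' ∧
    RoundEff α D.gen D.Wr (fun x => (σ x).s) fun x => (σ' x).s := by
  obtain ⟨𝒜, hf, h1, h2⟩ := hC.all
  obtain ⟨σ', g', l', H'⟩ := sweep V.Good (D.Le α) (D.le_rfl' α) (D.le_trans' α)
    (I := ((Bool × Bool) × S × S × S × S) × Set X)
    (fun i a b => ∀ x ∈ i.2, (a (α.act x (val D.gen [i.1.1]))).s i.1.2.2.1 =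
      (a (α.act x (val D.gen [i.1.1]))).s i.1.2.2.2.2 → (b x).s i.1.2.1 = (b x).s i.1.2.2.2.1)
    (P := {i | Dir D.Wr i.1 i.2.1 i.2.2.1 ∧ Dir D.Wr i.1 i.2.2.2.1 i.2.2.2.2} ×ˢ 𝒜)
    ((Set.toFinite _).prod hf)
    (fun i hi a ha => stepP _ _ _ _ _ hi.1.1 hi.1.2 _ (h1 _ hi.2).1 (h1 _ hi.2).2 a ha) σ hσ
  refine ⟨σ', g', l', fun x l u v u' v' d d' e => ?_⟩
  obtain ⟨A, hA, hx⟩ := h2 x
  obtain ⟨a1, a2, -, -, b1, b2, -, b3⟩ := H' ((l, u, v, u', v'), A) ⟨⟨d, d'⟩, hA⟩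
  exact b3.co _ _ _ (b2 x hx (b1.co _ _ _ e))

lemma rounds (hC : Cov α) (n : ℕ) (σ : X → Loc S H) (hσ : V.Good σ) :
    ∃ σ', V.Good σ' ∧ D.Le α σ σ' ∧ ∀ x u v, D.T α σ n x u 1 v → (σ' x).s u = (σ' x).s v := by
  induction n generalizing σ with
  | zero =>
    refine ⟨σ, hσ, D.le_rfl' α σ, ?_⟩
    rintro x u v ⟨w, h1, -, h3⟩
    obtain rfl : w = [] := by simpa using h1
    exact h3.eq
  | succ n ih =>
    obtain ⟨σ1, g1, l1, H1⟩ := round hC σ hσ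
    obtain ⟨σ2, g2, l2, H2⟩ := ih σ1 g1
    refine ⟨σ2, g2, D.le_trans' α _ _ _ l1 l2, ?_⟩
    rintro x u v ⟨w, h1, h2, h3⟩
    obtain ⟨w', r1, r2⟩ := FreeGroup.Red.exact.1 (h2.trans FreeGroup.one_eq_mk)
    obtain rfl := FreeGroup.Red.nil_iff.1 r2
    rcases Relation.ReflTransGen.cases_head r1 with rfl | ⟨w1, s1, s2⟩
    · exact l2.co _ _ _ (l1.co _ _ _ h3.eq)
    · refine H2 x u v ⟨w1, by have := s1.length; omega, ?_, h3.back l1.co H1 s1⟩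
      rw [← h2]; exact (Quot.sound s1).symm

lemma RC.mono {σ σ' : X → Loc S H} (l : D.Le α σ σ') {y h} (e : RC D α σ y h) :
    RC D α σ' y h := by
  rcases e with e | e | e
  · exact Or.inl (e.trans (l.cv_le _ _))
  · exact Or.inr (Or.inl (l.co _ _ _ e))
  · exact Or.inr (Or.inr (l.co _ _ _ e))

lemma realize (hC : Cov α) (σ : X → Loc S H) (hσ : V.Good σ) :
    ∃ σ', V.Good σ' ∧ D.Le α σ σ' ∧ ∀ y h, RC D α σ y h → (σ' y).ptr h = none := by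
  obtain ⟨𝒜, hf, h1, h2⟩ := hC.all
  obtain ⟨σ', g', l', H'⟩ := untilGoal V.Good (D.Le α) (D.le_rfl' α) (D.le_trans' α)
    (J := X × H) (fun a j => RC D α a j.1 j.2) (fun a j => (a j.1).ptr j.2 = none)
    (fun a j => D.cv α a j.1 j.2) (2 * D.K + 1) (fun a b j _ _ l e => RC.mono l e)
    (fun a b j _ hb l e => l.none hb.inv e) (fun a j ha => ha.inv.cv_le _ _) (fun a ha => by
      obtain ⟨b, gb, lb, Hb⟩ := sweep V.Good (D.Le α) (D.le_rfl' α) (D.le_trans' α)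
        (I := (H × H) × F × Set X)
        (fun i a b => ∀ y ∈ i.2.2, (a y).ptr i.1.1 = some (i.2.1, i.1.2) →
          RC D α a y i.1.1 → (b y).ptr i.1.1 = none)
        (P := Set.univ ×ˢ {f : F | f.norm ≤ D.ρ} ×ˢ 𝒜)
        ((Set.toFinite _).prod ((finite_norm_le _).prod hf))
        (fun i hi a ha => stepR _ _ _ _ (h1 _ hi.2.2).1 (h1 _ hi.2.2).2 a ha) a ha
      refine ⟨b, gb, lb, fun ⟨y, h⟩ e => ?_⟩
      cases e1 : (a y).ptr h with
      | none => exact Or.inl (lb.none gb.inv e1)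
      | some q =>
        obtain ⟨A, hA, hx⟩ := h2 y
        have L := ha.inv.lk y h q.1 q.2 e1
        obtain ⟨a1, a2, -, -, b1, b2, b3, b4⟩ := Hb ((h, q.2), q.1, A)
          ⟨trivial, (TW.norm_le (L.tw false)).trans L.bd, hA⟩
        by_cases hv : D.cv α a1 y h = D.cv α a y h
        · exact Or.inl (b4.none gb.inv (b2 y hx ((b1.ptr _ _ hv).trans e1) (RC.mono b1 e)))
        · have := b1.cv_le y h
          have := b3.cv_le y h
          have := b4.cv_le y h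
          exact Or.inr (by simp only; omega)) σ hσ
  exact ⟨σ', g', l', fun y h e => H' (y, h) e⟩

/-- whiskers -/
structure Wh (D : Data G S H) (α : PmpAction G μ) (P : H → Prop) (L : ℕ)
    (wh : H → F → Bool → S) : Prop where
  tw : ∀ h f, P h → f ∈ D.B → f.norm ≤ L → ∀ d s x,
    TW α D.gen D.Wr s D.κ x (D.en d h) f (wh h f d)
  rw : ∀ f ∈ D.B, f.norm ≤ L → D.RW α D.κ f

lemma merging (hC : Cov α) (hι : Function.Injective D.ι) {P L wh} (hW : Wh D α P L wh)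
    (σ : X → Loc S H) (hσ : V.Good σ) :
    ∃ σ', V.Good σ' ∧ D.Le α σ σ' ∧ ∀ y d h h' f, α.Free y → P h → f ∈ D.B → f.norm ≤ L →
      (σ (α.act y (D.sd d * D.ι f))).s (wh h f d) = (σ (α.act y (D.sd d * D.ι f))).s (D.en d h') →
      D.Same α σ' y h f h' ∨ D.K ≤ D.cv α σ' y h ∨ D.K ≤ D.cv α σ' (α.act y (D.ι f)) h' := by
  choose fam hf h1 h2 using hC.ind
  obtain ⟨σ', g', l', H'⟩ := untilGoal V.Good (D.Le α) (D.le_rfl' α) (D.le_trans' α)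
    (J := X × Bool × H × H × F)
    (fun a j => α.Free j.1 ∧ P j.2.2.1 ∧ j.2.2.2.2 ∈ D.B ∧ j.2.2.2.2.norm ≤ L ∧
      (a (α.act j.1 (D.sd j.2.1 * D.ι j.2.2.2.2))).s (wh j.2.2.1 j.2.2.2.2 j.2.1) =
      (a (α.act j.1 (D.sd j.2.1 * D.ι j.2.2.2.2))).s (D.en j.2.1 j.2.2.2.1))
    (fun a j => D.Same α a j.1 j.2.2.1 j.2.2.2.2 j.2.2.2.1 ∨ D.K ≤ D.cv α a j.1 j.2.2.1 ∨
      D.K ≤ D.cv α a (α.act j.1 (D.ι j.2.2.2.2)) j.2.2.2.1)
    (fun a j => D.cv α a j.1 j.2.2.1 + D.cv α a (α.act j.1 (D.ι j.2.2.2.2)) j.2.2.2.1)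
    (2 * D.K + 1 + (2 * D.K + 1))
    (fun a b j _ _ l e => ⟨e.1, e.2.1, e.2.2.1, e.2.2.2.1, l.co _ _ _ e.2.2.2.2⟩)
    (fun a b j _ _ l e => e.imp (l.same _ _ _ _)
      (Or.imp (·.trans (l.cv_le _ _)) (·.trans (l.cv_le _ _))))
    (fun a j ha => Nat.add_le_add (ha.inv.cv_le _ _) (ha.inv.cv_le _ _)) (fun a ha => by
      obtain ⟨b, gb, lb, Hb⟩ := sweep V.Good (D.Le α) (D.le_rfl' α) (D.le_trans' α)
        (I := ((Bool × H × H × H × H) × F × F × F) × Set X)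
        (fun ⟨⟨⟨d, h, h', k, k'⟩, f, b, b'⟩, A⟩ σ σ' => ∀ y ∈ A,
          (σ y).ptr h = some (b, k) → (σ (α.act y (D.ι f))).ptr h' = some (b', k') →
          D.cv α σ y h < D.K → D.cv α σ (α.act y (D.ι f)) h' < D.K →
          (σ (α.act y (D.sd d * D.ι f))).s (wh h f d) =
            (σ (α.act y (D.sd d * D.ι f))).s (D.en d h') → D.Same α σ' y h f h')
        (P := {i | (P i.1.1.2.1 ∧ i.1.2.1 ∈ D.B ∧ (i.1.1.2.2.2.1 = i.1.1.2.2.2.2 →
          i.1.2.2.1 * (i.1.2.1 * i.1.2.2.2)⁻¹ ≠ 1)) ∧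
          (i.1.2.1.norm ≤ L ∧ i.1.2.2.1.norm ≤ D.ρ ∧ i.1.2.2.2.norm ≤ D.ρ) ∧
          i.2 ∈ fam (D.ι (i.1.2.2.1 * (i.1.2.1 * i.1.2.2.2)⁻¹))})
        (Set.Finite.subset (Set.Finite.biUnion (s := Set.univ ×ˢ {f : F | f.norm ≤ L} ×ˢ
            {f : F | f.norm ≤ D.ρ} ×ˢ {f : F | f.norm ≤ D.ρ})
          ((Set.toFinite _).prod ((finite_norm_le _).prod
            ((finite_norm_le _).prod (finite_norm_le _))))
          (t := fun j => {j} ×ˢ fam (D.ι (j.2.2.1 * (j.2.1 * j.2.2.2)⁻¹)))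
          fun j _ => (Set.finite_singleton j).prod (hf _))
          fun i hi => Set.mem_biUnion (x := i.1) ⟨trivial, hi.2.1⟩ ⟨rfl, hi.2.2⟩)
        (fun ⟨⟨⟨d, h, h', k, k'⟩, f, b, b'⟩, A⟩ hi a ha => stepM d h h' f b b' k k' (wh h f)
          hi.1.2.1 (hW.tw h f hi.1.1 hi.1.2.1 hi.2.1.1) (hW.rw f hi.1.2.1 hi.2.1.1) A
          (h1 _ _ hi.2.2).1 (h1 _ _ hi.2.2).2.1 (fun e => (h1 _ _ hi.2.2).2.2 fun e' =>
            hi.1.2.2 e (hι (e'.trans (map_one _).symm))) a ha) a ha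
      refine ⟨b, gb, lb, fun ⟨y, d, h, h', f⟩ ⟨e0, e1, e2, e3, e4⟩ => ?_⟩
      simp only at e0 e1 e2 e3 e4 ⊢
      by_contra hn
      simp only [not_or, not_le, not_lt] at hn
      obtain ⟨⟨n1, n2, n3⟩, n4⟩ := hn
      have c1 := lb.cv_le y h
      have c2 := lb.cv_le (α.act y (D.ι f)) h'
      cases p1 : (a y).ptr h with
      | none => rw [cv_none p1] at c1; omega
      | some q =>
      cases p2 : (a (α.act y (D.ι f))).ptr h' with
      | none => rw [cv_none p2] at c2; omega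
      | some q' =>
      obtain ⟨b1, k⟩ := q
      obtain ⟨b2, k'⟩ := q'
      have L1 := ha.inv.lk _ _ _ _ p1
      have L2 := ha.inv.lk _ _ _ _ p2
      obtain ⟨A, hA, hx⟩ := h2 (D.ι (b1 * (f * b2)⁻¹)) y e0
      obtain ⟨a1, a2, -, -, l1, ef, l2, l3⟩ := Hb (((d, h, h', k, k'), f, b1, b2), A)
        ⟨⟨e1, e2, fun e e' => n1 (lb.same _ _ _ _ (Or.inl ⟨b1, k, p1, by
          simp only at e e'
          rw [p2, ← e, mul_inv_eq_one.1 e']; simp⟩))⟩,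
          ⟨e3, (TW.norm_le (L1.tw false)).trans L1.bd, (TW.norm_le (L2.tw false)).trans L2.bd⟩, hA⟩
      have d1 := l1.cv_le y h
      have d2 := l1.cv_le (α.act y (D.ι f)) h'
      have d3 := (D.le_trans' α _ _ _ l2 l3).cv_le y h
      have d4 := (D.le_trans' α _ _ _ l2 l3).cv_le (α.act y (D.ι f)) h'
      exact n1 (l3.same _ _ _ _ (ef y hx ((l1.ptr _ _ (by omega)).trans p1)
        ((l1.ptr _ _ (by omega)).trans p2) (by omega) (by omega) (l1.co _ _ _ e4)))) σ hσ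
  exact ⟨σ', g', l', fun y d h h' f a b c e g => H' (y, d, h, h', f) ⟨a, b, c, e, g⟩⟩

lemma RC_of {σ : X → Loc S H} {y h} (d : Bool)
    (e : (σ (α.act y (D.sd d))).s (D.en d h) = (σ (α.act y (D.sd d))).s D.p0) : RC D α σ y h := by
  cases d
  · exact Or.inr (Or.inl (by simpa [sd] using e))
  · exact Or.inr (Or.inr (by simpa [sd] using e))

theorem pinch (hC : Cov α) (hι : Function.Injective D.ι) {P L wh} (hW : Wh D α P L wh) (n : ℕ)
    (σ : X → Loc S H) (hσ : V.Good σ) :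
    ∃ σ', V.Good σ' ∧ D.Le α σ σ' ∧ ∀ y d h h' f, α.Free y → P h → f ∈ D.B → f.norm ≤ L →
      D.T α σ n (α.act y (D.sd d)) (D.en d h) f (D.en d h') → ∀ d',
      D.T α σ' (8 * D.ρ + D.κ) (α.act y (D.sd d')) (D.en d' h) f (D.en d' h') := by
  obtain ⟨σ1, g1, l1, H1⟩ := rounds hC (D.κ + n) σ hσ
  obtain ⟨σ2, g2, l2, H2⟩ := merging hC hι hW σ1 g1
  obtain ⟨σ3, g3, l3, H3⟩ := realize hC σ2 g2
  obtain ⟨σ4, g4, l4, H4⟩ := rounds hC (n + 4 * D.ρ + D.κ) σ3 g3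
  obtain ⟨σ5, g5, l5, H5⟩ := realize hC σ4 g4
  have l03 := D.le_trans' α _ _ _ l1 (D.le_trans' α _ _ _ l2 l3)
  have l45 := D.le_trans' α _ _ _ l4 l5
  refine ⟨σ5, g5, D.le_trans' α _ _ _ l03 l45, fun y d h h' f hy hP hf hL t d' => ?_⟩
  have hs : ∀ d, α.act (α.act y (D.ι f)) (D.sd d) = α.act (α.act y (D.sd d)) (D.ι f) := fun d => by
    rw [α.act_mul, α.act_mul, D.sd_comm d hf]
  have a1 := H1 _ _ _ (TW.cast ((TW.symm (hW.tw h f hP hf hL d _ (α.act y (D.sd d))) rfl).trans t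
    (by simp)) (inv_mul_cancel f))
  rw [α.act_mul] at a1
  have t3 := T.co l03.co t
  have key : D.Same α σ5 y h f h' := by
    have a2 : D.Same α σ3 y h f h' ∨ (σ3 y).ptr h = none ∨ (σ3 (α.act y (D.ι f))).ptr h' = none :=
      (H2 y d h h' f hy hP hf hL a1).imp (l3.same _ _ _ _)
        (Or.imp (fun e => H3 _ _ (Or.inl e)) fun e => H3 _ _ (Or.inl e))
    rcases a2 with a2 | a2 | a2
    · exact l45.same _ _ _ _ a2
    · refine Or.inr ⟨l45.none g5.inv a2, H5 _ _ (RC_of d (H4 _ _ _ ?_))⟩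
      rw [hs]
      exact TW.cast (((TW.symm t3 rfl).trans (g3.inv.re y h a2 d) (by simp)).trans
        (hW.rw f hf hL _ (α.act y (D.sd d))) (by simp)) (by simp)
    · refine Or.inr ⟨H5 _ _ (RC_of d (H4 _ _ _ ?_)), l45.none g5.inv a2⟩
      exact TW.cast ((TW.trans t3 (g3.inv.re _ h' a2 d) (hs d)).trans
        ((hW.rw f hf hL).inv _ _) rfl) (by simp)
  rcases key with ⟨b, k, e1, e2⟩ | ⟨e1, e2⟩
  · have L1 := g5.inv.lk _ _ _ _ e1
    have L2 := g5.inv.lk _ _ _ _ e2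
    refine TW.le (TW.cast ((TW.le (L1.tw d') L1.bd).trans
      (TW.symm (TW.le (L2.tw d') L2.bd) rfl) ?_) (by simp)) (by omega)
    rw [hs]; simp [ι]
  · refine TW.le (TW.cast (((g5.inv.re _ _ e1 d').trans (hW.rw f hf hL _ _) rfl).trans
      (TW.symm (g5.inv.re _ _ e2 d') rfl) ?_) (by simp)) (by omega)
    rw [hs]; simp [ι]

end Env

end Vale.Agent.P189
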