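import Vale.Agent.P189.Walk

namespace Vale.Agent.P189

open MeasureTheory FreeGroup Finset

set_option linter.unusedSectionVars false

abbrev F := FreeGroup Bool

/-- static data of the message passing system -/
structure Data (G S H : Type) [Group G] where
  gen : Bool → G
  z : G
  B : Subgroup F
  comm : ∀ b ∈ B, z * lift gen b = lift gen b * z
  W : Bool → Finset (S × S)
  p0 : S
  p1 : S
  p2 : S
  wa1 : (p1, p0) ∈ W false
  wa2 : (p2, p1) ∈ W false
  wt1 : (p0, p0) ∈ W true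
  wt2 : (p2, p1) ∈ W true
  en : Bool → H → S
  K : ℕ
  κ : ℕ
  hK : 1 ≤ K

/-- local state -/
structure Loc (S H : Type) where
  s : S → S
  ptr : H → Option (F × H)
  sz : H → ℕ

instance {S H : Type} [Finite S] [Finite H] : Countable (Loc S H) :=
  Function.Injective.countable (f := fun l : Loc S H => (l.s, l.ptr, l.sz)) (by
    rintro ⟨_, _, _⟩ ⟨_, _, _⟩ h
    simp only [Prod.mk.injEq] at h
    obtain ⟨rfl, rfl, rfl⟩ := h
    rfl)

variable {G : Type} [Group G] {X : Type} [MeasurableSpace X] {μ : Measure X}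
  {S H : Type} [DecidableEq S] [Fintype S] [DecidableEq H] [Fintype H]

namespace Data
variable (D : Data G S H) (α : PmpAction G μ)

def Wr : Bool → S → S → Prop := fun c u v => (u, v) ∈ D.W c

def ι : F →* G := lift D.gen

def sd (d : Bool) : G := if d then D.z else 1

lemma sd_comm (d : Bool) {b : F} (hb : b ∈ D.B) : D.sd d * D.ι b = D.ι b * D.sd d := by
  cases d
  · simp [sd]
  · exact D.comm b hb

def T (σ : X → Loc S H) (n : ℕ) (x : X) (u : S) (f : F) (v : S) : Prop :=
  TW α D.gen D.Wr (fun x => (σ x).s) n x u f v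

def RW (n : ℕ) (b : F) : Prop := ∀ (s : X → S → S) x, TW α D.gen D.Wr s n x D.p0 b D.p0

variable {D α} in
lemma RW.mul {n m : ℕ} {b c : F} (h : D.RW α n b) (h' : D.RW α m c) : D.RW α (n + m) (b * c) :=
  fun s x => (h s x).trans (h' s _) rfl

variable {D α} in
lemma RW.inv {n : ℕ} {b : F} (h : D.RW α n b) : D.RW α n b⁻¹ :=
  fun s x => (h s (α.act x (lift D.gen b)⁻¹)).symm (by simp)

variable {D α} in
lemma RW.le {n m : ℕ} {b : F} (h : D.RW α n b) (hn : n ≤ m) : D.RW α m b :=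
  fun s x => (h s x).le hn

def ρ : ℕ := D.κ * 4 ^ (2 * D.K)

/-- a pointer is correct -/
structure Lk (σ : X → Loc S H) (x : X) (h : H) (b : F) (h' : H) : Prop where
  rep : (σ (α.act x (D.ι b))).ptr h' = some (1, h')
  mem : b ∈ D.B
  pos : 1 ≤ (σ (α.act x (D.ι b))).sz h'
  le : (σ (α.act x (D.ι b))).sz h' ≤ 2 * D.K
  tw : ∀ d, D.T α σ (D.κ * 4 ^ (σ (α.act x (D.ι b))).sz h') (α.act x (D.sd d)) (D.en d h) b
    (D.en d h')
  rw : D.RW α (D.κ * 4 ^ (σ (α.act x (D.ι b))).sz h') b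

structure Inv (σ : X → Loc S H) : Prop where
  lk : ∀ x h b h', (σ x).ptr h = some (b, h') → D.Lk α σ x h b h'
  re : ∀ x h, (σ x).ptr h = none → ∀ d,
    D.T α σ (4 * D.ρ) (α.act x (D.sd d)) (D.en d h) 1 D.p0

variable {D α} in
lemma Lk.bd {σ : X → Loc S H} {x h b h'} (L : D.Lk α σ x h b h') :
    D.κ * 4 ^ (σ (α.act x (D.ι b))).sz h' ≤ D.ρ :=
  Nat.mul_le_mul_left _ (Nat.pow_le_pow_right (by norm_num) L.le)

def EA (σ : X → Loc S H) (c : Bool) (x : X) : ℕ :=
  (ecl (σ x).s (σ (α.act x (D.gen c))).s (D.W c)).card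

def Zc (l : Loc S H) : ℕ := ∑ h, if l.ptr h = some (1, h) then D.K + l.sz h else 0

noncomputable def pot (σ : X → Loc S H) : ℝ :=
  D.K * (Ex μ (D.EA α σ false) + Ex μ (D.EA α σ true) - Ex μ fun x => cls (σ x).s) +
    Ex μ fun x => D.Zc (σ x)

variable [IsProbabilityMeasure μ]

lemma ig_EA {σ : X → Loc S H} (hσ : Ms σ) (c : Bool) : Ig μ (D.EA α σ c) :=
  Ig.of_ms ((hσ.pair (hσ.pre (α.meas (D.gen c)))).comp
    fun q => (ecl q.1.s q.2.s (D.W c)).card) (D.W c).card fun _ => card_image_le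

lemma ig_cls {σ : X → Loc S H} (hσ : Ms σ) : Ig μ fun x => cls (σ x).s :=
  Ig.of_ms (hσ.comp fun l => cls l.s) _ fun _ => cls_le _

variable {D α} in
lemma Inv.sz_le {σ : X → Loc S H} (hI : D.Inv α σ) {x h} (e : (σ x).ptr h = some (1, h)) :
    (σ x).sz h ≤ 2 * D.K := by
  simpa using (hI.lk x h 1 h e).le

lemma ig_Zc {σ : X → Loc S H} (hσ : Ms σ) (hI : D.Inv α σ) : Ig μ fun x => D.Zc (σ x) := by
  refine Ig.of_ms (hσ.comp D.Zc) (∑ _h : H, 3 * D.K) fun x => sum_le_sum fun h _ => ?_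
  split_ifs with e
  · have := hI.sz_le e; omega
  · omega

/-! reachability of real classes -/

def gen3 : Option Bool → G
  | some c => D.gen c
  | none => D.z

def alive (l : Loc S H) : Finset H := univ.filter fun h => l.ptr h = some (1, h)

def E (σ : X → Loc S H) : Option Bool → X → Finset (S × S)
  | some c, x => ecl (σ x).s (σ (α.act x (D.gen c))).s (D.W c)
  | none, x => ecl (σ x).s (σ (α.act x D.z)).s
      ((alive (σ x)).image fun h => (D.en false h, D.en true h))

lemma ms_E {σ : X → Loc S H} (hσ : Ms σ) (γ : Option Bool) : Ms (D.E α σ γ) := by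
  cases γ with
  | none =>
    exact (hσ.pair (hσ.pre (α.meas D.z))).comp fun q =>
      ecl q.1.s q.2.s ((alive q.1).image fun h => (D.en false h, D.en true h))
  | some c => exact (hσ.pair (hσ.pre (α.meas (D.gen c)))).comp fun q => ecl q.1.s q.2.s (D.W c)

def Reach (σ : X → Loc S H) : ℕ → X → S → Prop
  | 0, x, c => c = (σ x).s D.p0 ∨ c = (σ x).s D.p1 ∨ c = (σ x).s D.p2
  | n + 1, x, c => Reach σ n x c ∨ ∃ γ c',
      ((c, c') ∈ D.E α σ γ x ∧ Reach σ n (α.act x (D.gen3 γ)) c') ∨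
      ((c', c) ∈ D.E α σ γ (α.act x (D.gen3 γ)⁻¹) ∧ Reach σ n (α.act x (D.gen3 γ)⁻¹) c')

lemma ms_reach {σ : X → Loc S H} (hσ : Ms σ) (n : ℕ) (c : S) :
    MeasurableSet {x | D.Reach α σ n x c} := by
  induction n generalizing c with
  | zero => exact hσ.set fun l => c = l.s D.p0 ∨ c = l.s D.p1 ∨ c = l.s D.p2
  | succ n ih =>
    simp only [Reach, Set.ofPred_or, Set.ofPred_exists, Set.ofPred_and]
    refine (ih c).union (MeasurableSet.iUnion fun γ => MeasurableSet.iUnion fun c' =>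
      MeasurableSet.union (MeasurableSet.inter ?_ ?_) (MeasurableSet.inter ?_ ?_))
    · exact (D.ms_E α hσ γ).set fun T => (c, c') ∈ T
    · exact α.meas _ (ih c')
    · exact ((D.ms_E α hσ γ).pre (α.meas _)).set fun T => (c', c) ∈ T
    · exact α.meas _ (ih c')

variable {D α} in
lemma Reach.mono {σ : X → Loc S H} {n m : ℕ} {x c} (h : D.Reach α σ n x c) (hn : n ≤ m) :
    D.Reach α σ m x c := by
  induction hn with
  | refl => exact h
  | step _ ih => exact Or.inl ih

def Rch (σ : X → Loc S H) (x : X) (u : S) : Prop := ∃ n, D.Reach α σ n x ((σ x).s u)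

lemma rch_walk {σ : X → Loc S H} {A : Type} {gen : A → G} {Wr : A → S → S → Prop}
    (hf : ∀ c u v x, Wr c u v → D.Rch α σ (α.act x (gen c)) v → D.Rch α σ x u)
    (hb : ∀ c u v x, Wr c u v → D.Rch α σ x u → D.Rch α σ (α.act x (gen c)) v)
    {x u w v} (H : Walk α gen Wr (fun x => (σ x).s) x u w v)
    (hv : D.Rch α σ (α.act x (val gen w)) v) : D.Rch α σ x u := by
  induction H with
  | nil e => simp only [val_nil, α.act_one] at hv; unfold Rch; rw [e]; exact hv
  | @step x u u' v' l w v e d _ ih =>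
    rw [val_cons, ← α.act_mul] at hv
    have h1 := ih hv
    have h2 : D.Rch α σ x u' := by
      obtain ⟨c, b⟩ := l
      rcases d with ⟨h, d⟩ | ⟨h, d⟩
      · simp only at h; subst h
        rw [val_true] at h1
        exact hf _ _ _ _ d h1
      · simp only at h; subst h
        rw [val_false] at h1
        simpa using hb _ _ _ _ d h1
    unfold Rch; rw [e]; exact h2

lemma rch_f {σ : X → Loc S H} (γ : Option Bool) {x u v}
    (h : ((σ x).s u, (σ (α.act x (D.gen3 γ))).s v) ∈ D.E α σ γ x)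
    (hv : D.Rch α σ (α.act x (D.gen3 γ)) v) : D.Rch α σ x u := by
  obtain ⟨n, hn⟩ := hv
  exact ⟨n + 1, Or.inr ⟨γ, _, Or.inl ⟨h, hn⟩⟩⟩

lemma rch_b {σ : X → Loc S H} (γ : Option Bool) {x u v}
    (h : ((σ x).s u, (σ (α.act x (D.gen3 γ))).s v) ∈ D.E α σ γ x)
    (hv : D.Rch α σ x u) : D.Rch α σ (α.act x (D.gen3 γ)) v := by
  obtain ⟨n, hn⟩ := hv
  refine ⟨n + 1, Or.inr ⟨γ, (σ x).s u, Or.inr ?_⟩⟩
  simp only [α.act_mul, mul_inv_cancel, α.act_one]
  exact ⟨h, hn⟩

lemma rch_T {σ : X → Loc S H} {n x y u f v} (H : D.T α σ n x u f v) (hy : y = α.act x (D.ι f))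
    (hv : D.Rch α σ y v) : D.Rch α σ x u := by
  obtain ⟨w, -, rfl, H⟩ := H
  subst hy
  refine D.rch_walk α (fun c u v x h => D.rch_f α (some c) ?_)
    (fun c u v x h => D.rch_b α (some c) ?_) H hv
  · exact mem_image_of_mem _ h
  · exact mem_image_of_mem _ h

lemma rch_p0 (σ : X → Loc S H) (x : X) : D.Rch α σ x D.p0 := ⟨0, Or.inl rfl⟩

/-- all wires, the crossing wires restricted to a set of names -/
def Wall (P : H → Prop) : Option Bool → S → S → Prop
  | some c, u, v => (u, v) ∈ D.W c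
  | none, u, v => ∃ h, P h ∧ u = D.en false h ∧ v = D.en true h

lemma rch_z {σ : X → Loc S H} (hI : D.Inv α σ) (h : H) (x : X) :
    D.Rch α σ (α.act x D.z) (D.en true h) ↔ D.Rch α σ x (D.en false h) := by
  cases e : (σ x).ptr h with
  | none =>
    have h1 := hI.re x h e false
    have h2 := hI.re x h e true
    simp only [sd, if_true, Bool.false_eq_true, if_false, α.act_one] at h1 h2
    exact ⟨fun _ => D.rch_T α h1 (by simp) (D.rch_p0 α σ x),
      fun _ => D.rch_T α h2 rfl (D.rch_p0 α σ _)⟩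
  | some q =>
    obtain ⟨b, h'⟩ := q
    have L := hI.lk x h b h' e
    have h1 := L.tw false
    have h2 := L.tw true
    simp only [sd, if_true, Bool.false_eq_true, if_false, α.act_one] at h1 h2
    have hE : ((σ (α.act x (D.ι b))).s (D.en false h'),
        (σ (α.act (α.act x (D.ι b)) (D.gen3 none))).s (D.en true h')) ∈
        D.E α σ none (α.act x (D.ι b)) :=
      mem_image.2 ⟨_, mem_image_of_mem _ (mem_filter.2 ⟨mem_univ h', L.rep⟩), rfl⟩
    have hc : α.act (α.act x (D.ι b)) (D.gen3 none) = α.act (α.act x D.z) (D.ι b) := by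
      simp only [α.act_mul, gen3, ι]; rw [← D.comm b L.mem]
    constructor
    · intro hh
      refine D.rch_T α h1 rfl (D.rch_f α none hE ?_)
      rw [hc]
      exact D.rch_T α (TW.symm h2 rfl) (by simp [ι]) hh
    · intro hh
      refine D.rch_T α h2 hc (D.rch_b α none hE ?_)
      exact D.rch_T α (TW.symm h1 rfl) (by simp [ι]) hh

lemma rch_all {σ : X → Loc S H} (hI : D.Inv α σ) {P : H → Prop} {x u w}
    (H : Walk α D.gen3 (D.Wall P) (fun x => (σ x).s) x u w D.p0) : D.Rch α σ x u := by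
  refine D.rch_walk α (fun c u v x h => ?_) (fun c u v x h => ?_) H (D.rch_p0 α σ _)
  · cases c with
    | some c => exact D.rch_f α (some c) (mem_image_of_mem _ h)
    | none => obtain ⟨h, -, rfl, rfl⟩ := h; exact (D.rch_z α hI h x).1
  · cases c with
    | some c => exact D.rch_b α (some c) (mem_image_of_mem _ h)
    | none => obtain ⟨h, -, rfl, rfl⟩ := h; exact (D.rch_z α hI h x).2

end Data

end Vale.Agent.P189
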