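import Vale.Agent.P189.StepR

namespace Vale.Agent.P189

open MeasureTheory Finset

set_option linter.unusedSectionVars false

variable {G : Type} [Group G] {X : Type} [MeasurableSpace X] {μ : Measure X}
  {S H : Type} [DecidableEq S] [Fintype S] [DecidableEq H] [Fintype H]

lemma pow_bd (κ s t : ℕ) (hs : 1 ≤ s) (ht : 1 ≤ t) :
    κ * 4 ^ t + κ * 4 ^ t + κ + κ * 4 ^ s ≤ κ * 4 ^ (s + t) := by
  have h1 : 4 ≤ 4 ^ s := by simpa using Nat.pow_le_pow_right (n := 4) (by norm_num) hs
  have h2 : 4 ≤ 4 ^ t := by simpa using Nat.pow_le_pow_right (n := 4) (by norm_num) ht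
  have h3 : 4 ^ t + 4 ^ t + 1 + 4 ^ s ≤ 4 ^ (s + t) := by rw [pow_add]; nlinarith
  have := Nat.mul_le_mul_left κ h3
  linarith

namespace Env
open Data
variable {D : Data G S H} {α : PmpAction G μ} [IsProbabilityMeasure μ] {V : Env D α}

theorem stepM (d : Bool) (h h' : H) (f b b' : F) (k k' : H) (u : Bool → S) (hf : f ∈ D.B)
    (hu : ∀ d s x, TW α D.gen D.Wr s D.κ x (D.en d h) f (u d)) (hrw : D.RW α D.κ f)
    (A : Set X) (hA : MeasurableSet A) (hA' : μ.real A ≤ 1 / 8)
    (hind : k = k' → ∀ y ∈ A, α.act y (D.ι (b * (f * b')⁻¹)) ∉ A)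
    (σ : X → Loc S H) (hσ : V.Good σ) : ∃ σ', V.Good σ' ∧ D.Le α σ σ' ∧ ∀ y ∈ A,
      (σ y).ptr h = some (b, k) → (σ (α.act y (D.ι f))).ptr h' = some (b', k') →
      D.cv α σ y h < D.K → D.cv α σ (α.act y (D.ι f)) h' < D.K →
      (σ (α.act y (D.sd d * D.ι f))).s (u d) = (σ (α.act y (D.sd d * D.ι f))).s (D.en d h') →
      D.Same α σ' y h f h' := by
  classical
  have hI := hσ.inv
  let Fi : X → Prop := fun y => y ∈ A ∧ (σ y).ptr h = some (b, k) ∧
    (σ (α.act y (D.ι f))).ptr h' = some (b', k') ∧ (σ (α.act y (D.ι b))).sz k < D.K ∧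
    (σ (α.act y (D.ι (f * b')))).sz k' < D.K ∧
    (σ (α.act y (D.sd d * D.ι f))).s (u d) = (σ (α.act y (D.sd d * D.ι f))).s (D.en d h')
  have mF : MeasurableSet {x | Fi x} :=
    hA.inter ((hσ.ms.set fun l => l.ptr h = some (b, k)).inter
      (((hσ.ms.pre (α.meas _)).set fun l => l.ptr h' = some (b', k')).inter
      (((hσ.ms.pre (α.meas _)).set fun l => l.sz k < D.K).inter
      (((hσ.ms.pre (α.meas _)).set fun l => l.sz k' < D.K).inter
      ((hσ.ms.pre (α.meas _)).set fun l => l.s (u d) = l.s (D.en d h'))))))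
  let Re : X → H → Prop := fun x j => ∃ c, (σ x).ptr j = some (c, k') ∧
    Fi (α.act x (D.ι (c * (f * b')⁻¹)))
  have mR : Ms Re := Ms.pi fun j => Ms.of_set (by
    simp only [Re, Set.ofPred_exists]
    exact MeasurableSet.iUnion fun c =>
      (hσ.ms.set fun l => l.ptr j = some (c, k')).inter (α.meas _ mF))
  let e : F := (f * b')⁻¹ * b
  let g : G := D.sd (!d) * D.ι f
  let σ' : X → Loc S H := fun x =>
    { s := cmrg (Fi (α.act x g⁻¹)) (σ x).s (u (!d)) (D.en (!d) h')
      ptr := fun j => if Re x j then ((σ x).ptr j).map fun q => (q.1 * e, k) else (σ x).ptr j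
      sz := fun j => (σ x).sz j +
        ind (j = k ∧ Fi (α.act x (D.ι b⁻¹))) * (σ (α.act x (D.ι e⁻¹))).sz k' }
  have hm : Ms σ' := (((hσ.ms.pair (hσ.ms.pre (α.meas (D.ι e⁻¹)))).pair mR).pair
    (((Ms.of_set mF).pre (α.meas g⁻¹)).pair ((Ms.of_set mF).pre (α.meas (D.ι b⁻¹))))).comp fun q =>
    ({ s := cmrg q.2.1 q.1.1.1.s (u (!d)) (D.en (!d) h')
       ptr := fun j => if q.1.2 j then (q.1.1.1.ptr j).map fun q => (q.1 * e, k) else q.1.1.1.ptr j
       sz := fun j => q.1.1.1.sz j + ind (j = k ∧ q.2.2) * q.1.1.2.sz k' } :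
      Loc S H)
  have hc : ∀ x, Co (σ x).s (σ' x).s := fun x => co_cmrg _ _ _ _
  have pR : ∀ x j c, (σ x).ptr j = some (c, k') → Fi (α.act x (D.ι (c * (f * b')⁻¹))) →
      (σ' x).ptr j = some (c * e, k) := fun x j c e1 e2 => by
    simp only [σ']; rw [if_pos ⟨c, e1, e2⟩, e1]; rfl
  have pN : ∀ x j, ¬Re x j → (σ' x).ptr j = (σ x).ptr j := fun x j e => if_neg e
  have sz_le : ∀ x j, (σ x).sz j ≤ (σ' x).sz j := fun x j => Nat.le_add_right _ _
  have szW : ∀ y, Fi y → (σ' (α.act y (D.ι b))).sz k =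
      (σ (α.act y (D.ι b))).sz k + (σ (α.act y (D.ι (f * b')))).sz k' := fun y hy => by
    have : k = k ∧ Fi (α.act (α.act y (D.ι b)) (D.ι b⁻¹)) := ⟨rfl, by simpa using hy⟩
    change _ + ind (k = k ∧ _) * _ = _
    rw [ind_pos this]
    simp [e, mul_assoc]
  have nRW : ∀ y, Fi y → ¬Re (α.act y (D.ι b)) k := by
    rintro y hy ⟨c, e1, e2⟩
    rw [(hI.lk y h b k hy.2.1).rep] at e1
    cases e1
    exact hind rfl y hy.1 (by simpa using e2.1)
  have conn : ∀ y, Fi y → ∀ d', D.T α σ' D.κ (α.act y (D.sd d')) (D.en d' h) f (D.en d' h') := by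
    intro y hy d'
    have t1 := hu d' (fun x => (σ' x).s) (α.act y (D.sd d'))
    refine TW.cast (t1.trans (m := 0) (TW.refl ?_) rfl) (mul_one f)
    by_cases hd : d' = d
    · subst hd
      exact hc _ _ _ (by simpa [ι] using hy.2.2.2.2.2)
    · obtain rfl : d' = !d := by cases d <;> cases d' <;> simp_all
      refine cmrg_eq ?_ _ _ _
      have : α.act (α.act (α.act y (D.sd !d)) (FreeGroup.lift D.gen f)) g⁻¹ = y := by
        simp [g, ι]
      rwa [this]
  have hI' : D.Inv α σ' := by
    constructor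
    · intro x j c i e1
      by_cases hk : Re x j
      · obtain ⟨c', e2, hy⟩ := hk
        rw [pR x j c' e2 hy] at e1
        cases e1
        set y := α.act x (D.ι (c' * (f * b')⁻¹)) with hyd
        have L1 := hI.lk x j c' k' e2
        have L2 := hI.lk _ h' b' k' hy.2.2.1
        have L3 := hI.lk y h b k hy.2.1
        have ω : α.act x (D.ι (c' * e)) = α.act y (D.ι b) := by simp [hyd, e, mul_assoc]
        have la : α.act x (D.ι c') = α.act y (D.ι (f * b')) := by simp [hyd, mul_assoc]
        have la' : α.act (α.act y (D.ι f)) (D.ι b') = α.act y (D.ι (f * b')) := by simp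
        have hz := szW y hy
        have p1 := L1.pos
        have p3 := L3.pos
        have r1 := L1.rw
        have r2 := L2.rw
        have w1 := L1.tw
        have w2 := L2.tw
        rw [la] at p1 r1 w1
        rw [la'] at r2 w2
        have hbd := pow_bd D.κ _ _ p3 p1
        have hce : c' * b'⁻¹ * f⁻¹ * b = c' * e := by simp [e, mul_assoc]
        refine ⟨?_, D.B.mul_mem L1.mem (D.B.mul_mem (D.B.inv_mem (D.B.mul_mem hf L2.mem)) L3.mem),
          ?_, ?_, fun d' => ?_, ?_⟩
        · rw [ω, pN _ _ (nRW y hy), L3.rep]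
        · rw [ω, hz]; omega
        · rw [ω, hz]; have := hy.2.2.2.1; have := hy.2.2.2.2.1; omega
        · rw [ω, hz]
          have c1 := D.sd_comm d' L1.mem
          have c2 := D.sd_comm d' L2.mem
          have c3 := D.sd_comm d' hf
          have c4 := D.sd_comm d' (D.B.mul_mem L1.mem (D.B.inv_mem (D.B.mul_mem hf L2.mem)))
          have e0 : α.act y (D.sd d') = α.act (α.act x (D.sd d')) (D.ι (c' * (f * b')⁻¹)) := by
            rw [hyd, α.act_mul, α.act_mul, c4]
          have e1 : α.act (α.act y (D.ι f)) (D.sd d') = α.act (α.act y (D.sd d')) (D.ι f) := by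
            rw [α.act_mul y, α.act_mul y, c3]
          refine TW.le (TW.cast ((((T.co hc (w1 d')).trans (TW.symm (T.co hc (w2 d')) rfl) ?_).trans
            (TW.symm (conn y hy d') rfl) ?_).trans (T.co hc (L3.tw d')) ?_) hce) hbd
          · rw [e1, e0]; simp [ι, mul_assoc]
          · rw [e0]; simp [ι, mul_assoc]
          · rw [e0]; simp [ι, mul_assoc]
        · rw [ω, hz, ← hce]
          exact (((r1.mul r2.inv).mul hrw.inv).mul L3.rw).le hbd
      · rw [pN x j hk] at e1
        have L := hI.lk x j c i e1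
        refine L.mono hc ?_ (sz_le _ _) ?_
        · rw [pN, L.rep]
          rintro ⟨c', e2, hF⟩
          rw [L.rep] at e2
          cases e2
          exact hk ⟨c, e1, by simpa using hF⟩
        · by_cases hw : i = k ∧ Fi (α.act (α.act x (D.ι c)) (D.ι b⁻¹))
          · obtain ⟨rfl, hy⟩ := hw
            have := szW _ hy
            have a1 := hy.2.2.2.1
            have a2 := hy.2.2.2.2.1
            have a3 : α.act (α.act (α.act x (D.ι c)) (D.ι b⁻¹)) (D.ι b) = α.act x (D.ι c) := by simp
            rw [a3] at this a1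
            omega
          · simp only [σ']; rw [ind_neg hw]; simpa using L.le
    · intro x j e1 d'
      by_cases hk : Re x j
      · obtain ⟨c', e2, hy⟩ := hk
        rw [pR x j c' e2 hy] at e1
        cases e1
      · rw [pN x j hk] at e1
        exact T.co hc (hI.re x j e1 d')
  have hcv : ∀ x j, Re x j → D.cv α σ x j < D.cv α σ' x j := by
    rintro x j ⟨c', e2, hy⟩
    rw [cv_some e2, cv_some (pR x j c' e2 hy)]
    have ω : α.act x (D.ι (c' * e)) = α.act (α.act x (D.ι (c' * (f * b')⁻¹))) (D.ι b) := by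
      simp [e, mul_assoc]
    have la : α.act x (D.ι c') = α.act (α.act x (D.ι (c' * (f * b')⁻¹))) (D.ι (f * b')) := by
      simp [mul_assoc]
    rw [ω, szW _ hy, la]
    have := (hI.lk _ h b k hy.2.1).pos
    omega
  have hLe : D.Le α σ σ' := by
    refine ⟨hc, fun x j => ?_, fun x j e => ?_, fun x j f0 j' e0 => ?_⟩
    · by_cases hk : Re x j
      · exact (hcv x j hk).le
      · unfold cv; rw [pN x j hk]
        cases (σ x).ptr j with
        | none => exact le_rfl
        | some q => exact sz_le _ _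
    · by_cases hk : Re x j
      · have := hcv x j hk; omega
      · exact pN x j hk
    · rcases e0 with ⟨c, i, e1, e2⟩ | ⟨e1, e2⟩
      · by_cases hk : Re x j
        · obtain ⟨c', e3, hy⟩ := hk
          rw [e1] at e3
          cases e3
          exact Or.inl ⟨c * e, k, pR _ _ _ e1 hy, by
            rw [pR _ _ _ e2 (by simpa [mul_assoc] using hy), mul_assoc]⟩
        · refine Or.inl ⟨c, i, by rw [pN _ _ hk, e1], by
            rw [pN, e2]
            rintro ⟨c', e3, hy⟩
            rw [e2] at e3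
            cases e3
            exact hk ⟨c, e1, by simpa [mul_assoc] using hy⟩⟩
      · refine Or.inr ⟨?_, ?_⟩
        · rw [pN, e1]; rintro ⟨c, e', -⟩; rw [e1] at e'; cases e'
        · rw [pN, e2]; rintro ⟨c, e', -⟩; rw [e2] at e'; cases e'
  refine ⟨σ', hσ.step hm hI' hc (pot_le_of hσ.ms hm hc ?_) {x | α.act x g⁻¹ ∈ A} ?_ ?_,
    hLe, fun y hy e1 e2 e3 e4 e5 => ?_⟩
  · have i1 := Ig.ind (μ := μ) mF
    have i1' := i1.pre (α.mp g⁻¹)
    have h1 := Ex_mono (ig_cls hσ.ms) ((ig_cls hm).add i1') fun x => by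
      have a1 := cls_cmrg (Fi (α.act x g⁻¹)) (σ x).s (u (!d)) (D.en (!d) h')
      have a3 : ind (Fi (α.act x g⁻¹) ∧ (σ x).s (u (!d)) ≠ (σ x).s (D.en (!d) h')) ≤
          ind (Fi (α.act x g⁻¹)) := by
        by_cases hP : Fi (α.act x g⁻¹)
        · rw [ind_pos hP]; exact ind_le _
        · rw [ind_neg fun a => hP a.1]; exact Nat.zero_le _
      simp only [σ']
      omega
    rw [Ex_add (ig_cls hm) i1', Ex_pre i1 (α.mp _)] at h1
    have iZ := D.ig_Zc α hσ.ms hI
    have iZ' := D.ig_Zc α hm hI'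
    let q : X → ℕ := fun y => ind (Fi y) * (σ (α.act y (D.ι (f * b')))).sz k'
    have iq : Ig μ q := Ig.of_ms (((Ms.of_set mF).pair (hσ.ms.pre (α.meas _))).comp
      fun p => ind p.1 * p.2.sz k') D.K fun y => by
        by_cases hy : Fi y
        · simp only [q]; rw [ind_pos hy, one_mul]; exact hy.2.2.2.2.1.le
        · simp only [q]; rw [ind_neg hy]; simp
    have j1 := (i1.mul D.K).pre (α.mp (D.ι (f * b')⁻¹))
    have j2 := iq.pre (α.mp (D.ι (f * b')⁻¹))
    have j3 := iq.pre (α.mp (D.ι b⁻¹))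
    have h2 := Ex_mono (iZ'.add (j1.add j2)) (iZ.add j3) fun w => by
      have t : ∀ j, (if (σ' w).ptr j = some (1, j) then D.K + (σ' w).sz j else 0) +
          (if j = k' then D.K * ind (Fi (α.act w (D.ι (f * b')⁻¹))) +
            q (α.act w (D.ι (f * b')⁻¹)) else 0) ≤
          (if (σ w).ptr j = some (1, j) then D.K + (σ w).sz j else 0) +
          (if j = k then q (α.act w (D.ι b⁻¹)) else 0) := by
        intro j
        have hl : j = k' → Fi (α.act w (D.ι (f * b')⁻¹)) → (σ w).ptr j = some (1, j) := by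
          rintro rfl hy
          simpa [mul_assoc] using (hI.lk _ h' b' j hy.2.2.1).rep
        by_cases hk : Re w j
        · have n1 : (σ' w).ptr j ≠ some (1, j) := by
            obtain ⟨c, e1, hy⟩ := id hk
            rw [pR _ _ _ e1 hy]
            intro e2
            simp only [Option.some.injEq, Prod.mk.injEq] at e2
            obtain ⟨e2, rfl⟩ := e2
            refine nRW _ hy ?_
            have : α.act (α.act w (D.ι (c * (f * b')⁻¹))) (D.ι b) = w := by
              rw [α.act_mul, ← map_mul, mul_assoc, e2, map_one, α.act_one]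
            rwa [this]
          rw [if_neg n1]
          by_cases hj : j = k' ∧ Fi (α.act w (D.ι (f * b')⁻¹))
          · rw [if_pos hj.1, if_pos (hl hj.1 hj.2)]
            simp only [q]
            rw [ind_pos hj.2]
            obtain ⟨rfl, -⟩ := hj
            simp [mul_assoc]
          · by_cases hj' : j = k'
            · simp only [q]; rw [ind_neg fun a => hj ⟨hj', a⟩]; simp
            · rw [if_neg hj']; simp
        · have n2 : (if j = k' then D.K * ind (Fi (α.act w (D.ι (f * b')⁻¹))) +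
            q (α.act w (D.ι (f * b')⁻¹)) else 0) = 0 := by
            split_ifs with hj
            · simp only [q]
              rw [ind_neg fun a => hk ⟨1, by rw [hl hj a, hj], by simpa using a⟩]; simp
            · rfl
          rw [n2, pN _ _ hk]
          simp only [σ', q]
          by_cases hw : j = k ∧ Fi (α.act w (D.ι b⁻¹))
          · rw [ind_pos hw, if_pos hw.1, ind_pos hw.2]
            have : α.act (α.act w (D.ι b⁻¹)) (D.ι (f * b')) = α.act w (D.ι e⁻¹) := by
              simp [e, mul_assoc]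
            rw [this]
            split_ifs <;> omega
          · rw [ind_neg hw]; simp
      have := sum_le_sum (s := univ) fun j _ => t j
      simpa only [Zc, sum_add_distrib, sum_ite_eq', mem_univ, if_true] using this
    rw [Ex_add iZ' (j1.add j2), Ex_add j1 j2, Ex_add iZ j3, Ex_pre (i1.mul D.K) (α.mp _),
      Ex_pre iq (α.mp _), Ex_pre iq (α.mp _), Ex_mul] at h2
    have hK : (0 : ℝ) ≤ D.K := Nat.cast_nonneg _
    nlinarith [mul_le_mul_of_nonneg_left h1 hK]
  · rw [real_pre hA]; linarith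
  · intro x hx
    exact cmrg_neg (fun a : Fi _ => hx a.1) _ _ _
  · rw [cv_some e1] at e3
    rw [cv_some e2] at e4
    have hy : Fi y := ⟨hy, e1, e2, e3, by simpa using e4, e5⟩
    refine Or.inl ⟨b, k, ?_, ?_⟩
    · rw [pN, e1]
      rintro ⟨c, a1, a2⟩
      rw [e1] at a1
      cases a1
      exact hind rfl y hy.1 a2.1
    · rw [pR _ _ _ e2 (by simpa [mul_assoc] using hy)]
      simp [e, mul_assoc]

end Env

end Vale.Agent.P189
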