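import Vale.Agent.P189.Bfs

namespace Vale.Agent.P189

open MeasureTheory Finset

set_option linter.unusedSectionVars false

variable {G : Type} [Group G] {X : Type} [MeasurableSpace X] {μ : Measure X}
  {S H : Type} [DecidableEq S] [Fintype S] [DecidableEq H] [Fintype H]

/-- hypotheses on the action and on the initial labelling -/
structure Env (D : Data G S H) (α : PmpAction G μ) where
  s0 : X → S → S
  c0 : ℝ
  R0 : ∀ x u, ∃ w, Walk α D.gen3 (D.Wall fun _ => True) s0 x u w D.p0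
  gap : ∀ T, MeasurableSet T → μ.real {x | α.act x (D.gen true) ∈ T ∧
    ¬(x ∈ T ∧ α.act x (D.gen false) ∈ T)} ≤ c0 → μ.real T ≤ 1 / 2 → μ.real T ≤ 1 / 4

namespace Data
variable (D : Data G S H) (α : PmpAction G μ) [IsProbabilityMeasure μ]

def cv (σ : X → Loc S H) (x : X) (h : H) : ℕ :=
  match (σ x).ptr h with
  | none => 2 * D.K + 1
  | some q => (σ (α.act x (D.ι q.1))).sz q.2

def Same (σ : X → Loc S H) (x : X) (h : H) (f : F) (h' : H) : Prop :=
  (∃ b k, (σ x).ptr h = some (b, k) ∧ (σ (α.act x (D.ι f))).ptr h' = some (f⁻¹ * b, k)) ∨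
  ((σ x).ptr h = none ∧ (σ (α.act x (D.ι f))).ptr h' = none)

structure Le (σ σ' : X → Loc S H) : Prop where
  co : ∀ x, Co (σ x).s (σ' x).s
  cv_le : ∀ x h, D.cv α σ x h ≤ D.cv α σ' x h
  ptr : ∀ x h, D.cv α σ' x h = D.cv α σ x h → (σ' x).ptr h = (σ x).ptr h
  same : ∀ x h f h', D.Same α σ x h f h' → D.Same α σ' x h f h'

lemma le_rfl' (σ : X → Loc S H) : D.Le α σ σ :=
  ⟨fun _ => Co.refl _, fun _ _ => le_rfl, fun _ _ _ => rfl, fun _ _ _ _ h => h⟩

lemma le_trans' (a b c : X → Loc S H) (h : D.Le α a b) (h' : D.Le α b c) : D.Le α a c := by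
  refine ⟨fun x => (h.co x).trans (h'.co x), fun x k => (h.cv_le x k).trans (h'.cv_le x k),
    fun x k e => ?_, fun x k f k' e => h'.same _ _ _ _ (h.same _ _ _ _ e)⟩
  have h1 := h.cv_le x k
  have h2 := h'.cv_le x k
  rw [h'.ptr x k (by omega), h.ptr x k (by omega)]

variable {D α}

lemma cv_none {σ : X → Loc S H} {x h} (e : (σ x).ptr h = none) : D.cv α σ x h = 2 * D.K + 1 := by
  simp [cv, e]

lemma cv_some {σ : X → Loc S H} {x h b k} (e : (σ x).ptr h = some (b, k)) :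
    D.cv α σ x h = (σ (α.act x (D.ι b))).sz k := by
  simp [cv, e]

lemma Inv.cv_le {σ : X → Loc S H} (hI : D.Inv α σ) (x h) : D.cv α σ x h ≤ 2 * D.K + 1 := by
  cases e : (σ x).ptr h with
  | none => rw [cv_none e]
  | some q => rw [cv_some (b := q.1) (k := q.2) e]; have := (hI.lk x h q.1 q.2 e).le; omega

lemma Le.none {σ σ' : X → Loc S H} (h : D.Le α σ σ') (hI : D.Inv α σ') {x k}
    (e : (σ x).ptr k = none) : (σ' x).ptr k = none := by
  have h1 := h.cv_le x k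
  have h2 := hI.cv_le x k
  rw [h.ptr x k (by rw [cv_none e] at h1 ⊢; omega), e]

lemma T.co {σ σ' : X → Loc S H} (h : ∀ x, Co (σ x).s (σ' x).s) {n x u f v}
    (H : D.T α σ n x u f v) : D.T α σ' n x u f v := TW.co h H

lemma Lk.mono {σ σ' : X → Loc S H} {x h b k} (L : D.Lk α σ x h b k)
    (hc : ∀ x, Co (σ x).s (σ' x).s) (hr : (σ' (α.act x (D.ι b))).ptr k = some (1, k))
    (h1 : (σ (α.act x (D.ι b))).sz k ≤ (σ' (α.act x (D.ι b))).sz k)
    (h2 : (σ' (α.act x (D.ι b))).sz k ≤ 2 * D.K) : D.Lk α σ' x h b k := by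
  have h3 : D.κ * 4 ^ (σ (α.act x (D.ι b))).sz k ≤ D.κ * 4 ^ (σ' (α.act x (D.ι b))).sz k :=
    Nat.mul_le_mul_left _ (Nat.pow_le_pow_right (by norm_num) h1)
  exact ⟨hr, L.mem, L.pos.trans h1, h2, fun d => TW.le (T.co hc (L.tw d)) h3, L.rw.le h3⟩

end Data

namespace Env
open Data
variable {D : Data G S H} {α : PmpAction G μ} [IsProbabilityMeasure μ] (V : Env D α)

structure Good (σ : X → Loc S H) : Prop where
  ms : Ms σ
  inv : D.Inv α σ
  co : ∀ x, Co (V.s0 x) (σ x).s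
  pot : D.pot α σ ≤ D.K * (1 + V.c0)
  small : μ.real {x | D.Sx σ x} ≤ 1 / 4

variable {V}

lemma Good.step {σ σ' : X → Loc S H} (h : V.Good σ) (hm : Ms σ') (hI : D.Inv α σ')
    (hc : ∀ x, Co (σ x).s (σ' x).s) (hp : D.pot α σ' ≤ D.pot α σ) (A : Set X)
    (hA : μ.real A ≤ 1 / 4) (hS : ∀ x, x ∉ A → (σ' x).s = (σ x).s) : V.Good σ' := by
  have hco := fun x => (h.co x).trans (hc x)
  refine ⟨hm, hI, hco, hp.trans h.pot, V.gap _ (D.ms_Sx hm) ?_ ?_⟩
  · have h1 := (D.pot_ge α hm hI fun x u => by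
      obtain ⟨w, hw⟩ := V.R0 x u
      exact D.rch_all α hI (hw.mono hco fun _ _ _ h => h)).trans (hp.trans h.pot)
    have hK : (0 : ℝ) < D.K := by exact_mod_cast D.hK
    have := le_of_mul_le_mul_left h1 hK
    exact le_of_add_le_add_left this
  · have : {x | D.Sx σ' x} ⊆ {x | D.Sx σ x} ∪ A := fun x hx => by
      by_cases hx' : x ∈ A
      · exact Or.inr hx'
      · left; simp only [Set.mem_ofPred_eq, Sx] at hx ⊢; rwa [hS x hx'] at hx
    have h2 := (measureReal_mono this).trans (measureReal_union_le (μ := μ) _ _)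
    linarith [h.small]

lemma ex_EA_le {σ σ' : X → Loc S H} (hm : Ms σ) (hm' : Ms σ') (hc : ∀ x, Co (σ x).s (σ' x).s)
    (c : Bool) : Ex μ (D.EA α σ' c) ≤ Ex μ (D.EA α σ c) :=
  Ex_mono (D.ig_EA α hm' c) (D.ig_EA α hm c) fun _ => ecl_le (hc _) (hc _) _

lemma pot_le_of {σ σ' : X → Loc S H} (hm : Ms σ) (hm' : Ms σ') (hc : ∀ x, Co (σ x).s (σ' x).s)
    (h : D.K * (Ex μ (fun x => cls (σ x).s) - Ex μ fun x => cls (σ' x).s) +
      Ex μ (fun x => D.Zc (σ' x)) ≤ Ex μ fun x => D.Zc (σ x)) : D.pot α σ' ≤ D.pot α σ := by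
  have h1 := ex_EA_le (D := D) (α := α) hm hm' hc false
  have h2 := ex_EA_le (D := D) (α := α) hm hm' hc true
  have hK : (0 : ℝ) ≤ D.K := Nat.cast_nonneg _
  unfold Data.pot
  nlinarith [mul_le_mul_of_nonneg_left h1 hK, mul_le_mul_of_nonneg_left h2 hK]

/-- one propagation step -/
theorem stepP (l : Bool × Bool) (u v u' v' : S) (hd : Dir D.Wr l u v) (hd' : Dir D.Wr l u' v')
    (A : Set X) (hA : MeasurableSet A) (hA' : μ.real A ≤ 1 / 8) (σ : X → Loc S H)
    (hσ : V.Good σ) : ∃ σ', V.Good σ' ∧ D.Le α σ σ' ∧ ∀ x ∈ A,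
      (σ (α.act x (val D.gen [l]))).s v = (σ (α.act x (val D.gen [l]))).s v' →
      (σ' x).s u = (σ' x).s u' := by
  let Fi : X → Prop := fun x => x ∈ A ∧
    (σ (α.act x (val D.gen [l]))).s v = (σ (α.act x (val D.gen [l]))).s v'
  have mF : MeasurableSet {x | Fi x} :=
    hA.inter ((hσ.ms.pre (α.meas _)).set fun l => l.s v = l.s v')
  let σ' : X → Loc S H := fun x => { σ x with s := cmrg (Fi x) (σ x).s u u' }
  have hm : Ms σ' := (hσ.ms.pair (Ms.of_set mF)).comp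
    fun q => ({ q.1 with s := cmrg q.2 q.1.s u u' } : Loc S H)
  have hc : ∀ x, Co (σ x).s (σ' x).s := fun x => co_cmrg _ _ _ _
  have hI : D.Inv α σ' := ⟨fun x h b k e => (hσ.inv.lk x h b k e).mono hc
    (hσ.inv.lk x h b k e).rep le_rfl (hσ.inv.lk x h b k e).le,
    fun x h e d => T.co hc (hσ.inv.re x h e d)⟩
  refine ⟨σ', hσ.step hm hI hc ?_ A (by linarith) fun x hx => cmrg_neg (fun h => hx h.1) _ _ _,
    ⟨hc, fun _ _ => le_rfl, fun _ _ _ => rfl, fun _ _ _ _ h => h⟩,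
    fun x hx e => cmrg_eq (P := Fi x) ⟨hx, e⟩ _ _ _⟩
  obtain ⟨c, b⟩ := l
  have key : Ex μ (D.EA α σ' c) + Ex μ (fun x => cls (σ x).s) ≤
      Ex μ (D.EA α σ c) + Ex μ fun x => cls (σ' x).s := by
    rcases hd with ⟨hb, hd⟩ | ⟨hb, hd⟩
    · simp only at hb; subst hb
      have hd2 : D.Wr c u' v' := by simpa [Dir] using hd'
      rw [← Ex_add (D.ig_EA α hm c) (ig_cls hσ.ms), ← Ex_add (D.ig_EA α hσ.ms c) (ig_cls hm)]
      refine Ex_mono ((D.ig_EA α hm c).add (ig_cls hσ.ms))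
        ((D.ig_EA α hσ.ms c).add (ig_cls hm)) fun x => ?_
      have h1 := cls_cmrg (Fi x) (σ x).s u u'
      by_cases h : Fi x ∧ (σ x).s u ≠ (σ x).s u'
      · have h2 := ecl_lt (hc x) (hc (α.act x (D.gen c))) (D.W c) (a := (u, v)) (b := (u', v'))
          hd hd2 (fun e => h.2 e.1) (cmrg_eq h.1 _ _ _) (hc _ _ _ (by
            have := h.1.2; rwa [val_true] at this))
        rw [ind_pos h] at h1
        simp only [EA]; simp only [σ'] at h2 ⊢; omega
      · have h2 := ecl_le (hc x) (hc (α.act x (D.gen c))) (D.W c)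
        rw [ind_neg h] at h1
        simp only [EA]; simp only [σ'] at h2 ⊢; omega
    · simp only at hb; subst hb
      have hd2 : D.Wr c v' u' := by simpa [Dir] using hd'
      have i1 := (D.ig_EA α hm c).pre (α.mp (D.gen c)⁻¹)
      have i2 := (D.ig_EA α hσ.ms c).pre (α.mp (D.gen c)⁻¹)
      rw [← Ex_pre (D.ig_EA α hm c) (α.mp (D.gen c)⁻¹),
        ← Ex_pre (D.ig_EA α hσ.ms c) (α.mp (D.gen c)⁻¹),
        ← Ex_add i1 (ig_cls hσ.ms), ← Ex_add i2 (ig_cls hm)]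
      refine Ex_mono (i1.add (ig_cls hσ.ms)) (i2.add (ig_cls hm)) fun x => ?_
      have h1 := cls_cmrg (Fi x) (σ x).s u u'
      simp only [EA, α.act_mul, inv_mul_cancel, α.act_one]
      by_cases h : Fi x ∧ (σ x).s u ≠ (σ x).s u'
      · have h2 := ecl_lt (hc (α.act x (D.gen c)⁻¹)) (hc x) (D.W c) (a := (v, u)) (b := (v', u'))
          hd hd2 (fun e => h.2 e.2) (hc _ _ _ (by
            have := h.1.2; rwa [val_false] at this)) (cmrg_eq h.1 _ _ _)
        rw [ind_pos h] at h1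
        simp only [σ'] at h2 ⊢; omega
      · have h2 := ecl_le (hc (α.act x (D.gen c)⁻¹)) (hc x) (D.W c)
        rw [ind_neg h] at h1
        simp only [σ'] at h2 ⊢; omega
  have h1 := ex_EA_le (D := D) (α := α) hσ.ms hm hc (!c)
  have hK : (0 : ℝ) ≤ D.K := Nat.cast_nonneg _
  have hZ : Ex μ (fun x => D.Zc (σ' x)) = Ex μ fun x => D.Zc (σ x) := rfl
  unfold Data.pot
  rw [hZ]
  cases c <;> simp only [Bool.not_false, Bool.not_true] at h1 <;>
    nlinarith [mul_le_mul_of_nonneg_left h1 hK, mul_le_mul_of_nonneg_left key hK]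

end Env

end Vale.Agent.P189
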