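import Vale.Agent.P189.StepP

namespace Vale.Agent.P189

open MeasureTheory Finset

set_option linter.unusedSectionVars false

variable {G : Type} [Group G] {X : Type} [MeasurableSpace X] {μ : Measure X}
  {S H : Type} [DecidableEq S] [Fintype S] [DecidableEq H] [Fintype H]

namespace Env
open Data
variable {D : Data G S H} {α : PmpAction G μ} [IsProbabilityMeasure μ] {V : Env D α}

lemma real_pre {A : Set X} (hA : MeasurableSet A) (g : G) :
    μ.real {x | α.act x g ∈ A} = μ.real A :=
  (α.mp g).measureReal_preimage hA.nullMeasurableSet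

/-- the condition under which a class of crossing wires may be made real -/
def RC (D : Data G S H) (α : PmpAction G μ) (σ : X → Loc S H) (y : X) (h : H) : Prop :=
  D.K ≤ D.cv α σ y h ∨ (σ y).s (D.en false h) = (σ y).s D.p0 ∨
    (σ (α.act y D.z)).s (D.en true h) = (σ (α.act y D.z)).s D.p0

theorem stepR (h : H) (b : F) (k : H) (A : Set X) (hA : MeasurableSet A) (hA' : μ.real A ≤ 1 / 8)
    (σ : X → Loc S H) (hσ : V.Good σ) : ∃ σ', V.Good σ' ∧ D.Le α σ σ' ∧ ∀ y ∈ A,
      (σ y).ptr h = some (b, k) → RC D α σ y h → (σ' y).ptr h = none := by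
  classical
  have hI := hσ.inv
  let Fi : X → Prop := fun y => y ∈ A ∧ (σ y).ptr h = some (b, k) ∧
    (D.K ≤ (σ (α.act y (D.ι b))).sz k ∨ (σ y).s (D.en false h) = (σ y).s D.p0 ∨
    (σ (α.act y D.z)).s (D.en true h) = (σ (α.act y D.z)).s D.p0)
  have mF : MeasurableSet {x | Fi x} :=
    hA.inter ((hσ.ms.set fun l => l.ptr h = some (b, k)).inter
      (((hσ.ms.pre (α.meas _)).set fun l => D.K ≤ l.sz k).union
      ((hσ.ms.set fun l => l.s (D.en false h) = l.s D.p0).union
      ((hσ.ms.pre (α.meas _)).set fun l => l.s (D.en true h) = l.s D.p0))))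
  let Ki : X → H → Prop := fun x j => ∃ c, (σ x).ptr j = some (c, k) ∧
    Fi (α.act x (D.ι (c * b⁻¹)))
  have mK : Ms Ki := Ms.pi fun j => Ms.of_set (by
    simp only [Ki, Set.ofPred_exists]
    exact MeasurableSet.iUnion fun c =>
      (hσ.ms.set fun l => l.ptr j = some (c, k)).inter (α.meas _ mF))
  let σ' : X → Loc S H := fun x =>
    { s := cmrg (Fi (α.act x D.z⁻¹)) (cmrg (Fi x) (σ x).s (D.en false h) D.p0) (D.en true h) D.p0
      ptr := fun j => if Ki x j then none else (σ x).ptr j
      sz := (σ x).sz }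
  have hm : Ms σ' := ((hσ.ms.pair mK).pair ((Ms.of_set mF).pair
    ((Ms.of_set mF).pre (α.meas D.z⁻¹)))).comp fun q =>
    ({ s := cmrg q.2.2 (cmrg q.2.1 q.1.1.s (D.en false h) D.p0) (D.en true h) D.p0
       ptr := fun j => if q.1.2 j then none else q.1.1.ptr j
       sz := q.1.1.sz } : Loc S H)
  have hc : ∀ x, Co (σ x).s (σ' x).s := fun x => (co_cmrg _ _ _ _).trans (co_cmrg _ _ _ _)
  have pK : ∀ x j, Ki x j → (σ' x).ptr j = none := fun x j e => if_pos e
  have pN : ∀ x j, ¬Ki x j → (σ' x).ptr j = (σ x).ptr j := fun x j e => if_neg e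
  have hend : ∀ y, Fi y → ∀ d, (σ' (α.act y (D.sd d))).s (D.en d h) =
      (σ' (α.act y (D.sd d))).s D.p0 := by
    intro y hy d
    cases d
    · simp only [sd, Bool.false_eq_true, if_false, α.act_one]
      exact co_cmrg _ _ _ _ _ _ (cmrg_eq hy _ _ _)
    · simp only [sd, if_true]
      exact cmrg_eq (by simpa using hy) _ _ _
  have hI' : D.Inv α σ' := by
    constructor
    · intro x j c i e
      have nK : ¬Ki x j := fun hk => by rw [pK x j hk] at e; cases e
      rw [pN x j nK] at e
      have L := hI.lk x j c i e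
      refine L.mono hc ?_ le_rfl L.le
      rw [pN, L.rep]
      rintro ⟨c', e', hF⟩
      rw [L.rep] at e'
      cases e'
      exact nK ⟨c, e, by simpa using hF⟩
    · intro x j e d
      by_cases hk : Ki x j
      · obtain ⟨c, e', hF⟩ := hk
        have L := hI.lk x j c k e'
        have L' := hI.lk _ h b k hF.2.1
        have hb := L'.mem
        have hcb := D.sd_comm d (D.B.mul_mem L.mem (D.B.inv_mem hb))
        have t1 := TW.le (T.co hc (L.tw d)) L.bd
        have t2 := TW.symm (TW.le (T.co hc (L'.tw d)) L'.bd) rfl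
        have t3 : D.T α σ' 0 _ _ 1 _ := TW.refl (hend _ hF d)
        have t4 := ((L'.rw.le L'.bd).mul (L.rw.le L.bd).inv) (fun x => (σ' x).s)
          (α.act (α.act x (D.ι (c * b⁻¹))) (D.sd d))
        have e1 : α.act (α.act x (D.ι (c * b⁻¹))) (D.sd d) =
            α.act (α.act x (D.sd d)) (D.ι (c * b⁻¹)) := by rw [α.act_mul, α.act_mul, hcb]
        refine TW.le (TW.cast ((((t1.trans t2 ?_).trans t3 e1).trans t4 ?_)) (by group))
          (by omega)
        · rw [e1]; simp [ι, mul_assoc]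
        · rw [e1, mul_one]; rfl
      · rw [pN x j hk] at e
        exact T.co hc (hI.re x j e d)
  have hLe : D.Le α σ σ' := by
    refine ⟨hc, fun x j => ?_, fun x j e => ?_, fun x j f j' e => ?_⟩
    · by_cases hk : Ki x j
      · rw [cv_none (pK x j hk)]; exact hI.cv_le x j
      · unfold cv; rw [pN x j hk]
    · by_cases hk : Ki x j
      · obtain ⟨c, e', -⟩ := id hk
        rw [cv_none (pK x j hk), cv_some e'] at e
        have := (hI.lk x j c k e').le
        omega
      · exact pN x j hk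
    · rcases e with ⟨c, i, e1, e2⟩ | ⟨e1, e2⟩
      · have hiff : Ki x j ↔ Ki (α.act x (D.ι f)) j' := by
          simp only [Ki, e1, e2, Option.some.injEq, Prod.mk.injEq]
          constructor
          · rintro ⟨_, ⟨rfl, rfl⟩, hF⟩
            exact ⟨_, ⟨rfl, rfl⟩, by simpa [mul_assoc] using hF⟩
          · rintro ⟨_, ⟨rfl, rfl⟩, hF⟩
            exact ⟨_, ⟨rfl, rfl⟩, by simpa [mul_assoc] using hF⟩
        by_cases hk : Ki x j
        · exact Or.inr ⟨pK _ _ hk, pK _ _ (hiff.1 hk)⟩
        · exact Or.inl ⟨c, i, by rw [pN _ _ hk, e1], by rw [pN _ _ (mt hiff.2 hk), e2]⟩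
      · refine Or.inr ⟨?_, ?_⟩
        · rw [pN, e1]; rintro ⟨c, e', -⟩; rw [e1] at e'; cases e'
        · rw [pN, e2]; rintro ⟨c, e', -⟩; rw [e2] at e'; cases e'
  refine ⟨σ', hσ.step hm hI' hc (pot_le_of hσ.ms hm hc ?_) (A ∪ {x | α.act x D.z⁻¹ ∈ A}) ?_ ?_,
    hLe, fun y hy e hr => pK y h ⟨b, e, ?_⟩⟩
  · let P1 : X → Prop := fun y => Fi y ∧ (σ y).s (D.en false h) ≠ (σ y).s D.p0
    let P2 : X → Prop := fun y => Fi y ∧
      (σ (α.act y D.z)).s (D.en true h) ≠ (σ (α.act y D.z)).s D.p0
    have m1 : MeasurableSet {y | P1 y} :=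
      mF.inter (hσ.ms.set fun l => l.s (D.en false h) ≠ l.s D.p0)
    have m2 : MeasurableSet {y | P2 y} :=
      mF.inter ((hσ.ms.pre (α.meas _)).set fun l => l.s (D.en true h) ≠ l.s D.p0)
    have i1 := Ig.ind (μ := μ) m1
    have i2 := Ig.ind (μ := μ) m2
    have i2' := i2.pre (α.mp D.z⁻¹)
    have h1 := Ex_mono (ig_cls hσ.ms) (((ig_cls hm).add i1).add i2') fun x => by
      have a1 := cls_cmrg (Fi x) (σ x).s (D.en false h) D.p0
      have a2 := cls_cmrg (Fi (α.act x D.z⁻¹)) (cmrg (Fi x) (σ x).s (D.en false h) D.p0)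
        (D.en true h) D.p0
      have a3 : ind (Fi (α.act x D.z⁻¹) ∧ cmrg (Fi x) (σ x).s (D.en false h) D.p0 (D.en true h) ≠
          cmrg (Fi x) (σ x).s (D.en false h) D.p0 D.p0) ≤ ind (P2 (α.act x D.z⁻¹)) := by
        by_cases hP : P2 (α.act x D.z⁻¹)
        · rw [ind_pos hP]; exact ind_le _
        · rw [ind_neg, ind_neg hP]
          rintro ⟨a, a'⟩
          refine hP ⟨a, fun e => a' (co_cmrg _ _ _ _ _ _ (by simpa using e))⟩
      simp only [σ', P1]
      omega
    rw [Ex_add ((ig_cls hm).add i1) i2', Ex_add (ig_cls hm) i1, Ex_pre i2 (α.mp _)] at h1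
    have iZ := D.ig_Zc α hσ.ms hI
    have iZ' := D.ig_Zc α hm hI'
    have h2 := Ex_mono ((iZ'.pre (α.mp (D.ι b))).add ((i1.add i2).mul D.K))
      (iZ.pre (α.mp (D.ι b))) fun y => by
        have a0 : ∀ j, (if (σ' (α.act y (D.ι b))).ptr j = some (1, j) then
            D.K + (σ' (α.act y (D.ι b))).sz j else 0) ≤
            if (σ (α.act y (D.ι b))).ptr j = some (1, j) then
            D.K + (σ (α.act y (D.ι b))).sz j else 0 := fun j => by
          by_cases hk : Ki (α.act y (D.ι b)) j
          · rw [pK _ _ hk]; simp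
          · rw [pN _ _ hk]
        by_cases hy : Fi y
        · have L := hI.lk y h b k hy.2.1
          have hk : Ki (α.act y (D.ι b)) k := ⟨1, L.rep, by simpa using hy⟩
          unfold Zc
          rw [← add_sum_erase _ _ (mem_univ k), ← add_sum_erase _ _ (mem_univ k), pK _ _ hk,
            if_pos L.rep]
          have a1 := sum_le_sum (s := univ.erase k) fun j _ => a0 j
          have a2 : D.K * (ind (P1 y) + ind (P2 y)) ≤ D.K + (σ (α.act y (D.ι b))).sz k := by
            have b1 := ind_le (P1 y)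
            have b2 := ind_le (P2 y)
            rcases hy.2.2 with e | e | e
            · nlinarith
            · rw [ind_neg (P := P1 y) fun a => a.2 e]; nlinarith
            · rw [ind_neg (P := P2 y) fun a => a.2 e]; nlinarith
          simp only [reduceCtorEq, if_false]
          omega
        · rw [ind_neg (P := P1 y) fun a => hy a.1, ind_neg (P := P2 y) fun a => hy a.1]
          simpa [Zc] using sum_le_sum fun j _ => a0 j
    rw [Ex_add (iZ'.pre (α.mp _)) ((i1.add i2).mul D.K), Ex_mul, Ex_add i1 i2,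
      Ex_pre iZ' (α.mp _), Ex_pre iZ (α.mp _)] at h2
    have hK : (0 : ℝ) ≤ D.K := Nat.cast_nonneg _
    nlinarith [mul_le_mul_of_nonneg_left h1 hK]
  · have := measureReal_union_le (μ := μ) A {x | α.act x D.z⁻¹ ∈ A}
    rw [real_pre hA] at this
    linarith
  · intro x hx
    simp only [Set.mem_union, Set.mem_ofPred_eq, not_or] at hx
    simp only [σ']
    rw [cmrg_neg (fun a : Fi _ => hx.2 a.1), cmrg_neg (fun a : Fi _ => hx.1 a.1)]
  · simp only [mul_inv_cancel, map_one, α.act_one]
    refine ⟨hy, e, ?_⟩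
    unfold RC at hr
    rwa [cv_some e] at hr

end Env

end Vale.Agent.P189
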