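import Vale.Agent.P189.Fin

namespace Vale.Agent.P189

open MeasureTheory FreeGroup

set_option linter.unusedSectionVars false

variable {G : Type} [Group G] {X : Type} [MeasurableSpace X] {μ : Measure X}
  {S : Type} [DecidableEq S] {A : Type}

attribute [simp] PmpAction.act_one PmpAction.act_mul

lemma PmpAction.meas (α : PmpAction G μ) (g : G) : Measurable fun x => α.act x g :=
  (α.mp g).measurable

/-- directed wire relation -/
def Dir (Wr : A → S → S → Prop) (l : A × Bool) (u v : S) : Prop :=
  (l.2 = true ∧ Wr l.1 u v) ∨ (l.2 = false ∧ Wr l.1 v u)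

lemma Dir.flip {Wr : A → S → S → Prop} {c : A} {b : Bool} {u v : S} (h : Dir Wr (c, b) u v) :
    Dir Wr (c, !b) v u := by
  cases b <;> simp_all [Dir]

/-- value of a word -/
def val (gen : A → G) (w : List (A × Bool)) : G := lift gen (mk w)

@[simp] lemma val_nil (gen : A → G) : val gen [] = 1 := by
  unfold val; rw [← one_eq_mk, _root_.map_one]

lemma val_append (gen : A → G) (w w' : List (A × Bool)) :
    val gen (w ++ w') = val gen w * val gen w' := by
  unfold val; rw [← mul_mk, _root_.map_mul]

lemma val_cons (gen : A → G) (l : A × Bool) (w : List (A × Bool)) :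
    val gen (l :: w) = val gen [l] * val gen w := val_append gen [l] w

lemma val_invRev (gen : A → G) (w : List (A × Bool)) : val gen (invRev w) = (val gen w)⁻¹ := by
  unfold val; rw [← inv_mk, _root_.map_inv]

lemma val_flip (gen : A → G) (c : A) (b : Bool) : val gen [(c, !b)] = (val gen [(c, b)])⁻¹ := by
  rw [← val_invRev]; rfl

lemma val_true (gen : A → G) (c : A) : val gen [(c, true)] = gen c := by simp [val]

lemma val_false (gen : A → G) (c : A) : val gen [(c, false)] = (gen c)⁻¹ := by simp [val]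

/-- walks through slots -/
inductive Walk (α : PmpAction G μ) (gen : A → G) (Wr : A → S → S → Prop) (s : X → S → S) :
    X → S → List (A × Bool) → S → Prop
  | nil {x u v} : s x u = s x v → Walk α gen Wr s x u [] v
  | step {x u u' v' l w v} : s x u = s x u' → Dir Wr l u' v' →
      Walk α gen Wr s (α.act x (val gen [l])) v' w v → Walk α gen Wr s x u (l :: w) v

namespace Walk
variable {α : PmpAction G μ} {gen : A → G} {Wr : A → S → S → Prop} {s : X → S → S}

lemma pre {x u u' w v} (h : s x u = s x u') (H : Walk α gen Wr s x u' w v) :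
    Walk α gen Wr s x u w v := by
  cases H with
  | nil e => exact nil (h.trans e)
  | step e d H => exact step (h.trans e) d H

lemma append {x u w v w' v'} (H : Walk α gen Wr s x u w v)
    (H' : Walk α gen Wr s (α.act x (val gen w)) v w' v') : Walk α gen Wr s x u (w ++ w') v' := by
  induction H with
  | nil e => simp only [val_nil, α.act_one] at H'; exact pre e H'
  | step e d _ ih =>
    refine step e d (ih ?_)
    rwa [val_cons, ← α.act_mul] at H'

lemma single {x u v l} (d : Dir Wr l u v) : Walk α gen Wr s x u [l] v := step rfl d (nil rfl)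

lemma symm {x u w v} (H : Walk α gen Wr s x u w v) :
    Walk α gen Wr s (α.act x (val gen w)) v (invRev w) u := by
  induction H with
  | nil e => simp only [val_nil, α.act_one]; exact nil e.symm
  | @step x u u' v' l w v e d _ ih =>
    rw [invRev_cons, val_cons, ← α.act_mul]
    refine append ih ?_
    obtain ⟨c, b⟩ := l
    refine step rfl d.flip (nil ?_)
    simp only [val_invRev, val_flip, α.act_mul, mul_inv_cancel_right, mul_inv_cancel, α.act_one]
    exact e.symm

lemma mono {s' : X → S → S} {Wr' : A → S → S → Prop} (hs : ∀ x, Co (s x) (s' x))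
    (hW : ∀ c u v, Wr c u v → Wr' c u v) {x u w v} (H : Walk α gen Wr s x u w v) :
    Walk α gen Wr' s' x u w v := by
  induction H with
  | nil e => exact nil (hs _ _ _ e)
  | step e d _ ih =>
    refine step (hs _ _ _ e) ?_ ih
    rcases d with d | d
    · exact Or.inl ⟨d.1, hW _ _ _ d.2⟩
    · exact Or.inr ⟨d.1, hW _ _ _ d.2⟩

lemma eq {x u v} (H : Walk α gen Wr s x u [] v) : s x u = s x v := by
  cases H with
  | nil e => exact e

end Walk

/-- the effect of one round of propagation along all wires -/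
def RoundEff (α : PmpAction G μ) (gen : A → G) (Wr : A → S → S → Prop) (s s' : X → S → S) : Prop :=
  ∀ x l u v u' v', Dir Wr l u v → Dir Wr l u' v' →
    s (α.act x (val gen [l])) v = s (α.act x (val gen [l])) v' → s' x u = s' x u'

lemma Walk.back {α : PmpAction G μ} {gen : A → G} {Wr : A → S → S → Prop} {s s' : X → S → S}
    (hs : ∀ x, Co (s x) (s' x)) (hR : RoundEff α gen Wr s s') {w w' : List (A × Bool)}
    (hw : Red.Step w w') {x u v} (H : Walk α gen Wr s x u w v) : Walk α gen Wr s' x u w' v := by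
  cases hw with
  | @not L₁ L₂ c b =>
    induction L₁ generalizing x u with
    | nil =>
      cases H with
      | step e d H =>
        cases H with
        | step e' d' H =>
          have d'' := d'.flip
          rw [Bool.not_not] at d''
          have h1 := hR x _ _ _ _ _ d d'' e'
          simp only [val_flip, α.act_mul, mul_inv_cancel, α.act_one] at H
          exact pre ((hs _ _ _ e).trans h1) (mono hs (fun _ _ _ h => h) H)
    | cons l L ih =>
      cases H with
      | step e d H => exact step (hs _ _ _ e) d (ih H)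

/-- tree walks of bounded length with a given label in the free group -/
def TW (α : PmpAction G μ) (gen : A → G) (Wr : A → S → S → Prop) (s : X → S → S) (n : ℕ)
    (x : X) (u : S) (f : FreeGroup A) (v : S) : Prop :=
  ∃ w, w.length ≤ n ∧ mk w = f ∧ Walk α gen Wr s x u w v

namespace TW
variable {α : PmpAction G μ} {gen : A → G} {Wr : A → S → S → Prop} {s : X → S → S}

lemma refl {n x u v} (h : s x u = s x v) : TW α gen Wr s n x u 1 v :=
  ⟨[], by simp, rfl, Walk.nil h⟩

lemma le {n m x u f v} (H : TW α gen Wr s n x u f v) (h : n ≤ m) : TW α gen Wr s m x u f v := by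
  obtain ⟨w, h1, h2, h3⟩ := H
  exact ⟨w, h1.trans h, h2, h3⟩

lemma co {s' : X → S → S} (hs : ∀ x, Co (s x) (s' x)) {n x u f v}
    (H : TW α gen Wr s n x u f v) : TW α gen Wr s' n x u f v := by
  obtain ⟨w, h1, h2, h3⟩ := H
  exact ⟨w, h1, h2, h3.mono hs fun _ _ _ h => h⟩

lemma trans {n m x y u f v g v'} (H : TW α gen Wr s n x u f v) (H' : TW α gen Wr s m y v g v')
    (hy : y = α.act x (lift gen f)) : TW α gen Wr s (n + m) x u (f * g) v' := by
  obtain ⟨w, h1, rfl, h3⟩ := H
  obtain ⟨w', h1', rfl, h3'⟩ := H'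
  subst hy
  exact ⟨w ++ w', by simp; omega, by rw [mul_mk], h3.append h3'⟩

lemma symm {n x y u f v} (H : TW α gen Wr s n x u f v) (hy : y = α.act x (lift gen f)) :
    TW α gen Wr s n y v f⁻¹ u := by
  obtain ⟨w, h1, rfl, h3⟩ := H
  subst hy
  exact ⟨invRev w, by simpa using h1, by rw [inv_mk], h3.symm⟩

lemma cast {n x u f g v} (H : TW α gen Wr s n x u f v) (h : f = g) : TW α gen Wr s n x u g v :=
  h ▸ H

lemma norm_le [DecidableEq A] {n x u f v} (H : TW α gen Wr s n x u f v) : f.norm ≤ n := by
  obtain ⟨w, h1, rfl, -⟩ := H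
  exact norm_mk_le.trans h1

end TW

lemma finite_norm_le [DecidableEq A] [Finite A] (n : ℕ) : {f : FreeGroup A | f.norm ≤ n}.Finite :=
  Set.Finite.preimage toWord_injective.injOn (List.finite_length_le (A × Bool) n)

/-! abstract sweeps -/

section sweep
variable {T : Type} (Good : T → Prop) (Le : T → T → Prop)

lemma sweep (hr : ∀ a, Le a a) (ht : ∀ a b c, Le a b → Le b c → Le a c) {I : Type}
    (Eff : I → T → T → Prop) {P : Set I} (hP : P.Finite)
    (h : ∀ i ∈ P, ∀ a, Good a → ∃ b, Good b ∧ Le a b ∧ Eff i a b) (a : T) (ha : Good a) :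
    ∃ b, Good b ∧ Le a b ∧ ∀ i ∈ P, ∃ a1 a2, Good a1 ∧ Good a2 ∧ Le a a1 ∧ Eff i a1 a2 ∧
      Le a1 a2 ∧ Le a2 b := by
  induction P, hP using Set.Finite.induction_on with
  | empty => exact ⟨a, ha, hr a, by simp⟩
  | @insert i P _ _ ih =>
    obtain ⟨b, hb, hab, H⟩ := ih fun j hj => h j (Set.mem_insert_of_mem _ hj)
    obtain ⟨c, hc, hbc, He⟩ := h i (Set.mem_insert _ _) b hb
    refine ⟨c, hc, ht _ _ _ hab hbc, fun j hj => ?_⟩
    rcases hj with rfl | hj
    · exact ⟨b, c, hb, hc, hab, He, hbc, hr c⟩
    · obtain ⟨a1, a2, h1, h2, h3, h4, h5, h6⟩ := H j hj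
      exact ⟨a1, a2, h1, h2, h3, h4, h5, ht _ _ _ h6 hbc⟩

lemma untilGoal (hr : ∀ a, Le a a) (ht : ∀ a b c, Le a b → Le b c → Le a c) {J : Type}
    (Pre Goal : T → J → Prop) (rk : T → J → ℕ) (N : ℕ)
    (hPre : ∀ a b j, Good a → Good b → Le a b → Pre a j → Pre b j)
    (hGoal : ∀ a b j, Good a → Good b → Le a b → Goal a j → Goal b j)
    (hN : ∀ a j, Good a → rk a j ≤ N)
    (h : ∀ a, Good a → ∃ b, Good b ∧ Le a b ∧ ∀ j, Pre a j → Goal b j ∨ rk a j < rk b j)
    (a : T) (ha : Good a) : ∃ b, Good b ∧ Le a b ∧ ∀ j, Pre a j → Goal b j := by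
  have key : ∀ n, ∃ b, Good b ∧ Le a b ∧ ∀ j, Pre a j → Goal b j ∨ n ≤ rk b j := by
    intro n
    induction n with
    | zero => exact ⟨a, ha, hr a, fun j _ => Or.inr (Nat.zero_le _)⟩
    | succ n ih =>
      obtain ⟨b, hb, hab, H⟩ := ih
      obtain ⟨c, hc, hbc, H'⟩ := h b hb
      refine ⟨c, hc, ht _ _ _ hab hbc, fun j hj => ?_⟩
      rcases H j hj with h1 | h1
      · exact Or.inl (hGoal _ _ _ hb hc hbc h1)
      · rcases H' j (hPre _ _ _ ha hb hab hj) with h2 | h2
        · exact Or.inl h2
        · exact Or.inr (by omega)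
  obtain ⟨b, hb, hab, H⟩ := key (N + 1)
  refine ⟨b, hb, hab, fun j hj => (H j hj).resolve_right ?_⟩
  have := hN b j hb
  omega

end sweep

end Vale.Agent.P189
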